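import Vale.Agent.P244.X.Tame

/-!
Block X: bounds for the coefficients.
`B`: `|B y| ≤ sup |D B|` (`S.lip` with `B 1 = 0`), `D B = -2 w (4 A'² + 5 β'²)` on `[0, 1]`
(`bd_succ`, `Bd.congr`, `Bd.D`, `bd_mul`; write squares as products).  In `coef_tame` use
`bd_mul_tame` for `A' * A'` (`Bd m A' K`, `Bd (m + 1) A' M`), the plain bound `bd_w (m + 1) K`
for `w` inside `D B`, and `bd_w_tame (m + 1) K` for `w` in the coefficients.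
`Lop_bd`: `bd_mul`, `Bd.D`, `Bd.of_le`.  `rhs_bd`: `coef_bd (m + 1)`, `Lop_bd`.
-/

namespace Vale.Agent.P244.X

open scoped ContDiff Topology
open Set Filter

theorem coef_lin {n : ℕ} {A β B : ℝ → ℝ} {N : ℝ} (h : Tri A β B)
    (wA : Bd n (fun y => Real.exp (-2 * A y)) N) (wβ : Bd n (fun y => Real.exp (-2 * β y)) N)
    (hb : Bd n B N) : Bd n (a2 A) (28 * 2 ^ n * N) ∧ Bd n (a1 A B) (28 * 2 ^ n * N) ∧
      Bd n (fA A B) (28 * 2 ^ n * N) ∧ Bd n (fB β) (28 * 2 ^ n * N) ∧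
      Bd n B (28 * 2 ^ n * N) := by
  have h0 := hb.nonneg
  have h1 : N ≤ 2 ^ n * N := le_mul_of_one_le_left h0 (one_le_pow₀ one_le_two)
  refine ⟨(bd_mul (S.v.cmul 4) h.sA.w ((bd_v n).cmul S.v 4) wA).mono ?_,
    ((bd_mul (S.c.cmul 12) h.sA.w ((bd_c n).cmul S.c 12) wA).add
      (bd_mul (S.v.cmul 2) h.sB ((bd_v n).cmul S.v 2) hb) ((S.c.cmul 12).mul h.sA.w)
      ((S.v.cmul 2).mul h.sB)).mono ?_,
    ((wA.cmul h.sA.w (-20)).add (bd_mul S.c h.sB (bd_c n) hb) (h.sA.w.cmul _)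
      (S.c.mul h.sB)).mono ?_, (wβ.cmul h.sβ.w (-4)).mono ?_, hb.mono (by linarith)⟩ <;>
  · simp only [abs_neg, Nat.abs_ofNat]
    linarith

theorem coef_B {n : ℕ} {A β B : ℝ → ℝ} {W Q : ℝ} (h : Tri A β B)
    (wA : Bd n (fun y => Real.exp (-2 * A y)) W) (qA : Bd n (fun y => D A y * D A y) Q)
    (qβ : Bd n (fun y => D β y * D β y) Q) : Bd (n + 1) B (18 * 2 ^ n * W * Q) := by
  have s1 := h.sA.D.mul h.sA.D
  have s2 := h.sβ.D.mul h.sβ.D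
  have h1 : Bd n (D B) (18 * 2 ^ n * W * Q) := by
    refine ((bd_mul (h.sA.w.cmul (-2)) ((s1.cmul 4).add (s2.cmul 5)) (wA.cmul h.sA.w (-2))
      ((qA.cmul s1 4).add (qβ.cmul s2 5) (s1.cmul 4) (s2.cmul 5))).congr
      fun y hy => (h.eqB y hy).trans (by ring)).mono (le_of_eq ?_)
    simp only [abs_neg, Nat.abs_ofNat]
    ring
  refine bd_succ (fun y hy => ?_) h1
  have h2 := h.sB.lip (fun y hy => h1.zero hy) ⟨zero_le_one, le_rfl⟩ hy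
  rw [h.one, sub_zero] at h2
  exact h2.trans (mul_le_of_le_one_right h1.nonneg
    (abs_le.2 ⟨by linarith [hy.1], by linarith [hy.2]⟩))

theorem coef_bd (m : ℕ) (K : ℝ) : ∃ C, 0 ≤ C ∧ ∀ A β B, Tri A β B →
    Bd (m + 1) A K → Bd (m + 1) β K →
    Bd (m + 1) (a2 A) C ∧ Bd (m + 1) (a1 A B) C ∧ Bd (m + 1) (fA A B) C ∧
      Bd (m + 1) (fB β) C ∧ Bd (m + 1) B C := by
  obtain ⟨W, hW, hw⟩ := bd_w (m + 1) K
  have h0 : 0 ≤ 18 * 2 ^ m * W * (2 ^ m * K * K) := by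
    rw [mul_assoc _ K K]
    have := mul_self_nonneg K
    positivity
  refine ⟨28 * 2 ^ (m + 1) * (W + 18 * 2 ^ m * W * (2 ^ m * K * K)), by positivity,
    fun A β B h hA hβ => coef_lin h ((hw A h.sA hA).mono (by linarith))
      ((hw β h.sβ hβ).mono (by linarith)) ?_⟩
  exact (coef_B h ((hw A h.sA hA).of_le (Nat.le_succ m)) (bd_mul h.sA.D h.sA.D hA.D hA.D)
    (bd_mul h.sβ.D h.sβ.D hβ.D hβ.D)).mono (by linarith)

theorem coef_tame (m : ℕ) (K : ℝ) : ∃ C, 0 ≤ C ∧ ∀ A β B M, Tri A β B →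
    Bd (m + 1) A K → Bd (m + 1) β K → Bd (m + 2) A M → Bd (m + 2) β M →
    Bd (m + 2) (a2 A) (C * (1 + M)) ∧ Bd (m + 2) (a1 A B) (C * (1 + M)) ∧
      Bd (m + 2) (fA A B) (C * (1 + M)) ∧ Bd (m + 2) (fB β) (C * (1 + M)) := by
  obtain ⟨W, hW, hw⟩ := bd_w (m + 1) K
  obtain ⟨V, hV, hv⟩ := bd_w_tame (m + 1) K
  refine ⟨28 * 2 ^ (m + 2) * (V + 18 * 2 ^ (m + 1) * W * (2 ^ (m + 1) * (2 * |K|))), by positivity,
    fun A β B M h hA hβ hA' hβ' => ?_⟩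
  have hK := hA.nonneg
  have hM := hA'.nonneg
  have h0 : 0 ≤ 18 * 2 ^ (m + 1) * W * (2 ^ (m + 1) * (2 * K)) := by positivity
  have h1 := mul_nonneg h0 hM
  have h2 := mul_nonneg hV hM
  rw [abs_of_nonneg hK, mul_assoc _ _ (1 + M)]
  obtain ⟨a, b, c, d, -⟩ := coef_lin
    (N := (V + 18 * 2 ^ (m + 1) * W * (2 ^ (m + 1) * (2 * K))) * (1 + M)) h
    ((hv A M h.sA hA hA').mono (by linarith)) ((hv β M h.sβ hβ hβ').mono (by linarith))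
    ((coef_B h (hw A h.sA hA) (bd_mul_tame h.sA.D h.sA.D hA.D hA.D hA'.D hA'.D)
      (bd_mul_tame h.sβ.D h.sβ.D hβ.D hβ.D hβ'.D hβ'.D)).mono (by linarith))
  exact ⟨a, b, c, d⟩

theorem Lop_bd {m : ℕ} {A B u : ℝ → ℝ} {C M : ℝ} (hA : S A) (hB : S B) (hu : S u)
    (h2 : Bd m (a2 A) C) (h1 : Bd m (a1 A B) C) (h : Bd (m + 2) u M) :
    Bd m (Lop A B u) (2 ^ (m + 1) * C * M) := by
  refine ((bd_mul hA.a2 hu.D.D h2 h.D.D).add (bd_mul (hA.a1 hB) hu.D h1 (h.D.of_le (Nat.le_succ m)))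
    (hA.a2.mul hu.D.D) ((hA.a1 hB).mul hu.D)).mono (le_of_eq ?_)
  ring

theorem rhs_bd (m : ℕ) (K : ℝ) : ∃ C, 0 ≤ C ∧ ∀ A β B, Tri A β B →
    Bd (m + 2) A K → Bd (m + 2) β K → Bd m (rA A B) C ∧ Bd m (rB A β B) C := by
  obtain ⟨C, hC, hc⟩ := coef_bd (m + 1) K
  refine ⟨2 ^ (m + 1) * C * |K| + C, by positivity, fun A β B h hA hβ => ?_⟩
  obtain ⟨a, b, c, d, -⟩ := hc A β B h hA hβ
  have hm : m ≤ m + 1 + 1 := by omega
  rw [abs_of_nonneg hA.nonneg]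
  exact ⟨(Lop_bd h.sA h.sB h.sA (a.of_le hm) (b.of_le hm) hA).add (c.of_le hm)
      (h.sA.Lop h.sB h.sA) (h.sA.fA h.sB),
    (Lop_bd h.sA h.sB h.sβ (a.of_le hm) (b.of_le hm) hβ).add (d.of_le hm)
      (h.sA.Lop h.sB h.sβ) h.sβ.fB⟩

end Vale.Agent.P244.X
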