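import Vale.Agent.P244.X.BLip
import Vale.Agent.P244.X.Coef

/-!
Block X: Lipschitz dependence of the coefficients and of the right-hand sides.
`coef_lip`: `w_lip`, `B_lip`, `|y (1 - y)| ≤ 1`, `|1 - 2 y| ≤ 1`.
`rhs_lip`: `rA A B - rA A' B' = (Lop A B A - Lop A' B' A) + Lop A' B' (A - A') + (fA - fA')`
(`Lop_sub`), the middle term by `Lop_bd` with `m = 0` and `coef_bd 1 K`.
-/

namespace Vale.Agent.P244.X

open scoped ContDiff Topology
open Set Filter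

private theorem Lip_mul {a b c d : ℝ} (h1 : |a| ≤ c) (h2 : |b| ≤ d) : |a * b| ≤ c * d := by
  rw [abs_mul]
  exact mul_le_mul h1 h2 (abs_nonneg _) ((abs_nonneg _).trans h1)

private theorem Lip_v {y : ℝ} (hy : y ∈ Icc (0 : ℝ) 1) : |y * (1 - y)| ≤ 1 := by
  rw [abs_le]
  constructor <;> nlinarith [hy.1, hy.2]

private theorem Lip_c {y : ℝ} (hy : y ∈ Icc (0 : ℝ) 1) : |1 - 2 * y| ≤ 1 := by
  rw [abs_le]
  constructor <;> linarith [hy.1, hy.2]

theorem coef_lip (K : ℝ) : ∃ C, 0 ≤ C ∧ ∀ A β B A' β' B' M, Tri A β B → Tri A' β' B' →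
    Bd 2 A K → Bd 2 β K → Bd 2 A' K → Bd 2 β' K →
    (∀ y ∈ Icc (0 : ℝ) 1, |A y - A' y| ≤ M) → (∀ y ∈ Icc (0 : ℝ) 1, |β y - β' y| ≤ M) →
    ∀ y ∈ Icc (0 : ℝ) 1, |fA A B y - fA A' B' y| ≤ C * M ∧ |fB β y - fB β' y| ≤ C * M ∧
      ∀ u, Bd 2 u K → |Lop A B u y - Lop A' B' u y| ≤ C * M := by
  obtain ⟨C, hC, hB⟩ := B_lip K
  obtain ⟨E, hE⟩ : ∃ E, E = 2 * Real.exp (2 * K) := ⟨_, rfl⟩
  have hE0 : 0 ≤ E := by rw [hE]; positivity
  refine ⟨20 * E + C + (16 * E + 2 * C) * |K|, by positivity, ?_⟩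
  intro A β B A' β' B' M h h' hA hβ hA' hβ' dA dβ y hy
  have hM : 0 ≤ M := (abs_nonneg _).trans (dA y hy)
  have hK : 0 ≤ K := hA.nonneg
  have e1 : |Real.exp (-2 * A y) - Real.exp (-2 * A' y)| ≤ E * M := by
    refine (w_lip (hA.zero hy) (hA'.zero hy)).trans ?_
    rw [← hE]
    exact mul_le_mul_of_nonneg_left (dA y hy) hE0
  have e2 : |Real.exp (-2 * β y) - Real.exp (-2 * β' y)| ≤ E * M := by
    refine (w_lip (hβ.zero hy) (hβ'.zero hy)).trans ?_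
    rw [← hE]
    exact mul_le_mul_of_nonneg_left (dβ y hy) hE0
  have e3 : |B y - B' y| ≤ C * M := hB A β B A' β' B' M h h' hA hβ hA' hβ' dA dβ y hy
  have hv := Lip_v hy
  have hc := Lip_c hy
  rw [abs_of_nonneg hK]
  have p1 : 0 ≤ E * M := mul_nonneg hE0 hM
  have p2 : 0 ≤ C * M := mul_nonneg hC hM
  have p3 : 0 ≤ E * M * K := mul_nonneg p1 hK
  have p4 : 0 ≤ C * M * K := mul_nonneg p2 hK
  refine ⟨?_, ?_, ?_⟩
  · have e : fA A B y - fA A' B' y = -20 * (Real.exp (-2 * A y) - Real.exp (-2 * A' y)) +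
        (1 - 2 * y) * (B y - B' y) := by
      simp only [fA]; ring
    have q1 := abs_le.1 e1
    have q2 := abs_le.1 (Lip_mul hc e3)
    rw [e, abs_le]
    constructor <;> nlinarith [q1.1, q1.2, q2.1, q2.2]
  · have e : fB β y - fB β' y = -4 * (Real.exp (-2 * β y) - Real.exp (-2 * β' y)) := by
      simp only [fB]; ring
    have q1 := abs_le.1 e2
    rw [e, abs_le]
    constructor <;> nlinarith [q1.1, q1.2]
  · intro u hu
    have e : Lop A B u y - Lop A' B' u y =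
        4 * (y * (1 - y) * (Real.exp (-2 * A y) - Real.exp (-2 * A' y)) * D (D u) y) +
        12 * ((1 - 2 * y) * (Real.exp (-2 * A y) - Real.exp (-2 * A' y)) * D u y) +
        2 * (y * (1 - y) * (B y - B' y) * D u y) := by
      simp only [Lop, a2, a1]; ring
    have u2 : |D (D u) y| ≤ K := Bd.two (m := 0) hu hy
    have u1 : |D u y| ≤ K := Bd.one (m := 1) hu hy
    have q1 := abs_le.1 (Lip_mul (Lip_mul hv e1) u2)
    have q2 := abs_le.1 (Lip_mul (Lip_mul hc e1) u1)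
    have q3 := abs_le.1 (Lip_mul (Lip_mul hv e3) u1)
    rw [e, abs_le]
    constructor <;> nlinarith [q1.1, q1.2, q2.1, q2.2, q3.1, q3.2]

theorem rhs_lip (K : ℝ) : ∃ C, 0 ≤ C ∧ ∀ A β B A' β' B' M, Tri A β B → Tri A' β' B' →
    Bd 2 A K → Bd 2 β K → Bd 2 A' K → Bd 2 β' K →
    Bd 2 (fun y => A y - A' y) M → Bd 2 (fun y => β y - β' y) M →
    ∀ y ∈ Icc (0 : ℝ) 1,
      |rA A B y - rA A' B' y| ≤ C * M ∧ |rB A β B y - rB A' β' B' y| ≤ C * M := by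
  obtain ⟨C, hC, hL⟩ := coef_lip K
  obtain ⟨C', hC', hb⟩ := coef_bd 1 K
  refine ⟨2 * C + 2 * C', by positivity, ?_⟩
  intro A β B A' β' B' M h h' hA hβ hA' hβ' dA dβ y hy
  obtain ⟨l1, l2, l3⟩ := hL A β B A' β' B' M h h' hA hβ hA' hβ' (fun z hz => dA.zero hz)
    (fun z hz => dβ.zero hz) y hy
  obtain ⟨b2, b1, -⟩ := hb A' β' B' h' hA' hβ'
  have m1 := (Lop_bd (m := 0) h'.sA h'.sB (h.sA.sub h'.sA) (b2.of_le (by omega))
    (b1.of_le (by omega)) dA).zero hy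
  have m2 := (Lop_bd (m := 0) h'.sA h'.sB (h.sβ.sub h'.sβ) (b2.of_le (by omega))
    (b1.of_le (by omega)) dβ).zero hy
  rw [Lop_sub h.sA h'.sA hy] at m1
  rw [Lop_sub h.sβ h'.sβ hy] at m2
  have q1 := abs_le.1 l1
  have q2 := abs_le.1 l2
  have q3 := abs_le.1 (l3 A hA)
  have q4 := abs_le.1 (l3 β hβ)
  have q5 := abs_le.1 m1
  have q6 := abs_le.1 m2
  norm_num at q5 q6
  simp only [rA, rB]
  constructor <;> rw [abs_le] <;> constructor <;>
    nlinarith [q1.1, q1.2, q2.1, q2.2, q3.1, q3.2, q4.1, q4.2, q5.1, q5.2, q6.1, q6.2]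

end Vale.Agent.P244.X
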