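import Vale.Agent.P244.X.Calc

/-!
Block X: bounds for the remainder `G`.
By `iter_add` and `iter_mul`, with `D^[k] (D (D u)) = D^[k + 2] u` and `D^[k] (D u) = D^[k + 1] u`
(both `rfl`):
`G i p q u = ∑_{2 ≤ j ≤ i} C(i,j) p_j u_{i+2-j} + ∑_{1 ≤ j ≤ i} C(i,j) q_j u_{i+1-j}`
(cases `i = 0`, `i = 1`, `i = n + 2`, `Finset.sum_range_succ'` to peel off `j = 0, 1`).
`G_le` uses `Nat.sum_range_choose`.  `G_bd`, `G_tame` follow from `G_le`: in the tame version a
term with `j ≤ m` is at most `Ka * Mu`, the term `j = m + 1 = i` at most `Ma * Ku`.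
-/

namespace Vale.Agent.P244.X

open scoped ContDiff Topology
open Set Filter

variable {p q u : ℝ → ℝ} {y : ℝ}

theorem G_zero (p q u : ℝ → ℝ) (y : ℝ) : G 0 p q u y = 0 := by
  simp [G]

theorem GBd_sum {i : ℕ} {E : ℝ} {a : ℕ → ℝ} (h : ∀ j ∈ Finset.range (i + 1), |a j| ≤ E) :
    |∑ j ∈ Finset.range (i + 1), (i.choose j : ℝ) * a j| ≤ 2 ^ i * E := by
  refine (Finset.abs_sum_le_sum_abs _ _).trans ?_
  have e : (2 : ℝ) ^ i = ∑ j ∈ Finset.range (i + 1), (i.choose j : ℝ) := by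
    exact_mod_cast (Nat.sum_range_choose i).symm
  rw [e, Finset.sum_mul]
  refine Finset.sum_le_sum fun j hj => ?_
  rw [abs_mul, Nat.abs_cast]
  exact mul_le_mul_of_nonneg_left (h j hj) (Nat.cast_nonneg _)

theorem GBd_eq (n : ℕ) (hp : S p) (hq : S q) (hu : S u) (hy : y ∈ Icc (0 : ℝ) 1) :
    G (n + 1) p q u y =
      ∑ j ∈ Finset.range (n + 1 + 1), ((n + 1).choose j : ℝ) *
        (if 2 ≤ j then D^[j] p y * D^[n + 1 - j + 2] u y else 0) +
      ∑ j ∈ Finset.range (n + 1 + 1), ((n + 1).choose j : ℝ) *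
        (if 1 ≤ j then D^[j] q y * D^[n + 1 - j + 1] u y else 0) := by
  unfold G
  rw [iter_add (hp.mul hu.D.D) (hq.mul hu.D) _ hy, iter_mul hp hu.D.D _ hy, iter_mul hq hu.D _ hy]
  have e2 : ∀ k, D^[k] (D (D u)) = D^[k + 2] u := fun _ => rfl
  have e1 : ∀ k, D^[k] (D u) = D^[k + 1] u := fun _ => rfl
  simp only [e2, e1]
  rw [Finset.sum_range_succ' _ (n + 1), Finset.sum_range_succ' _ n,
    Finset.sum_range_succ' (fun j => ((n + 1).choose j : ℝ) * D^[j] q y * D^[n + 1 - j + 1] u y),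
    Finset.sum_range_succ' _ (n + 1), Finset.sum_range_succ' (fun j => ((n + 1).choose (j + 1) : ℝ) *
      if 2 ≤ j + 1 then D^[j + 1] p y * D^[n + 1 - (j + 1) + 2] u y else 0) n,
    Finset.sum_range_succ' (fun j => ((n + 1).choose j : ℝ) *
      if 1 ≤ j then D^[j] q y * D^[n + 1 - j + 1] u y else 0)]
  have a1 : ∀ j : ℕ, 2 ≤ j + 1 + 1 := fun j => by omega
  have a2 : ∀ j : ℕ, 1 ≤ j + 1 := fun j => by omega
  have a3 : n + 1 - (0 + 1) + 2 = n + 1 + 1 := by omega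
  have a4 : D^[0 + 1] p = D p := rfl
  simp only [a1, a2, a3, a4, if_true, mul_assoc, Nat.choose_zero_right, Nat.sub_zero,
    Function.iterate_zero, _root_.id, zero_add, Nat.choose_one_right]
  norm_num
  ring

theorem G_le {i : ℕ} {E : ℝ} (hp : S p) (hq : S q) (hu : S u) (hy : y ∈ Icc (0 : ℝ) 1)
    (hE : 0 ≤ E) (h2 : ∀ j, 2 ≤ j → j ≤ i → |D^[j] p y * D^[i + 2 - j] u y| ≤ E)
    (h1 : ∀ j, 1 ≤ j → j ≤ i → |D^[j] q y * D^[i + 1 - j] u y| ≤ E) :
    |G i p q u y| ≤ 2 ^ (i + 1) * E := by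
  cases i with
  | zero => rw [G_zero, abs_zero]; positivity
  | succ n =>
    rw [GBd_eq n hp hq hu hy, pow_succ 2 (n + 1), mul_comm _ (2 : ℝ), mul_assoc, two_mul]
    refine (abs_add_le _ _).trans (add_le_add (GBd_sum fun j hj => ?_) (GBd_sum fun j hj => ?_))
    · have hj' : j ≤ n + 1 := Nat.lt_succ_iff.1 (Finset.mem_range.1 hj)
      split_ifs with h
      · rw [show n + 1 - j + 2 = n + 1 + 2 - j by omega]
        exact h2 j h hj'
      · rwa [abs_zero]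
    · have hj' : j ≤ n + 1 := Nat.lt_succ_iff.1 (Finset.mem_range.1 hj)
      split_ifs with h
      · rw [show n + 1 - j + 1 = n + 1 + 1 - j by omega]
        exact h1 j h hj'
      · rwa [abs_zero]

theorem G_bd {i m : ℕ} {Ma Mu : ℝ} (hp : S p) (hq : S q) (hu : S u) (hy : y ∈ Icc (0 : ℝ) 1)
    (hi : i ≤ m) (bp : Bd m p Ma) (bq : Bd m q Ma) (bu : Bd m u Mu) :
    |G i p q u y| ≤ 2 ^ (m + 1) * Ma * Mu := by
  have hE : 0 ≤ Ma * Mu := mul_nonneg bp.nonneg bu.nonneg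
  refine (G_le hp hq hu hy hE (fun j h h' => ?_) fun j h h' => ?_).trans ?_
  · rw [abs_mul]
    exact mul_le_mul (bp j (by omega) y hy) (bu _ (by omega) y hy) (abs_nonneg _) bp.nonneg
  · rw [abs_mul]
    exact mul_le_mul (bq j (by omega) y hy) (bu _ (by omega) y hy) (abs_nonneg _) bp.nonneg
  · rw [mul_assoc]
    exact mul_le_mul_of_nonneg_right (pow_le_pow_right₀ one_le_two (by omega)) hE

theorem G_tame {i m : ℕ} {Ka Ku Ma Mu : ℝ} (hp : S p) (hq : S q) (hu : S u)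
    (hy : y ∈ Icc (0 : ℝ) 1) (hm : 2 ≤ m) (hi : i ≤ m + 1) (kp : Bd m p Ka) (kq : Bd m q Ka)
    (ku : Bd m u Ku) (bp : Bd (m + 1) p Ma) (bq : Bd (m + 1) q Ma) (bu : Bd (m + 1) u Mu) :
    |G i p q u y| ≤ 2 ^ (m + 2) * (Ka * Mu + Ma * Ku) := by
  have e1 : 0 ≤ Ka * Mu := mul_nonneg kp.nonneg bu.nonneg
  have e2 : 0 ≤ Ma * Ku := mul_nonneg bp.nonneg ku.nonneg
  have key : ∀ (r : ℝ → ℝ) (j k : ℕ), Bd m r Ka → Bd (m + 1) r Ma → j ≤ m + 1 → k ≤ m + 1 →
      (j = m + 1 → k ≤ m) → |D^[j] r y * D^[k] u y| ≤ Ka * Mu + Ma * Ku := by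
    intro r j k kr br hj hk hjk
    rw [abs_mul]
    rcases hj.eq_or_lt with h | h
    · exact (mul_le_mul (br j hj y hy) (ku k (hjk h) y hy) (abs_nonneg _) br.nonneg).trans
        (by linarith)
    · exact (mul_le_mul (kr j (by omega) y hy) (bu k hk y hy) (abs_nonneg _) kr.nonneg).trans
        (by linarith)
  refine (G_le hp hq hu hy (add_nonneg e1 e2)
    (fun j h h' => key p j _ kp bp (by omega) (by omega) fun _ => by omega)
    fun j h h' => key q j _ kq bq (by omega) (by omega) fun _ => by omega).trans ?_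
  exact mul_le_mul_of_nonneg_right (pow_le_pow_right₀ one_le_two (by omega)) (add_nonneg e1 e2)

end Vale.Agent.P244.X
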