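import Vale.Agent.P244.X.Coef
import Vale.Agent.P244.X.GBd

/-!
Block X: under the continuation norm the second order remainder is linear in the `C²` norm.
`a2_two`: `a2'' = 4 (v'' w + 2 v' w' + v w'')`, `v w'' = (-2 v A'' + 4 v A'²) w`.
`G_two`: `G_le` with the terms `p_2 u_2` (`a2_two`), `q_1 u_1`, `q_1 u_2` (`coef_bd 0 N`) and
`q_2 u_1` (`coef_tame 0 N`); `Nb1.bd`.
-/

namespace Vale.Agent.P244.X

open scoped ContDiff Topology
open Set Filter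

theorem gtwo_Dv {y : ℝ} (hy : y ∈ Icc (0 : ℝ) 1) : D (fun z => z * (1 - z)) y = 1 - 2 * y := by
  rw [D_mul S.id ((S.const 1).sub S.id) hy, D_sub (S.const 1) S.id hy, D_id hy, D_const 1 hy]
  ring

theorem gtwo_Dc {y : ℝ} (hy : y ∈ Icc (0 : ℝ) 1) : D (fun z => 1 - 2 * z) y = -2 := by
  rw [D_sub (S.const 1) (S.id.cmul 2) hy, D_cmul S.id 2 hy, D_id hy, D_const 1 hy]
  ring

theorem gtwo_D1 {A : ℝ → ℝ} (hA : S A) : EqOn (D (a2 A))
    (fun z => (4 * (1 - 2 * z) - 8 * (z * (1 - z) * D A z)) * Real.exp (-2 * A z)) (Icc 0 1) := by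
  intro z hz
  have := D_mul (S.v.cmul 4) hA.w hz
  rw [D_cmul S.v 4 hz, gtwo_Dv hz, D_w hA hz] at this
  refine Eq.trans this ?_
  ring

theorem gtwo_D2 {A : ℝ → ℝ} (hA : S A) {y : ℝ} (hy : y ∈ Icc (0 : ℝ) 1) :
    D (D (a2 A)) y = (-8 - 16 * ((1 - 2 * y) * D A y) - 8 * (y * (1 - y) * D (D A) y) +
      16 * (y * (1 - y) * D A y ^ 2)) * Real.exp (-2 * A y) := by
  rw [D_congr (gtwo_D1 hA) hy, D_mul ((S.c.cmul 4).sub ((S.v.mul hA.D).cmul 8)) hA.w hy,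
    D_sub (S.c.cmul 4) ((S.v.mul hA.D).cmul 8) hy, D_cmul S.c 4 hy, D_cmul (S.v.mul hA.D) 8 hy,
    D_mul S.v hA.D hy, gtwo_Dc hy, gtwo_Dv hy, D_w hA hy]
  ring

theorem a2_two (N : ℝ) : ∃ C, 0 ≤ C ∧ ∀ A, S A → Nb1 A N →
    ∀ y ∈ Icc (0 : ℝ) 1, |D (D (a2 A)) y| ≤ C := by
  refine ⟨(8 + 24 * |N| + 16 * N ^ 2) * Real.exp (2 * N), by positivity, fun A hA h y hy => ?_⟩
  obtain ⟨h0, h1, h2⟩ := h y hy
  have hN : 0 ≤ N := (abs_nonneg _).trans h0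
  rw [gtwo_D2 hA hy, abs_mul, abs_of_pos (Real.exp_pos _), abs_of_nonneg hN]
  refine mul_le_mul ?_ (Real.exp_le_exp.2 (by linarith [(abs_le.1 h0).1])) (Real.exp_pos _).le
    (by positivity)
  have k1 : |(1 - 2 * y) * D A y| ≤ N := by
    rw [abs_mul]
    have : |1 - 2 * y| ≤ 1 := abs_le.2 ⟨by linarith [hy.2], by linarith [hy.1]⟩
    calc _ ≤ 1 * N := mul_le_mul this h1 (abs_nonneg _) zero_le_one
      _ = N := one_mul N
  have k2 : D A y ^ 2 ≤ N ^ 2 := sq_le_sq' (abs_le.1 h1).1 (abs_le.1 h1).2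
  have v0 : 0 ≤ y * (1 - y) := mul_nonneg hy.1 (by linarith [hy.2])
  have v1 : y * (1 - y) ≤ 1 := by nlinarith [hy.1, hy.2]
  have k3 : 0 ≤ y * (1 - y) * D A y ^ 2 := by positivity
  have k4 : y * (1 - y) * D A y ^ 2 ≤ N ^ 2 :=
    (mul_le_of_le_one_left (sq_nonneg _) v1).trans k2
  obtain ⟨a1, a2⟩ := abs_le.1 k1
  obtain ⟨b1, b2⟩ := abs_le.1 h2
  rw [abs_le]
  constructor <;> nlinarith [sq_nonneg N]

theorem gtwo_mul {a b X Y : ℝ} (ha : |a| ≤ X) (hb : |b| ≤ Y) : |a * b| ≤ X * Y := by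
  rw [abs_mul]
  exact mul_le_mul ha hb (abs_nonneg _) ((abs_nonneg _).trans ha)

theorem G_two (N : ℝ) : ∃ C, 0 ≤ C ∧ ∀ A β B u M, Tri A β B → Nb1 A N → Nb1 β N →
    Bd 2 A M → Bd 2 β M → S u → Bd 1 u N → Bd 2 u M →
    ∀ i ≤ 2, ∀ y ∈ Icc (0 : ℝ) 1, |G i (a2 A) (a1 A B) u y| ≤ C * (1 + M) := by
  obtain ⟨C1, c1, H1⟩ := a2_two N
  obtain ⟨C2, c2, H2⟩ := coef_bd 0 N
  obtain ⟨C3, c3, H3⟩ := coef_tame 0 N
  refine ⟨8 * (C1 + C2 + C3 * |N|), by positivity,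
    fun A β B u M hT hA hβ mA mβ hu nu mu i hi y hy => ?_⟩
  have hM := mu.nonneg
  have hN := nu.nonneg
  have q1 := (H2 A β B hT hA.bd hβ.bd).2.1
  have q2 := (H3 A β B M hT hA.bd hβ.bd mA mβ).2.1
  rw [abs_of_nonneg hN]
  have p1 : 0 ≤ C1 * M := mul_nonneg c1 hM
  have p2 : 0 ≤ C2 * M := mul_nonneg c2 hM
  have p3 : 0 ≤ C3 * N := mul_nonneg c3 hN
  have p4 : 0 ≤ C3 * N * M := mul_nonneg p3 hM
  have hG := G_le (i := i) (E := (C1 + C2 + C3 * N) * (1 + M)) hT.sA.a2 (hT.sA.a1 hT.sB) hu hy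
    (by positivity) (fun j j1 j2 => ?_) (fun j j1 j2 => ?_)
  · refine hG.trans ?_
    rw [mul_assoc]
    refine mul_le_mul_of_nonneg_right ?_ (by positivity)
    calc (2 : ℝ) ^ (i + 1) ≤ 2 ^ 3 := pow_le_pow_right₀ one_le_two (by omega)
      _ = 8 := by norm_num
  · obtain rfl : j = 2 := by omega
    have := gtwo_mul (H1 A hT.sA hA y hy) (mu (i + 2 - 2) (by omega) y hy)
    refine le_trans this ?_
    nlinarith
  · rcases Nat.lt_or_ge j 2 with j3 | j3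
    · have := gtwo_mul (q1 j (by omega) y hy) (mu (i + 1 - j) (by omega) y hy)
      refine le_trans this ?_
      nlinarith
    · have := gtwo_mul (q2 j (by omega) y hy) (nu (i + 1 - j) (by omega) y hy)
      refine le_trans this ?_
      nlinarith

end Vale.Agent.P244.X
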