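import Vale.Agent.P244.X.RegCore
import Vale.Agent.P244.X.GTwo

/-!
Block X: higher regularity.  Induction on `m`: `m ≤ 1` from `Nb1.bd`; `m = 2` from `reg_core`
with `G_two N`, `coef_tame 0 N`; `m + 1 ≥ 3` from the bound `K` for `m`, `reg_core` with
`G_tame`, `coef_bd (m - 1) K`, `coef_tame (m - 1) K`.  Take `N' = (|N₀| + C |T|) exp (C |T|)`.
-/

namespace Vale.Agent.P244.X

open scoped ContDiff Topology
open Set Filter

theorem reg_bound {C N₀ t T : ℝ} (hC : 0 ≤ C) (h0 : 0 ≤ t) (hT : t ≤ T) :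
    (N₀ + C * t) * Real.exp (C * t) ≤ (|N₀| + C * T) * Real.exp (C * T) := by
  have h1 : C * t ≤ C * T := mul_le_mul_of_nonneg_left hT hC
  have h2 : 0 ≤ C * T := mul_nonneg hC (h0.trans hT)
  calc (N₀ + C * t) * Real.exp (C * t) ≤ (|N₀| + C * T) * Real.exp (C * t) :=
        mul_le_mul_of_nonneg_right (by linarith [le_abs_self N₀]) (Real.exp_pos _).le
    _ ≤ _ := mul_le_mul_of_nonneg_left (Real.exp_le_exp.2 h1) (by positivity)

theorem x_reg (m : ℕ) (N N₀ T : ℝ) : ∃ N', ∀ t₁ ∈ Ioc 0 T, ∀ A β B : Fn,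
    IsSol (Icc 0 t₁) A β B → (∀ t ∈ Icc 0 t₁, Nb1 (A t) N ∧ Nb1 (β t) N) →
    Bd m (A 0) N₀ → Bd m (β 0) N₀ → ∀ t ∈ Icc 0 t₁, Bd m (A t) N' ∧ Bd m (β t) N' := by
  induction m with
  | zero =>
    exact ⟨N, fun t₁ _ A β B _ hN _ _ t ht =>
      ⟨(hN t ht).1.bd.of_le (by omega), (hN t ht).2.bd.of_le (by omega)⟩⟩
  | succ m ih =>
    rcases Nat.lt_or_ge m 2 with hm | hm
    · obtain rfl | rfl : m = 0 ∨ m = 1 := by omega
      · exact ⟨N, fun t₁ _ A β B _ hN _ _ t ht => ⟨(hN t ht).1.bd, (hN t ht).2.bd⟩⟩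
      obtain ⟨C₁, h₁, H₁⟩ := G_two N
      obtain ⟨C₂, h₂, H₂⟩ := coef_tame 0 N
      have hC : 0 ≤ C₁ + C₂ := by positivity
      refine ⟨(|N₀| + (C₁ + C₂) * T) * Real.exp ((C₁ + C₂) * T),
        fun t₁ ht₁ A β B h hN hA hβ t ht => ?_⟩
      have key := reg_core ht₁.1 hC 2 h (fun t ht M bA bβ i hi y hy => by
        have T := sol_tri h ht
        obtain ⟨nA, nβ⟩ := hN t ht
        obtain ⟨-, -, f1, f2⟩ := H₂ _ _ _ M T nA.bd nβ.bd bA bβ
        have g1 := H₁ _ _ _ _ M T nA nβ bA bβ T.sA nA.bd bA i hi y hy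
        have g2 := H₁ _ _ _ _ M T nA nβ bA bβ T.sβ nβ.bd bβ i hi y hy
        constructor
        · linarith [f1 i hi y hy]
        · linarith [f2 i hi y hy]) hA hβ t ht
      have hb := reg_bound (N₀ := N₀) hC ht.1 (ht.2.trans ht₁.2)
      exact ⟨key.1.mono hb, key.2.mono hb⟩
    · obtain ⟨K, HK⟩ := ih
      obtain ⟨n, rfl⟩ : ∃ n, m = n + 1 := ⟨m - 1, by omega⟩
      obtain ⟨C₁, h₁, H₁⟩ := coef_bd n K
      obtain ⟨C₂, h₂, H₂⟩ := coef_tame n K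
      set C := 2 ^ (n + 1 + 2) * (C₁ + C₂ * |K|) + C₂ with hCdef
      have hC : 0 ≤ C := by positivity
      refine ⟨(|N₀| + C * T) * Real.exp (C * T), fun t₁ ht₁ A β B h hN hA hβ t ht => ?_⟩
      have hK := HK t₁ ht₁ A β B h hN (hA.of_le (by omega)) (hβ.of_le (by omega))
      have key := reg_core ht₁.1 hC (n + 1 + 1) h (fun t ht M bA bβ i hi y hy => by
        have T := sol_tri h ht
        obtain ⟨kA, kβ⟩ := hK t ht
        obtain ⟨p1, q1, -⟩ := H₁ _ _ _ T kA kβ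
        obtain ⟨p2, q2, f1, f2⟩ := H₂ _ _ _ M T kA kβ bA bβ
        have g1 := G_tame T.sA.a2 (T.sA.a1 T.sB) T.sA hy hm hi p1 q1 kA p2 q2 bA
        have g2 := G_tame T.sA.a2 (T.sA.a1 T.sB) T.sβ hy hm hi p1 q1 kβ p2 q2 bβ
        have e : 2 ^ (n + 1 + 2) * (C₁ * M + C₂ * (1 + M) * K) + C₂ * (1 + M) ≤ C * (1 + M) := by
          rw [hCdef, abs_of_nonneg kA.nonneg]
          have : 0 ≤ (2 : ℝ) ^ (n + 1 + 2) * C₁ := by positivity
          nlinarith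
        constructor
        · linarith [f1 i hi y hy]
        · linarith [f2 i hi y hy]) hA hβ t ht
      have hb := reg_bound (N₀ := N₀) hC ht.1 (ht.2.trans ht₁.2)
      exact ⟨key.1.mono hb, key.2.mono hb⟩

end Vale.Agent.P244.X
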