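import Vale.Agent.P244.X.Lim
import Vale.Agent.P244.X.Reg
import Vale.Agent.P244.X.Lip

/-!
Block X: compactness.  `x_reg` gives bounds `K m` uniform in `n`, `t`.
`sol_lip`: mean value inequality in `t` for `s ↦ D^[i] (A s) y` (`sol_hasT`, `rhs_bd m K`,
`iter_sub`).  `sol_cons`: mean value inequality on `[r, t]` for `s ↦ A s y - s * rA (A r) (B r) y`
(`rhs_lip`, `sol_lip 2`).  Then `lim_sol` with `ε = 0`.
-/

namespace Vale.Agent.P244.X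

open scoped ContDiff Topology
open Set Filter

theorem compact_mv {f g : ℝ → ℝ} {τ r t c M : ℝ} (hr : 0 ≤ r) (hrt : r ≤ t) (ht : t ≤ τ)
    (hd : ∀ s ∈ Icc 0 τ, HasDerivWithinAt f (g s) (Icc 0 τ) s)
    (hM : ∀ s ∈ Icc r t, |g s - c| ≤ M) : |f t - f r - (t - r) * c| ≤ M * (t - r) := by
  have h := (convex_Icc r t).norm_image_sub_le_of_norm_hasDerivWithin_le
    (f := fun s => f s - s * c) (fun s hs => ((hd s (Icc_subset_Icc hr ht hs)).mono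
      (Icc_subset_Icc hr ht)).sub (hasDerivAt_mul_const c).hasDerivWithinAt) hM
    (left_mem_Icc.2 hrt) (right_mem_Icc.2 hrt)
  rw [Real.norm_eq_abs, Real.norm_of_nonneg (sub_nonneg.2 hrt)] at h
  exact le_of_eq_of_le (congrArg _ (by ring)) h

theorem sol_lip (m : ℕ) (K : ℝ) : ∃ C, 0 ≤ C ∧ ∀ τ, 0 < τ → ∀ A β B : Fn,
    IsSol (Icc 0 τ) A β B → (∀ t ∈ Icc 0 τ, Bd (m + 2) (A t) K ∧ Bd (m + 2) (β t) K) →
    ∀ t ∈ Icc 0 τ, ∀ r ∈ Icc 0 τ, Bd m (fun y => A t y - A r y) (C * |t - r|) ∧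
      Bd m (fun y => β t y - β r y) (C * |t - r|) := by
  obtain ⟨C, C0, hC⟩ := rhs_bd m K
  refine ⟨C, C0, fun τ hτ A β B h hb t ht r hr => ?_⟩
  have k := fun s hs => hC _ _ _ (sol_tri h hs) (hb s hs).1 (hb s hs).2
  constructor <;> intro i hi y hy
  · rw [iter_sub (sol_tri h ht).sA (sol_tri h hr).sA i hy]
    exact (convex_Icc 0 τ).norm_image_sub_le_of_norm_hasDerivWithin_le
      (fun s hs => (sol_hasT (ti_Icc hτ) h i s hs y hy).1) (fun s hs => (k s hs).1 i hi y hy) hr ht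
  · rw [iter_sub (sol_tri h ht).sβ (sol_tri h hr).sβ i hy]
    exact (convex_Icc 0 τ).norm_image_sub_le_of_norm_hasDerivWithin_le
      (fun s hs => (sol_hasT (ti_Icc hτ) h i s hs y hy).2) (fun s hs => (k s hs).2 i hi y hy) hr ht

theorem sol_cons (K : ℝ) : ∃ C, 0 ≤ C ∧ ∀ τ, 0 < τ → ∀ A β B : Fn,
    IsSol (Icc 0 τ) A β B → (∀ t ∈ Icc 0 τ, Bd 4 (A t) K ∧ Bd 4 (β t) K) →
    ∀ t ∈ Icc 0 τ, ∀ r ∈ Icc 0 τ, r ≤ t → ∀ y ∈ Icc (0 : ℝ) 1,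
      |A t y - A r y - (t - r) * rA (A r) (B r) y| ≤ C * (t - r) ^ 2 ∧
      |β t y - β r y - (t - r) * rB (A r) (β r) (B r) y| ≤ C * (t - r) ^ 2 := by
  obtain ⟨C, C0, hC⟩ := sol_lip 2 K
  obtain ⟨E, E0, hE⟩ := rhs_lip K
  refine ⟨E * C, by positivity, fun τ hτ A β B h hb t ht r hr hrt y hy => ?_⟩
  have k : ∀ s ∈ Icc r t, |rA (A s) (B s) y - rA (A r) (B r) y| ≤ E * (C * (t - r)) ∧
      |rB (A s) (β s) (B s) y - rB (A r) (β r) (B r) y| ≤ E * (C * (t - r)) := fun s hs => by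
    have hs' := Icc_subset_Icc hr.1 ht.2 hs
    have k1 := hC τ hτ A β B h hb s hs' r hr
    have k2 : C * |s - r| ≤ C * (t - r) := by
      rw [abs_of_nonneg (sub_nonneg.2 hs.1)]
      gcongr
      exact hs.2
    exact hE _ _ _ _ _ _ _ (sol_tri h hs') (sol_tri h hr) ((hb s hs').1.of_le (by norm_num))
      ((hb s hs').2.of_le (by norm_num)) ((hb r hr).1.of_le (by norm_num))
      ((hb r hr).2.of_le (by norm_num)) (k1.1.mono k2) (k1.2.mono k2) y hy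
  exact ⟨(compact_mv hr.1 hrt ht.2 (fun s hs => (sol_hasT (ti_Icc hτ) h 0 s hs y hy).1)
      fun s hs => (k s hs).1).trans_eq (by ring),
    (compact_mv hr.1 hrt ht.2 (fun s hs => (sol_hasT (ti_Icc hτ) h 0 s hs y hy).2)
      fun s hs => (k s hs).2).trans_eq (by ring)⟩

theorem x_compact {t₁ N : ℝ} (ht : 0 < t₁) {A β B : ℕ → Fn}
    (h : ∀ n, IsSol (Icc 0 t₁) (A n) (β n) (B n))
    (hN : ∀ n, ∀ t ∈ Icc 0 t₁, Nb1 (A n t) N ∧ Nb1 (β n t) N)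
    (h0 : ∀ m, ∃ N₀, ∀ n, Bd m (A n 0) N₀ ∧ Bd m (β n 0) N₀) (U : Ultrafilter ℕ) :
    ∃ A' β' B' : Fn, IsSol (Icc 0 t₁) A' β' B' ∧ ∀ m : ℕ,
      TendstoUniformlyOn (fun n (p : ℝ × ℝ) => D^[m] (A n p.1) p.2)
        (fun p => D^[m] (A' p.1) p.2) U (Icc 0 t₁ ×ˢ Icc 0 1) ∧
      TendstoUniformlyOn (fun n (p : ℝ × ℝ) => D^[m] (β n p.1) p.2)
        (fun p => D^[m] (β' p.1) p.2) U (Icc 0 t₁ ×ˢ Icc 0 1) := by
  have hK : ∀ m, ∃ K, ∀ n, ∀ t ∈ Icc 0 t₁, Bd m (A n t) K ∧ Bd m (β n t) K := fun m => by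
    obtain ⟨N₀, k⟩ := h0 m
    obtain ⟨K, hK⟩ := x_reg m N N₀ t₁
    exact ⟨K, fun n => hK t₁ ⟨ht, le_rfl⟩ _ _ _ (h n) (hN n) (k n).1 (k n).2⟩
  refine lim_sol ht U (ε := fun _ => 0) tendsto_const_nhds (fun n t k => sol_tri (h n) k)
    (fun m => ?_) ?_
  · obtain ⟨K, k⟩ := hK (m + 2)
    obtain ⟨C, -, hC⟩ := sol_lip m K
    refine ⟨max K C, .of_forall fun n t k1 => ⟨((k n t k1).1.of_le (by omega)).mono (le_max_left _ _),
      ((k n t k1).2.of_le (by omega)).mono (le_max_left _ _), fun r k2 => ?_⟩⟩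
    have k3 : C * |t - r| ≤ max K C * (|t - r| + 0) := by
      rw [add_zero]
      exact mul_le_mul_of_nonneg_right (le_max_right _ _) (abs_nonneg _)
    exact (hC t₁ ht _ _ _ (h n) (k n) t k1 r k2).imp (·.mono k3) (·.mono k3)
  · obtain ⟨K, k⟩ := hK 4
    obtain ⟨C, -, hC⟩ := sol_cons K
    exact ⟨C, .of_forall fun n => by simpa only [add_zero] using hC t₁ ht _ _ _ (h n) (k n)⟩

end Vale.Agent.P244.X
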