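import Vale.Agent.P244.X.Calc
import Vale.Agent.P244.Kit.PI

/-!
Block X: the averaging operator `Avg F y = ∫ x in 0..1, x² F (x y)`.
`avg_smooth`: `pi_snd` with `I = Icc 0 b`, `J = Icc 0 1`, `a = 0`, `g p = p.2² F (p.2 p.1)`,
composed with `y ↦ (y, 1)`.
`avg_deriv`: for `y > 0`, `Avg F y = (∫ r in 0..y, r² F r) / y³`
(`intervalIntegral.smul_integral_comp_mul_right` or `integral_comp_mul_right`), fundamental
theorem of calculus (`intervalIntegral.integral_hasDerivAt_right`), `congr_of_eventuallyEq`.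
`avg_lip`: `intervalIntegral.norm_integral_le_of_norm_le_const`, `integral_sub`.
-/

namespace Vale.Agent.P244.X

open scoped ContDiff Topology
open Set Filter

variable {b y : ℝ} {F F' : ℝ → ℝ}

theorem avg_mem {x : ℝ} (hy : y ∈ Icc 0 b) (hx : x ∈ Icc (0 : ℝ) 1) : x * y ∈ Icc 0 y :=
  ⟨mul_nonneg hx.1 hy.1, by nlinarith [hx.1, hx.2, hy.1]⟩

theorem avg_eq {z : ℝ} (hz : 0 < z) :
    Avg F z = (∫ r in (0 : ℝ)..z, r ^ 2 * F r) / z ^ 3 := by
  have h := intervalIntegral.integral_comp_mul_right (a := 0) (b := 1)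
    (fun r : ℝ => r ^ 2 * F r) hz.ne'
  simp only [zero_mul, one_mul, smul_eq_mul] at h
  have e : (fun x : ℝ => (x * z) ^ 2 * F (x * z)) = fun x => z ^ 2 * (x ^ 2 * F (x * z)) := by
    funext x; ring
  rw [e, intervalIntegral.integral_const_mul] at h
  have hz' := hz.ne'
  simp only [Avg]
  field_simp at h ⊢
  linarith

theorem avg_smooth (hb : 0 < b) (k : ℕ) (hF : ContDiffOn ℝ k F (Icc 0 b)) :
    ContDiffOn ℝ k (Avg F) (Icc 0 b) := by
  have hm : ∀ p : ℝ × ℝ, p ∈ Icc (0 : ℝ) b ×ˢ Icc (0 : ℝ) 1 → p.2 * p.1 ∈ Icc (0 : ℝ) b :=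
    fun p hp => avg_mem hp.1 hp.2 |> fun h => ⟨h.1, h.2.trans hp.1.2⟩
  have hg : ContDiffOn ℝ k (fun p : ℝ × ℝ => p.2 ^ 2 * F (p.2 * p.1))
      (Icc (0 : ℝ) b ×ˢ Icc (0 : ℝ) 1) :=
    (contDiff_snd.pow 2).contDiffOn.mul
      (hF.comp (contDiff_snd.mul contDiff_fst).contDiffOn hm)
  have h := pi_snd (convex_Icc 0 b) (convex_Icc 0 1) (uniqueDiffOn_Icc hb) uJ
    (a := 0) ⟨le_rfl, zero_le_one⟩ k hg
  have hc : ContDiff ℝ k (fun y : ℝ => ((y, 1) : ℝ × ℝ)) := contDiff_id.prodMk contDiff_const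
  exact h.comp hc.contDiffOn fun y hy => ⟨hy, zero_le_one, le_rfl⟩

theorem avg_deriv (hF : ContinuousOn F (Icc 0 b)) (hy : y ∈ Ioo 0 b) :
    HasDerivAt (Avg F) ((F y - 3 * Avg F y) / y) y := by
  have hc : ContinuousOn (fun r : ℝ => r ^ 2 * F r) (Icc 0 b) :=
    (continuous_pow 2).continuousOn.mul hF
  have h1 : HasDerivAt (fun u => ∫ r in (0 : ℝ)..u, r ^ 2 * F r) (y ^ 2 * F y) y :=
    (pi_ftc ordConnected_Icc hc ⟨le_rfl, hy.1.le.trans hy.2.le⟩
      (Ioo_subset_Icc_self hy)).hasDerivAt (Icc_mem_nhds hy.1 hy.2)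
  have hy0 := hy.1.ne'
  have h2 := h1.div (hasDerivAt_pow 3 y) (pow_ne_zero 3 hy0)
  have e : Avg F =ᶠ[𝓝 y] fun u => (∫ r in (0 : ℝ)..u, r ^ 2 * F r) / u ^ 3 := by
    filter_upwards [Ioi_mem_nhds hy.1] with u hu using avg_eq hu
  refine (h2.congr_of_eventuallyEq e).congr_deriv ?_
  rw [avg_eq hy.1]
  simp only [Nat.cast_ofNat, Nat.add_one_sub_one]
  field_simp

theorem avg_lip {M : ℝ} (hF : ContinuousOn F (Icc 0 b)) (hF' : ContinuousOn F' (Icc 0 b))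
    (hy : y ∈ Icc 0 b) (h : ∀ x ∈ Icc 0 y, |F x - F' x| ≤ M) : |Avg F y - Avg F' y| ≤ M := by
  have hi : ∀ {G : ℝ → ℝ}, ContinuousOn G (Icc 0 b) →
      IntervalIntegrable (fun x : ℝ => x ^ 2 * G (x * y)) MeasureTheory.volume 0 1 := by
    intro G hG
    refine ContinuousOn.intervalIntegrable ?_
    rw [uIcc_of_le zero_le_one]
    exact (continuous_pow 2).continuousOn.mul (hG.comp (continuous_id.mul
      continuous_const).continuousOn fun x hx =>
        ⟨(avg_mem hy hx).1, (avg_mem hy hx).2.trans hy.2⟩)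
  simp only [Avg]
  rw [← intervalIntegral.integral_sub (hi hF) (hi hF')]
  have := intervalIntegral.norm_integral_le_of_norm_le_const (a := 0) (b := 1) (C := M)
    (f := fun x : ℝ => x ^ 2 * F (x * y) - x ^ 2 * F' (x * y)) (fun x hx => by
      rw [uIoc_of_le zero_le_one] at hx
      have hx' : x ∈ Icc (0 : ℝ) 1 := ⟨hx.1.le, hx.2⟩
      have h1 := h _ (avg_mem hy hx')
      rw [Real.norm_eq_abs, ← mul_sub, abs_mul, abs_of_nonneg (sq_nonneg x)]
      have h2 : x ^ 2 ≤ 1 := by nlinarith [hx'.1, hx'.2]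
      calc x ^ 2 * |F (x * y) - F' (x * y)| ≤ 1 * M :=
            mul_le_mul h2 h1 (abs_nonneg _) zero_le_one
        _ = M := one_mul M)
  simpa using this

end Vale.Agent.P244.X
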