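import Vale.Agent.P244.X.Tame

/-!
Block X: `B` is Lipschitz in the sup norm of `(A, β)`.
With `w' = exp (-2 A')`, `a = A - A'`, `b = β - β'`, `P = w' (D A + D A')`, `Q = w' (D β + D β')`:
`Φ = B - B' + 8 P a + 10 Q b` has
`D Φ = -2 (w - w') (4 (D A)² + 5 (D β)²) + 8 (D P) a + 10 (D Q) b` on `[0, 1]`, so
`|D Φ| ≤ C M`, `|Φ 1| ≤ C M` (`Bd 1 P`, `Bd 1 Q` from `bd_w`, `bd_mul`), then `S.lip`.
`w_lip`: mean value inequality for `exp` on `[-2K, 2K]`.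
-/

namespace Vale.Agent.P244.X

open scoped ContDiff Topology
open Set Filter

theorem w_lip {a b K : ℝ} (ha : |a| ≤ K) (hb : |b| ≤ K) :
    |Real.exp (-2 * a) - Real.exp (-2 * b)| ≤ 2 * Real.exp (2 * K) * |a - b| := by
  have h := Convex.norm_image_sub_le_of_norm_hasDerivWithin_le
    (f := fun x : ℝ => Real.exp (-2 * x)) (f' := fun x => Real.exp (-2 * x) * (-2))
    (s := Icc (-K) K) (C := 2 * Real.exp (2 * K)) (x := b) (y := a) (fun x _ => ?_)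
    (fun x hx => ?_) (convex_Icc _ _) (abs_le.1 hb) (abs_le.1 ha)
  · simpa only [Real.norm_eq_abs] using h
  · have h1 : HasDerivAt (fun x : ℝ => -2 * x) (-2) x := by
      simpa using (hasDerivAt_id x).const_mul (-2 : ℝ)
    exact h1.exp.hasDerivWithinAt
  · rw [Real.norm_eq_abs, abs_mul, abs_of_pos (Real.exp_pos _), abs_neg, abs_two, mul_comm]
    exact mul_le_mul_of_nonneg_left (Real.exp_le_exp.2 (by linarith [hx.1])) (by norm_num)

theorem blip_mul {p a C M : ℝ} (hp : |p| ≤ C) (ha : |a| ≤ M) : |p * a| ≤ C * M := by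
  rw [abs_mul]
  exact mul_le_mul hp ha (abs_nonneg _) ((abs_nonneg _).trans hp)

theorem B_lip (K : ℝ) : ∃ C, 0 ≤ C ∧ ∀ A β B A' β' B' M, Tri A β B → Tri A' β' B' →
    Bd 2 A K → Bd 2 β K → Bd 2 A' K → Bd 2 β' K →
    (∀ y ∈ Icc (0 : ℝ) 1, |A y - A' y| ≤ M) → (∀ y ∈ Icc (0 : ℝ) 1, |β y - β' y| ≤ M) →
    ∀ y ∈ Icc (0 : ℝ) 1, |B y - B' y| ≤ C * M := by
  obtain ⟨W, -, hW⟩ := bd_w 1 K
  set E : ℝ := |2 ^ 1 * W * (K + K)| with hE
  have hE0 : 0 ≤ E := abs_nonneg _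
  refine ⟨2 * Real.exp (2 * K) * (18 * K ^ 2) + 54 * E, by positivity, ?_⟩
  intro A β B A' β' B' M h h' bA bβ bA' bβ' ha hb y hy
  have bw := hW A' h'.sA (bA'.of_le one_le_two)
  have sP : S fun z => Real.exp (-2 * A' z) * (D A z + D A' z) :=
    h'.sA.w.mul (h.sA.D.add h'.sA.D)
  have sQ : S fun z => Real.exp (-2 * A' z) * (D β z + D β' z) :=
    h'.sA.w.mul (h.sβ.D.add h'.sβ.D)
  have bP : Bd 1 (fun z => Real.exp (-2 * A' z) * (D A z + D A' z)) E :=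
    (bd_mul h'.sA.w (h.sA.D.add h'.sA.D) bw (bA.D.add bA'.D h.sA.D h'.sA.D)).mono (le_abs_self _)
  have bQ : Bd 1 (fun z => Real.exp (-2 * A' z) * (D β z + D β' z)) E :=
    (bd_mul h'.sA.w (h.sβ.D.add h'.sβ.D) bw (bβ.D.add bβ'.D h.sβ.D h'.sβ.D)).mono (le_abs_self _)
  set P : ℝ → ℝ := fun z => Real.exp (-2 * A' z) * (D A z + D A' z) with hP
  set Q : ℝ → ℝ := fun z => Real.exp (-2 * A' z) * (D β z + D β' z) with hQ
  have sa := h.sA.sub h'.sA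
  have sb := h.sβ.sub h'.sβ
  have sΦ : S fun z => B z - B' z + 8 * (P z * (A z - A' z)) + 10 * (Q z * (β z - β' z)) :=
    ((h.sB.sub h'.sB).add ((sP.mul sa).cmul 8)).add ((sQ.mul sb).cmul 10)
  have dΦ : ∀ x ∈ Icc (0 : ℝ) 1,
      |D (fun z => B z - B' z + 8 * (P z * (A z - A' z)) + 10 * (Q z * (β z - β' z))) x| ≤
        (2 * Real.exp (2 * K) * (18 * K ^ 2) + 18 * E) * M := by
    intro x hx
    have e : D (fun z => B z - B' z + 8 * (P z * (A z - A' z)) + 10 * (Q z * (β z - β' z))) x =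
        -((8 * D A x ^ 2 + 10 * D β x ^ 2) * (Real.exp (-2 * A x) - Real.exp (-2 * A' x))) +
          8 * (D P x * (A x - A' x)) + 10 * (D Q x * (β x - β' x)) := by
      rw [D_add ((h.sB.sub h'.sB).add ((sP.mul sa).cmul 8)) ((sQ.mul sb).cmul 10) hx,
        D_add (h.sB.sub h'.sB) ((sP.mul sa).cmul 8) hx, D_sub h.sB h'.sB hx,
        D_cmul (sP.mul sa) 8 hx, D_cmul (sQ.mul sb) 10 hx, D_mul sP sa hx, D_mul sQ sb hx,
        D_sub h.sA h'.sA hx, D_sub h.sβ h'.sβ hx, h.eqB x hx, h'.eqB x hx]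
      simp only [hP, hQ]
      ring
    have w1 := (w_lip (bA.zero hx) (bA'.zero hx)).trans
      (mul_le_mul_of_nonneg_left (ha x hx) (by positivity))
    have q1 : D A x ^ 2 ≤ K ^ 2 := sq_le_sq' (abs_le.1 (bA.one hx)).1 (abs_le.1 (bA.one hx)).2
    have q2 : D β x ^ 2 ≤ K ^ 2 := sq_le_sq' (abs_le.1 (bβ.one hx)).1 (abs_le.1 (bβ.one hx)).2
    have q3 : |8 * D A x ^ 2 + 10 * D β x ^ 2| ≤ 18 * K ^ 2 := by
      rw [abs_of_nonneg (by positivity)]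
      linarith
    have t1 := abs_le.1 (blip_mul q3 w1)
    have t2 := abs_le.1 (blip_mul (bP.one hx) (ha x hx))
    have t3 := abs_le.1 (blip_mul (bQ.one hx) (hb x hx))
    rw [e, abs_le]
    constructor <;> nlinarith [t1.1, t1.2, t2.1, t2.2, t3.1, t3.2]
  have h1 : (1 : ℝ) ∈ Icc (0 : ℝ) 1 := ⟨zero_le_one, le_rfl⟩
  have hM : 0 ≤ M := (abs_nonneg _).trans (ha 1 h1)
  have l := sΦ.lip dΦ h1 hy
  have hy1 : |y - 1| ≤ 1 := abs_le.2 ⟨by linarith [hy.1], by linarith [hy.2]⟩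
  have l2 := abs_le.1 (l.trans (mul_le_of_le_one_right (by positivity) hy1))
  have t1 := abs_le.1 (blip_mul (bP.zero hy) (ha y hy))
  have t2 := abs_le.1 (blip_mul (bQ.zero hy) (hb y hy))
  have t3 := abs_le.1 (blip_mul (bP.zero h1) (ha 1 h1))
  have t4 := abs_le.1 (blip_mul (bQ.zero h1) (hb 1 h1))
  rw [h.one, h'.one] at l2
  rw [abs_le]
  constructor <;> linarith [l2.1, l2.2, t1.1, t1.2, t2.1, t2.2, t3.1, t3.2, t4.1, t4.2]

end Vale.Agent.P244.X
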