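import Vale.Agent.P244.Defs

/-!
Block X: barrier lemma for a finite family.
For `ε > 0` put `ψ t = (M₀ + ε + (E + ε) t) exp (C t)`; `ψ' = (E + ε) exp (C t) + C ψ > C ψ + E`.
The set of `t ∈ [0, t₁]` with `ψ t ≤ |u j t y|` for some `j`, `y` is compact (finite union of
images under `Prod.fst` of closed subsets of a compact set).  If nonempty, take its least element
`τ > 0`.  At `τ` all `|u j τ y| ≤ ψ τ` (limit from the left, continuity in `t`), with equality at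
some `(j, y)`; for `t < τ`, `± u j t y - ψ t < 0 = ± u j τ y - ψ τ`, so the derivative within
`[0, t₁]` of `± u j · y - ψ` at `τ` is `≥ 0` (slopes from the left), contradicting `hm`.
Let `ε → 0`.
-/

namespace Vale.Agent.P244.X

open scoped ContDiff Topology
open Set Filter

theorem barrier_left {g : ℝ → ℝ} {t₁ τ d : ℝ} (h0 : 0 < τ) (h1 : τ ≤ t₁)
    (hd : HasDerivWithinAt g d (Icc 0 t₁) τ) (hl : ∀ t ∈ Ico 0 τ, g t ≤ g τ) : 0 ≤ d := by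
  have := right_nhdsWithin_Ico_neBot h0
  have h2 := (hasDerivWithinAt_iff_tendsto_slope' (s := Ico 0 τ) (fun h => lt_irrefl _ h.2)).1
    (hd.mono fun t ht => ⟨ht.1, ht.2.le.trans h1⟩)
  refine ge_of_tendsto h2 ?_
  filter_upwards [self_mem_nhdsWithin] with t ht
  rw [slope_def_field]
  exact div_nonneg_of_nonpos (sub_nonpos.2 (hl t ht)) (sub_nonpos.2 ht.2.le)

theorem barrier_lim {g : ℝ → ℝ} {t₁ τ : ℝ} (h0 : 0 < τ) (h1 : τ ≤ t₁)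
    (hd : ContinuousWithinAt g (Icc 0 t₁) τ) (hl : ∀ t ∈ Ico 0 τ, g t ≤ 0) : g τ ≤ 0 := by
  have := right_nhdsWithin_Ico_neBot h0
  refine le_of_tendsto (hd.mono (s := Ico 0 τ) fun t ht => ⟨ht.1, ht.2.le.trans h1⟩) ?_
  filter_upwards [self_mem_nhdsWithin] with t ht using hl t ht

theorem barrier_psi {ι : Type} [Finite ι] {t₁ C E : ℝ} (u F : ι → Fn) {ψ ψ' : ℝ → ℝ}
    (hψ : ∀ t, HasDerivAt ψ (ψ' t) t) (hψ' : ∀ t, 0 ≤ t → C * ψ t + E < ψ' t)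
    (hc : ∀ j, ContinuousOn (fun p : ℝ × ℝ => u j p.1 p.2) (Icc 0 t₁ ×ˢ Icc 0 1))
    (hd : ∀ j, ∀ t ∈ Icc 0 t₁, ∀ y ∈ Icc (0 : ℝ) 1,
      HasDerivWithinAt (fun s => u j s y) (F j t y) (Icc 0 t₁) t)
    (h0 : ∀ j, ∀ y ∈ Icc (0 : ℝ) 1, |u j 0 y| < ψ 0)
    (hm : ∀ t ∈ Icc 0 t₁, ∀ M, 0 ≤ M → (∀ j, ∀ y ∈ Icc (0 : ℝ) 1, |u j t y| ≤ M) →
      ∀ j, ∀ y ∈ Icc (0 : ℝ) 1,
        (u j t y = M → F j t y ≤ C * M + E) ∧ (u j t y = -M → -(C * M + E) ≤ F j t y)) :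
    ∀ j, ∀ t ∈ Icc 0 t₁, ∀ y ∈ Icc (0 : ℝ) 1, |u j t y| < ψ t := by
  intro j₀ t₀ ht₀ y₀ hy₀
  by_contra hn
  have hcψ : Continuous ψ := continuous_iff_continuousAt.2 fun t => (hψ t).continuousAt
  have hK : IsCompact (Icc (0 : ℝ) t₁ ×ˢ Icc (0 : ℝ) 1) := isCompact_Icc.prod isCompact_Icc
  have hT : IsCompact (⋃ j, Prod.fst ''
      {p ∈ Icc (0 : ℝ) t₁ ×ˢ Icc (0 : ℝ) 1 | ψ p.1 ≤ |u j p.1 p.2|}) :=
    isCompact_iUnion fun j => (hK.of_isClosed_subset (hK.isClosed.isClosed_le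
      (hcψ.comp continuous_fst).continuousOn (hc j).abs) (sep_subset _ _)).image continuous_fst
  obtain ⟨τ, hτ, hmin⟩ := hT.exists_isLeast
    ⟨t₀, mem_iUnion.2 ⟨j₀, (t₀, y₀), ⟨⟨ht₀, hy₀⟩, not_lt.1 hn⟩, rfl⟩⟩
  obtain ⟨j, ⟨τ, y⟩, ⟨⟨ht, hy⟩, hge⟩, rfl⟩ := mem_iUnion.1 hτ
  simp only at ht hy hge hmin
  have hlt : ∀ t ∈ Ico 0 τ, ∀ i, ∀ z ∈ Icc (0 : ℝ) 1, |u i t z| < ψ t := by
    intro t h i z hz
    by_contra h2
    exact absurd (hmin (mem_iUnion.2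
      ⟨i, (t, z), ⟨⟨⟨h.1, h.2.le.trans ht.2⟩, hz⟩, not_lt.1 h2⟩, rfl⟩)) (not_le.2 h.2)
  have hpos : 0 < τ := by
    refine ht.1.lt_of_ne ?_
    rintro rfl
    exact absurd (h0 j y hy) (not_lt.2 hge)
  have hle : ∀ i, ∀ z ∈ Icc (0 : ℝ) 1, |u i τ z| ≤ ψ τ := fun i z hz =>
    sub_nonpos.1 (barrier_lim (g := fun t => |u i t z| - ψ t) hpos ht.2
      ((hd i τ ht z hz).continuousWithinAt.abs.sub hcψ.continuousWithinAt)
      fun t h => sub_nonpos.2 (hlt t h i z hz).le)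
  have he : |u j τ y| = ψ τ := le_antisymm (hle j y hy) hge
  have hM : 0 ≤ ψ τ := he ▸ abs_nonneg _
  obtain ⟨m1, m2⟩ := hm τ ht (ψ τ) hM hle j y hy
  have h3 := hψ' τ ht.1
  rcases (abs_eq hM).1 he with h | h
  · have h4 := barrier_left (g := fun t => u j t y - ψ t) hpos ht.2
      ((hd j τ ht y hy).sub (hψ τ).hasDerivWithinAt) fun t h' => by
        linarith [(abs_lt.1 (hlt t h' j y hy)).2]
    linarith [m1 h]
  · have h4 := barrier_left (g := fun t => -u j t y - ψ t) hpos ht.2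
      ((hd j τ ht y hy).neg.sub (hψ τ).hasDerivWithinAt) fun t h' => by
        linarith [(abs_lt.1 (hlt t h' j y hy)).1]
    linarith [m2 h]

theorem barrier {ι : Type} [Finite ι] {t₁ C E M₀ : ℝ} (hC : 0 ≤ C) (hE : 0 ≤ E) (u F : ι → Fn)
    (hc : ∀ j, ContinuousOn (fun p : ℝ × ℝ => u j p.1 p.2) (Icc 0 t₁ ×ˢ Icc 0 1))
    (hd : ∀ j, ∀ t ∈ Icc 0 t₁, ∀ y ∈ Icc (0 : ℝ) 1,
      HasDerivWithinAt (fun s => u j s y) (F j t y) (Icc 0 t₁) t)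
    (h0 : ∀ j, ∀ y ∈ Icc (0 : ℝ) 1, |u j 0 y| ≤ M₀)
    (hm : ∀ t ∈ Icc 0 t₁, ∀ M, 0 ≤ M → (∀ j, ∀ y ∈ Icc (0 : ℝ) 1, |u j t y| ≤ M) →
      ∀ j, ∀ y ∈ Icc (0 : ℝ) 1,
        (u j t y = M → F j t y ≤ C * M + E) ∧ (u j t y = -M → -(C * M + E) ≤ F j t y)) :
    ∀ j, ∀ t ∈ Icc 0 t₁, ∀ y ∈ Icc (0 : ℝ) 1,
      |u j t y| ≤ (M₀ + E * t) * Real.exp (C * t) := by
  intro j t ht y hy
  have key : ∀ ε, 0 < ε → |u j t y| ≤ (M₀ + ε + (E + ε) * t) * Real.exp (C * t) := by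
    intro ε hε
    refine (barrier_psi u F (ψ := fun t => (M₀ + ε + (E + ε) * t) * Real.exp (C * t))
      (ψ' := fun t => (E + ε) * 1 * Real.exp (C * t) +
        (M₀ + ε + (E + ε) * t) * (Real.exp (C * t) * (C * 1)))
      (fun s => (((hasDerivAt_id s).const_mul (E + ε)).const_add (M₀ + ε)).mul
        ((hasDerivAt_id s).const_mul C).exp) (fun s hs => ?_) hc hd (fun i z hz => ?_) hm
      j t ht y hy).le
    · have h1 : 1 ≤ Real.exp (C * s) := Real.one_le_exp (mul_nonneg hC hs)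
      have h2 := mul_le_mul_of_nonneg_left h1 (add_nonneg hE hε.le)
      linarith
    · simp only [mul_zero, add_zero, Real.exp_zero, mul_one]
      linarith [h0 i z hz]
  have h1 : Continuous fun ε : ℝ => (M₀ + ε + (E + ε) * t) * Real.exp (C * t) := by fun_prop
  have h2 := (h1.tendsto 0).mono_left (nhdsWithin_le_nhds (s := Ioi 0))
  simp only [add_zero] at h2
  refine ge_of_tendsto h2 ?_
  filter_upwards [self_mem_nhdsWithin] with ε hε using key ε hε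

end Vale.Agent.P244.X
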