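import Vale.Agent.P244.Kit.Sm

/-!
Block X, definitions on time slices: functions of `y ∈ [0, 1]`.
`dY u t = D (u t)` holds by `rfl`, `Nb u t N ↔ Nb1 (u t) N` by `Iff.rfl`.
-/

namespace Vale.Agent.P244.X

open scoped ContDiff Topology
open Set Filter

noncomputable section

/-- Derivative within `[0, 1]`. -/
def D (f : ℝ → ℝ) : ℝ → ℝ := fun y => derivWithin f (Icc 0 1) y

/-- Smooth on `[0, 1]`. -/
def S (f : ℝ → ℝ) : Prop := ContDiffOn ℝ ∞ f (Icc 0 1)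

/-- `C^m` norm at most `N`. -/
def Bd (m : ℕ) (f : ℝ → ℝ) (N : ℝ) : Prop :=
  ∀ i ≤ m, ∀ y ∈ Icc (0 : ℝ) 1, |D^[i] f y| ≤ N

/-- Continuation norm at most `N`. -/
def Nb1 (f : ℝ → ℝ) (N : ℝ) : Prop :=
  ∀ y ∈ Icc (0 : ℝ) 1, |f y| ≤ N ∧ |D f y| ≤ N ∧ |y * (1 - y) * D (D f) y| ≤ N

/-- Second order coefficient. -/
def a2 (A : ℝ → ℝ) : ℝ → ℝ := fun y => 4 * (y * (1 - y)) * Real.exp (-2 * A y)

/-- First order coefficient. -/
def a1 (A B : ℝ → ℝ) : ℝ → ℝ := fun y =>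
  12 * (1 - 2 * y) * Real.exp (-2 * A y) + 2 * (y * (1 - y)) * B y

/-- Source of the `A`-equation. -/
def fA (A B : ℝ → ℝ) : ℝ → ℝ := fun y => -20 * Real.exp (-2 * A y) + (1 - 2 * y) * B y

/-- Source of the `β`-equation. -/
def fB (β : ℝ → ℝ) : ℝ → ℝ := fun y => -4 * Real.exp (-2 * β y)

/-- The linear operator with coefficients frozen at `(A, B)`. -/
def Lop (A B u : ℝ → ℝ) : ℝ → ℝ := fun y => a2 A y * D (D u) y + a1 A B y * D u y

/-- Right-hand side of the `A`-equation. -/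
def rA (A B : ℝ → ℝ) : ℝ → ℝ := fun y => Lop A B A y + fA A B y

/-- Right-hand side of the `β`-equation. -/
def rB (A β B : ℝ → ℝ) : ℝ → ℝ := fun y => Lop A B β y + fB β y

/-- An admissible slice: smooth `A`, `β`, and `B` determined by them. -/
structure Tri (A β B : ℝ → ℝ) : Prop where
  sA : S A
  sβ : S β
  sB : S B
  eqB : ∀ y ∈ Icc (0 : ℝ) 1, D B y =
    -2 * Real.exp (-2 * A y) * (4 * D A y ^ 2 + 5 * D β y ^ 2)
  one : B 1 = 0

/-- Lower order remainder of the `i`-th derivative of `p u'' + q u'`. -/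
def G (i : ℕ) (p q u : ℝ → ℝ) : ℝ → ℝ := fun y =>
  D^[i] (fun z => p z * D (D u) z + q z * D u z) y -
    (p y * D^[i + 2] u y + (q y + i * D p y) * D^[i + 1] u y)

/-- One implicit time step with lagged coefficients. -/
structure Step (s : ℝ) (A β B A₁ β₁ : ℝ → ℝ) : Prop where
  sA : S A₁
  sβ : S β₁
  eqA : ∀ y ∈ Icc (0 : ℝ) 1, A₁ y - s * Lop A B A₁ y = A y + s * fA A B y
  eqβ : ∀ y ∈ Icc (0 : ℝ) 1, β₁ y - s * Lop A B β₁ y = β y + s * fB β y

/-- The whole time discrete solution. -/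
def Chain (s : ℝ) (A β B : ℕ → ℝ → ℝ) : Prop :=
  ∀ k, Tri (A k) (β k) (B k) ∧ Step s (A k) (β k) (B k) (A (k + 1)) (β (k + 1))

/-- Smooth solution of the normalised singular equation on `[a, b]`. -/
def OdeOn (a b : ℝ) (q g h u : ℝ → ℝ) : Prop :=
  ContDiffOn ℝ ∞ u (Icc a b) ∧ ∀ y ∈ Ioo a b,
    y * (1 - y) * deriv (deriv u) y + (3 * (1 - 2 * y) + y * (1 - y) * q y) * deriv u y =
      g y * u y + h y

/-- The averaging operator. -/
def Avg (F : ℝ → ℝ) : ℝ → ℝ := fun y => ∫ x in (0 : ℝ)..1, x ^ 2 * F (x * y)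

/-- The `y`-derivatives up to order `m` are jointly `C^k`, and the slices are smooth. -/
def Tw (I : Set ℝ) (k m : ℕ) (u : Fn) : Prop :=
  (∀ t ∈ I, S (u t)) ∧
    ∀ i ≤ m, ContDiffOn ℝ k (fun p : ℝ × ℝ => D^[i] (u p.1) p.2) (I ×ˢ Icc 0 1)

theorem dY_slice (u : Fn) (t : ℝ) : dY u t = D (u t) := rfl

theorem dY_iter_slice (m : ℕ) (u : Fn) (t : ℝ) : dY^[m] u t = D^[m] (u t) := by
  induction m generalizing u with
  | zero => rfl
  | succ m ih => rw [Function.iterate_succ_apply, Function.iterate_succ_apply, ih]; rfl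

theorem cm_iff {m : ℕ} {u : Fn} {t N : ℝ} : Cm m u t N ↔ Bd m (u t) N := by
  simp only [Cm, Bd, dY_iter_slice]

theorem nb_iff {u : Fn} {t N : ℝ} : Nb u t N ↔ Nb1 (u t) N := Iff.rfl

theorem rhsA_slice (A B : Fn) (t : ℝ) : rhsA A B t = rA (A t) (B t) := by
  funext y
  simp only [rhsA, rA, Lop, a2, a1, fA, DD, dY_slice]
  ring

theorem rhsB_slice (A β B : Fn) (t : ℝ) : rhsB A β B t = rB (A t) (β t) (B t) := by
  funext y
  simp only [rhsB, rB, Lop, a2, a1, fB, DD, dY_slice]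
  ring

end

end Vale.Agent.P244.X
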