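import Vale.Agent.P244.X.Base

/-!
Block X: calculus for `D`, `S`, `Bd` on `[0, 1]`.
-/

namespace Vale.Agent.P244.X

open scoped ContDiff Topology
open Set Filter

variable {f g : ℝ → ℝ} {y : ℝ} {m : ℕ} {N M : ℝ}

theorem uJ : UniqueDiffOn ℝ (Icc (0 : ℝ) 1) := uniqueDiffOn_Icc zero_lt_one

theorem S.const (c : ℝ) : S fun _ => c := contDiffOn_const

theorem S.id : S fun y => y := contDiffOn_id

theorem S.add (hf : S f) (hg : S g) : S fun y => f y + g y := ContDiffOn.add hf hg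

theorem S.sub (hf : S f) (hg : S g) : S fun y => f y - g y := ContDiffOn.sub hf hg

theorem S.neg (hf : S f) : S fun y => -f y := ContDiffOn.neg hf

theorem S.mul (hf : S f) (hg : S g) : S fun y => f y * g y := ContDiffOn.mul hf hg

theorem S.cmul (hf : S f) (c : ℝ) : S fun y => c * f y := (S.const c).mul hf

theorem S.pow (hf : S f) (n : ℕ) : S fun y => f y ^ n := ContDiffOn.pow hf n

theorem S.exp (hf : S f) : S fun y => Real.exp (f y) := ContDiffOn.exp hf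

theorem S.w (hf : S f) : S fun y => Real.exp (-2 * f y) := (hf.cmul (-2)).exp

theorem S.congr (hf : S f) (e : EqOn g f (Icc 0 1)) : S g := ContDiffOn.congr hf e

theorem S.cont (hf : S f) : ContinuousOn f (Icc 0 1) := ContDiffOn.continuousOn hf

theorem S.D (hf : S f) : S (D f) := ContDiffOn.derivWithin hf uJ (by simp)

theorem S.iter (hf : S f) (m : ℕ) : S (X.D^[m] f) := by
  induction m with
  | zero => exact hf
  | succ m ih => rw [Function.iterate_succ_apply']; exact ih.D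

theorem S.hasD (hf : S f) (hy : y ∈ Icc (0 : ℝ) 1) :
    HasDerivWithinAt f (X.D f y) (Icc 0 1) y :=
  ((ContDiffOn.differentiableOn hf (by simp)) y hy).hasDerivWithinAt

theorem S.hasD' (hf : S f) (hy : y ∈ Ioo (0 : ℝ) 1) : HasDerivAt f (X.D f y) y :=
  (hf.hasD (Ioo_subset_Icc_self hy)).hasDerivAt (Icc_mem_nhds hy.1 hy.2)

theorem D_eq {d : ℝ} (hy : y ∈ Icc (0 : ℝ) 1) (h : HasDerivWithinAt f d (Icc 0 1) y) :
    D f y = d := h.derivWithin (uJ y hy)

theorem D_congr (e : EqOn f g (Icc 0 1)) : EqOn (D f) (D g) (Icc 0 1) :=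
  fun _ hy => derivWithin_congr e (e hy)

theorem iter_congr (e : EqOn f g (Icc 0 1)) (m : ℕ) : EqOn (D^[m] f) (D^[m] g) (Icc 0 1) := by
  induction m with
  | zero => exact e
  | succ m ih => rw [Function.iterate_succ_apply', Function.iterate_succ_apply']; exact D_congr ih

theorem iter_succ (m : ℕ) (f : ℝ → ℝ) : D^[m + 1] f = D^[m] (D f) := rfl

theorem iter_succ' (m : ℕ) (f : ℝ → ℝ) : D^[m + 1] f = D (D^[m] f) :=
  Function.iterate_succ_apply' _ _ _

theorem iter_eq (m : ℕ) (f : ℝ → ℝ) (y : ℝ) :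
    D^[m] f y = iteratedDerivWithin m f (Icc 0 1) y := by
  rw [iteratedDerivWithin_eq_iterate]; rfl

theorem S.at (hf : S f) (hy : y ∈ Icc (0 : ℝ) 1) (m : ℕ) :
    ContDiffWithinAt ℝ m f (Icc 0 1) y := (hf y hy).of_le (by exact_mod_cast le_top)

theorem D_const (c : ℝ) (hy : y ∈ Icc (0 : ℝ) 1) : D (fun _ => c) y = 0 :=
  D_eq hy (hasDerivWithinAt_const _ _ _)

theorem D_id (hy : y ∈ Icc (0 : ℝ) 1) : D (fun z => z) y = 1 := D_eq hy (hasDerivWithinAt_id _ _)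

theorem D_add (hf : S f) (hg : S g) (hy : y ∈ Icc (0 : ℝ) 1) :
    D (fun z => f z + g z) y = D f y + D g y := D_eq hy ((hf.hasD hy).add (hg.hasD hy))

theorem D_sub (hf : S f) (hg : S g) (hy : y ∈ Icc (0 : ℝ) 1) :
    D (fun z => f z - g z) y = D f y - D g y := D_eq hy ((hf.hasD hy).sub (hg.hasD hy))

theorem D_mul (hf : S f) (hg : S g) (hy : y ∈ Icc (0 : ℝ) 1) :
    D (fun z => f z * g z) y = D f y * g y + f y * D g y :=
  D_eq hy ((hf.hasD hy).mul (hg.hasD hy))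

theorem D_cmul (hf : S f) (c : ℝ) (hy : y ∈ Icc (0 : ℝ) 1) :
    D (fun z => c * f z) y = c * D f y := D_eq hy ((hf.hasD hy).const_mul c)

theorem D_w (hf : S f) (hy : y ∈ Icc (0 : ℝ) 1) :
    D (fun z => Real.exp (-2 * f z)) y = -2 * D f y * Real.exp (-2 * f y) := by
  rw [D_eq hy ((hf.hasD hy).const_mul (-2)).exp]; ring

theorem iter_add (hf : S f) (hg : S g) (m : ℕ) (hy : y ∈ Icc (0 : ℝ) 1) :
    D^[m] (fun z => f z + g z) y = D^[m] f y + D^[m] g y := by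
  simp only [iter_eq]
  exact iteratedDerivWithin_add hy uJ (hf.at hy m) (hg.at hy m)

theorem iter_sub (hf : S f) (hg : S g) (m : ℕ) (hy : y ∈ Icc (0 : ℝ) 1) :
    D^[m] (fun z => f z - g z) y = D^[m] f y - D^[m] g y := by
  simp only [iter_eq]
  exact iteratedDerivWithin_sub hy uJ (hf.at hy m) (hg.at hy m)

theorem iter_cmul (hf : S f) (c : ℝ) (m : ℕ) (hy : y ∈ Icc (0 : ℝ) 1) :
    D^[m] (fun z => c * f z) y = c * D^[m] f y := by
  simp only [iter_eq]
  exact iteratedDerivWithin_const_mul hy uJ c (hf.at hy m)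

theorem iter_neg (hf : S f) (m : ℕ) (hy : y ∈ Icc (0 : ℝ) 1) :
    D^[m] (fun z => -f z) y = -D^[m] f y := by
  have := iter_cmul hf (-1) m hy
  simpa using this

/-- Leibniz formula. -/
theorem iter_mul (hf : S f) (hg : S g) (m : ℕ) (hy : y ∈ Icc (0 : ℝ) 1) :
    D^[m] (fun z => f z * g z) y =
      ∑ i ∈ Finset.range (m + 1), (m.choose i : ℝ) * D^[i] f y * D^[m - i] g y := by
  simp only [iter_eq]
  exact iteratedDerivWithin_mul hy uJ (hf.at hy m) (hg.at hy m)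

theorem Bd.nonneg (h : Bd m f N) : 0 ≤ N :=
  (abs_nonneg _).trans (h 0 (Nat.zero_le _) 0 ⟨le_rfl, zero_le_one⟩)

theorem Bd.mono (h : Bd m f N) (hN : N ≤ M) : Bd m f M :=
  fun i hi y hy => (h i hi y hy).trans hN

theorem Bd.of_le {k : ℕ} (h : Bd m f N) (hk : k ≤ m) : Bd k f N :=
  fun i hi y hy => h i (hi.trans hk) y hy

theorem Bd.zero (h : Bd m f N) (hy : y ∈ Icc (0 : ℝ) 1) : |f y| ≤ N := h 0 (Nat.zero_le _) y hy

theorem Bd.one (h : Bd (m + 1) f N) (hy : y ∈ Icc (0 : ℝ) 1) : |D f y| ≤ N :=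
  h 1 (by omega) y hy

theorem Bd.two (h : Bd (m + 2) f N) (hy : y ∈ Icc (0 : ℝ) 1) : |D (D f) y| ≤ N :=
  h 2 (by omega) y hy

theorem Bd.congr (h : Bd m f N) (e : EqOn g f (Icc 0 1)) : Bd m g N :=
  fun i hi y hy => by rw [iter_congr e i hy]; exact h i hi y hy

theorem Bd.D (h : Bd (m + 1) f N) : Bd m (D f) N :=
  fun i hi y hy => h (i + 1) (by omega) y hy

theorem bd_zero (h : ∀ y ∈ Icc (0 : ℝ) 1, |f y| ≤ N) : Bd 0 f N := fun i hi y hy => by
  obtain rfl : i = 0 := by omega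
  exact h y hy

theorem bd_succ (h : ∀ y ∈ Icc (0 : ℝ) 1, |f y| ≤ N) (h' : Bd m (D f) N) : Bd (m + 1) f N := by
  intro i hi y hy
  cases i with
  | zero => exact h y hy
  | succ i => exact h' i (by omega) y hy

theorem bd_succ' (h : Bd m f N) (h' : ∀ y ∈ Icc (0 : ℝ) 1, |D^[m + 1] f y| ≤ N) :
    Bd (m + 1) f N := by
  intro i hi y hy
  rcases Nat.lt_or_ge i (m + 1) with h1 | h1
  · exact h i (by omega) y hy
  · obtain rfl : i = m + 1 := by omega
    exact h' y hy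

theorem Bd.add (h : Bd m f N) (h' : Bd m g M) (hf : S f) (hg : S g) :
    Bd m (fun y => f y + g y) (N + M) := fun i hi y hy => by
  rw [iter_add hf hg i hy]
  exact (abs_add_le _ _).trans (add_le_add (h i hi y hy) (h' i hi y hy))

theorem Bd.sub (h : Bd m f N) (h' : Bd m g M) (hf : S f) (hg : S g) :
    Bd m (fun y => f y - g y) (N + M) := fun i hi y hy => by
  rw [iter_sub hf hg i hy]
  exact (abs_sub _ _).trans (add_le_add (h i hi y hy) (h' i hi y hy))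

theorem Bd.cmul (h : Bd m f N) (hf : S f) (c : ℝ) : Bd m (fun y => c * f y) (|c| * N) :=
  fun i hi y hy => by
    rw [iter_cmul hf c i hy, abs_mul]
    exact mul_le_mul_of_nonneg_left (h i hi y hy) (abs_nonneg _)

theorem Bd.neg (h : Bd m f N) (hf : S f) : Bd m (fun y => -f y) N := fun i hi y hy => by
  rw [iter_neg hf i hy, abs_neg]; exact h i hi y hy

theorem Bd.symm (h : Bd m (fun y => f y - g y) N) (hf : S f) (hg : S g) :
    Bd m (fun y => g y - f y) N :=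
  (h.neg (hf.sub hg)).congr fun y _ => by simp

/-- The `C^m` norm is attained. -/
theorem S.bd_max (hf : S f) (m : ℕ) :
    ∃ i ≤ m, ∃ y ∈ Icc (0 : ℝ) 1, Bd m f |X.D^[i] f y| := by
  have h1 : ∀ i : ℕ, ∃ y ∈ Icc (0 : ℝ) 1, ∀ z ∈ Icc (0 : ℝ) 1, |X.D^[i] f z| ≤ |X.D^[i] f y| :=
    fun i => isCompact_Icc.exists_isMaxOn ⟨0, le_rfl, zero_le_one⟩ (hf.iter i).cont.abs
  choose Y hY hY' using h1
  obtain ⟨i, hi, hmax⟩ := (Finset.range (m + 1)).exists_max_image
    (fun i => |X.D^[i] f (Y i)|) ⟨0, by simp⟩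
  refine ⟨i, by simpa [Nat.lt_succ_iff] using hi, Y i, hY i, fun j hj z hz => ?_⟩
  exact (hY' j z hz).trans (hmax j (by simpa [Nat.lt_succ_iff] using hj))

theorem S.bd (hf : S f) (m : ℕ) : ∃ N, Bd m f N :=
  let ⟨_, _, _, _, h⟩ := hf.bd_max m
  ⟨_, h⟩

/-- Mean value inequality on `[0, 1]`. -/
theorem S.lip (hf : S f) (h : ∀ y ∈ Icc (0 : ℝ) 1, |X.D f y| ≤ N) {z : ℝ}
    (hy : y ∈ Icc (0 : ℝ) 1) (hz : z ∈ Icc (0 : ℝ) 1) : |f z - f y| ≤ N * |z - y| :=
  (convex_Icc (0 : ℝ) 1).norm_image_sub_le_of_norm_hasDerivWithin_le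
    (fun _ hx => hf.hasD hx) h hy hz

theorem Nb1.bd (h : Nb1 f N) : Bd 1 f N :=
  bd_succ (fun y hy => (h y hy).1) (bd_zero fun y hy => (h y hy).2.1)

theorem Bd.nb (h : Bd 2 f N) : Nb1 f N := fun y hy => by
  refine ⟨h.zero hy, h.one hy, ?_⟩
  rw [abs_mul]
  have h1 : |y * (1 - y)| ≤ 1 := by
    rw [abs_le]; constructor <;> nlinarith [hy.1, hy.2]
  calc _ ≤ 1 * N := mul_le_mul h1 (h.two hy) (abs_nonneg _) zero_le_one
    _ = N := one_mul N

theorem S.v : S fun y => y * (1 - y) := S.id.mul ((S.const 1).sub S.id)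

theorem S.c : S fun y => 1 - 2 * y := (S.const 1).sub (S.id.cmul 2)

theorem S.a2 {A : ℝ → ℝ} (hA : S A) : S (a2 A) := (S.v.cmul 4).mul hA.w

theorem S.a1 {A B : ℝ → ℝ} (hA : S A) (hB : S B) : S (a1 A B) :=
  ((S.c.cmul 12).mul hA.w).add ((S.v.cmul 2).mul hB)

theorem S.fA {A B : ℝ → ℝ} (hA : S A) (hB : S B) : S (fA A B) :=
  (hA.w.cmul (-20)).add (S.c.mul hB)

theorem S.fB {β : ℝ → ℝ} (h : S β) : S (fB β) := h.w.cmul (-4)

theorem S.Lop {A B u : ℝ → ℝ} (hA : S A) (hB : S B) (hu : S u) : S (Lop A B u) :=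
  (hA.a2.mul hu.D.D).add ((hA.a1 hB).mul hu.D)

theorem S.rA {A B : ℝ → ℝ} (hA : S A) (hB : S B) : S (rA A B) :=
  (hA.Lop hB hA).add (hA.fA hB)

theorem S.rB {A β B : ℝ → ℝ} (hA : S A) (hβ : S β) (hB : S B) : S (rB A β B) :=
  (hA.Lop hB hβ).add hβ.fB

/-- `Lop` is linear in the last argument. -/
theorem Lop_sub {A B u u' : ℝ → ℝ} (hu : S u) (hu' : S u') (hy : y ∈ Icc (0 : ℝ) 1) :
    Lop A B (fun z => u z - u' z) y = Lop A B u y - Lop A B u' y := by
  have h2 := iter_sub hu hu' 2 hy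
  have h1 := D_sub hu hu' hy
  simp only [Function.iterate_succ, Function.iterate_zero, Function.comp, _root_.id] at h2
  simp only [Lop, h1, h2]; ring

end Vale.Agent.P244.X
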