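import Vale.Agent.P244.X.StepEst

/-!
Block X: uniform bounds for the time discrete solution.
`chain_two`: `K = N + 1`, `C` from `step_two K`, `δ = 1 / C`; induction: `Bd 2 .. (N + k s C)`.
`chain_tame`: `C` from `step_tame`, `s₀ = 1 / C`; induction: the bound `M k` with
`1 + M k = (1 + N) exp (C k s)` (`1 + x ≤ exp x`), finally `(1 + N) exp (C δ)`.
`chain_all`: induction on `m` from `m = 2` with `chain_tame`, `S.bd`, `min` of the steps.
-/

namespace Vale.Agent.P244.X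

open scoped ContDiff Topology
open Set Filter

theorem chain_two (N : ℝ) : ∃ δ, 0 < δ ∧ ∃ K, ∀ s A β B, 0 < s → Chain s A β B →
    Bd 2 (A 0) N → Bd 2 (β 0) N → ∀ k : ℕ, k * s ≤ δ → Bd 2 (A k) K ∧ Bd 2 (β k) K := by
  obtain ⟨C, C0, hC⟩ := step_two (N + 1)
  refine ⟨1 / C, by positivity, N + 1, fun s A β B hs hch hA hβ => ?_⟩
  have h1 : ∀ k : ℕ, k * s ≤ 1 / C → k * s * C ≤ 1 := fun k hk => (le_div_iff₀ C0).1 hk
  have key : ∀ k : ℕ, k * s ≤ 1 / C →
      Bd 2 (A k) (N + k * s * C) ∧ Bd 2 (β k) (N + k * s * C) := fun k => by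
    induction k with
    | zero =>
      intro _
      simpa using ⟨hA, hβ⟩
    | succ k ih =>
      intro hk
      have k0 : 0 ≤ (k : ℝ) * s := by positivity
      have hk' : k * s ≤ 1 / C := by
        push_cast at hk
        linarith
      have h2 := h1 _ hk
      have h3 : 0 ≤ (k : ℝ) * s * C := by positivity
      have e : ((k + 1 : ℕ) : ℝ) * s * C = k * s * C + s * C := by
        push_cast
        ring
      rw [e] at h2
      rw [e, ← add_assoc]
      exact hC s _ _ _ _ _ _ hs (by linarith) (by linarith [h1 k hk']) (hch k).1 (hch k).2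
        (ih hk').1 (ih hk').2
  intro k hk
  have h2 := h1 k hk
  exact ⟨(key k hk).1.mono (by linarith), (key k hk).2.mono (by linarith)⟩

theorem chain_tame {m : ℕ} (hm : 2 ≤ m) (δ K N : ℝ) : ∃ s₀, 0 < s₀ ∧ ∃ C, ∀ s A β B, 0 < s →
    s ≤ s₀ → Chain s A β B → (∀ k : ℕ, k * s ≤ δ → Bd m (A k) K ∧ Bd m (β k) K) →
    Bd (m + 1) (A 0) N → Bd (m + 1) (β 0) N →
    ∀ k : ℕ, k * s ≤ δ → Bd (m + 1) (A k) C ∧ Bd (m + 1) (β k) C := by
  obtain ⟨C, C0, hC⟩ := step_tame hm K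
  refine ⟨1 / C, by positivity, (1 + N) * Real.exp (δ * C),
    fun s A β B hs hs0 hch hK hA hβ => ?_⟩
  have sC : s * C ≤ 1 := (le_div_iff₀ C0).1 hs0
  have N0 : 0 ≤ 1 + N := by linarith [hA.nonneg]
  have key : ∀ k : ℕ, k * s ≤ δ →
      Bd (m + 1) (A k) ((1 + N) * Real.exp (k * s * C) - 1) ∧
        Bd (m + 1) (β k) ((1 + N) * Real.exp (k * s * C) - 1) := fun k => by
    induction k with
    | zero =>
      intro _
      simpa using ⟨hA, hβ⟩
    | succ k ih =>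
      intro hk
      have hk' : k * s ≤ δ := by
        push_cast at hk
        linarith
      have h := hC s _ _ _ _ _ _ hs sC (hch k).1 (hch k).2 (hK k hk').1 (hK k hk').2
        (hK _ hk).1 (hK _ hk).2 (ih hk').1 (ih hk').2
      have e : ((k + 1 : ℕ) : ℝ) * s * C = k * s * C + s * C := by
        push_cast
        ring
      have h1 : 0 ≤ (1 + N) * Real.exp (k * s * C) := by positivity
      have h2 := mul_le_mul_of_nonneg_left (Real.add_one_le_exp (s * C)) h1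
      have h3 : (1 + N) * Real.exp (k * s * C) - 1 +
          s * C * (1 + ((1 + N) * Real.exp (k * s * C) - 1)) ≤
          (1 + N) * Real.exp (((k + 1 : ℕ) : ℝ) * s * C) - 1 := by
        rw [e, Real.exp_add]
        linarith
      exact ⟨h.1.mono h3, h.2.mono h3⟩
  intro k hk
  have h3 : (1 + N) * Real.exp (k * s * C) - 1 ≤ (1 + N) * Real.exp (δ * C) := by
    have := mul_le_mul_of_nonneg_left
      (Real.exp_le_exp.2 (mul_le_mul_of_nonneg_right hk C0.le)) N0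
    linarith
  exact ⟨(key k hk).1.mono h3, (key k hk).2.mono h3⟩

theorem chain_all (δ K : ℝ) {a b : ℝ → ℝ} (ha : S a) (hb : S b) (m : ℕ) :
    ∃ s₀, 0 < s₀ ∧ ∃ C, ∀ s A β B, 0 < s → s ≤ s₀ → Chain s A β B → A 0 = a → β 0 = b →
      (∀ k : ℕ, k * s ≤ δ → Bd 2 (A k) K ∧ Bd 2 (β k) K) →
      ∀ k : ℕ, k * s ≤ δ → Bd m (A k) C ∧ Bd m (β k) C := by
  have key : ∀ n : ℕ, ∃ s₀, 0 < s₀ ∧ ∃ C, ∀ s A β B, 0 < s → s ≤ s₀ → Chain s A β B → A 0 = a →
      β 0 = b → (∀ k : ℕ, k * s ≤ δ → Bd 2 (A k) K ∧ Bd 2 (β k) K) →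
      ∀ k : ℕ, k * s ≤ δ → Bd (n + 2) (A k) C ∧ Bd (n + 2) (β k) C := fun n => by
    induction n with
    | zero => exact ⟨1, one_pos, K, fun s A β B _ _ _ _ _ h => h⟩
    | succ n ih =>
      obtain ⟨s₁, h1, C, hC⟩ := ih
      obtain ⟨Na, hNa⟩ := ha.bd (n + 2 + 1)
      obtain ⟨Nb, hNb⟩ := hb.bd (n + 2 + 1)
      obtain ⟨s₂, h2, C', hC'⟩ := chain_tame (m := n + 2) (by omega) δ C (max Na Nb)
      refine ⟨min s₁ s₂, lt_min h1 h2, C', fun s A β B hs hs0 hch e1 e2 h => ?_⟩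
      exact hC' s A β B hs (hs0.trans (min_le_right _ _)) hch
        (hC s A β B hs (hs0.trans (min_le_left _ _)) hch e1 e2 h)
        (e1 ▸ hNa.mono (le_max_left _ _)) (e2 ▸ hNb.mono (le_max_right _ _))
  obtain ⟨s₀, h0, C, hC⟩ := key m
  refine ⟨s₀, h0, C, fun s A β B hs hs0 hch e1 e2 h k hk => ?_⟩
  have := hC s A β B hs hs0 hch e1 e2 h k hk
  exact ⟨this.1.of_le (by omega), this.2.of_le (by omega)⟩

end Vale.Agent.P244.X
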