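import Vale.Agent.P244.X.Lip

/-!
Block X: increments of the time discrete solution.
`step_diff`: `A₁ - A = s (Lop A B A₁ + fA A B)` on `[0, 1]`; `coef_bd (m + 1) K`, `Lop_bd`.
`step_cons`: `A₁ - A - s rA = s Lop A B (A₁ - A)` (`Lop_sub`), `step_diff 2`, `Lop_bd` (`m = 0`).
`chain_lip`: induction on `d`, `Bd.add`, `Bd.congr`.
`chain_cons`: induction on `d`; the new term is
`A (j+d+1) - A (j+d) - s r_j = (.. - s r_{j+d}) + s (r_{j+d} - r_j)`, at most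
`s² C₁ + s C₂ C₃ d s` (`step_cons`, `rhs_lip`, `chain_lip 2`), and
`(d s)² + s² + d s² ≤ ((d + 1) s)²`.
-/

namespace Vale.Agent.P244.X

open scoped ContDiff Topology
open Set Filter

theorem step_diff (m : ℕ) (K : ℝ) : ∃ C, 0 ≤ C ∧ ∀ s A β B A₁ β₁, 0 < s → Tri A β B →
    Step s A β B A₁ β₁ → Bd (m + 2) A K → Bd (m + 2) β K → Bd (m + 2) A₁ K → Bd (m + 2) β₁ K →
    Bd m (fun y => A₁ y - A y) (C * s) ∧ Bd m (fun y => β₁ y - β y) (C * s) := by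
  obtain ⟨C₀, c0, hC⟩ := coef_bd (m + 1) K
  refine ⟨2 ^ (m + 1) * C₀ * |K| + C₀, by positivity,
    fun s A β B A₁ β₁ hs T St bA bβ bA₁ bβ₁ => ?_⟩
  obtain ⟨k2, k1, kA, kB, -⟩ := hC A β B T bA bβ
  rw [abs_of_nonneg bA.nonneg]
  have key : ∀ u v f : ℝ → ℝ, S u → S f → Bd (m + 2) u K → Bd (m + 1 + 1) f C₀ →
      (∀ y ∈ Icc (0 : ℝ) 1, u y - s * Lop A B u y = v y + s * f y) →
      Bd m (fun y => u y - v y) ((2 ^ (m + 1) * C₀ * K + C₀) * s) := by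
    intro u v f hu hf bu bf eq
    have hL := T.sA.Lop T.sB hu
    have h := ((Lop_bd T.sA T.sB hu (k2.of_le (by omega)) (k1.of_le (by omega)) bu).add
      (bf.of_le (by omega)) hL hf).cmul (hL.add hf) s
    rw [abs_of_pos hs, mul_comm] at h
    refine h.congr fun y hy => ?_
    linear_combination eq y hy
  exact ⟨key _ _ _ St.sA (T.sA.fA T.sB) bA₁ kA St.eqA, key _ _ _ St.sβ T.sβ.fB bβ₁ kB St.eqβ⟩

theorem step_cons (K : ℝ) : ∃ C, 0 ≤ C ∧ ∀ s A β B A₁ β₁, 0 < s → Tri A β B →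
    Step s A β B A₁ β₁ → Bd 4 A K → Bd 4 β K → Bd 4 A₁ K → Bd 4 β₁ K → ∀ y ∈ Icc (0 : ℝ) 1,
    |A₁ y - A y - s * rA A B y| ≤ C * s ^ 2 ∧ |β₁ y - β y - s * rB A β B y| ≤ C * s ^ 2 := by
  obtain ⟨C₀, c0, hC⟩ := coef_bd 3 K
  obtain ⟨C₁, c1, hD⟩ := step_diff 2 K
  refine ⟨2 * C₀ * C₁, by positivity, fun s A β B A₁ β₁ hs T St bA bβ bA₁ bβ₁ y hy => ?_⟩
  obtain ⟨k2, k1, -⟩ := hC A β B T bA bβ
  obtain ⟨dA, dβ⟩ := hD s A β B A₁ β₁ hs T St bA bβ bA₁ bβ₁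
  have key : ∀ (u v : ℝ → ℝ) (f : ℝ), S u → S v → Bd 2 (fun y => u y - v y) (C₁ * s) →
      u y - s * Lop A B u y = v y + s * f →
      |u y - v y - s * (Lop A B v y + f)| ≤ 2 * C₀ * C₁ * s ^ 2 := by
    intro u v f hu hv b eq
    have h := (Lop_bd (m := 0) T.sA T.sB (hu.sub hv) (k2.of_le (by omega)) (k1.of_le (by omega))
      b).zero hy
    rw [Lop_sub hu hv hy] at h
    have e : u y - v y - s * (Lop A B v y + f) = s * (Lop A B u y - Lop A B v y) := by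
      linear_combination eq
    rw [e, abs_mul, abs_of_pos hs]
    exact (mul_le_mul_of_nonneg_left h hs.le).trans_eq (by ring)
  exact ⟨key _ _ _ St.sA T.sA dA (St.eqA y hy), key _ _ _ St.sβ T.sβ dβ (St.eqβ y hy)⟩

theorem ChainLip_le {j k : ℕ} {s δ : ℝ} (hs : 0 < s) (h : j ≤ k) (hk : (k : ℝ) * s ≤ δ) :
    (j : ℝ) * s ≤ δ :=
  (mul_le_mul_of_nonneg_right (Nat.cast_le.2 h) hs.le).trans hk

theorem chain_lip (m : ℕ) (K : ℝ) : ∃ C, 0 ≤ C ∧ ∀ δ s A β B, 0 < s → Chain s A β B →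
    (∀ k : ℕ, k * s ≤ δ → Bd (m + 2) (A k) K ∧ Bd (m + 2) (β k) K) →
    ∀ j d : ℕ, (j + d : ℕ) * s ≤ δ →
      Bd m (fun y => A (j + d) y - A j y) (C * (d * s)) ∧
      Bd m (fun y => β (j + d) y - β j y) (C * (d * s)) := by
  obtain ⟨C, c0, hC⟩ := step_diff m K
  refine ⟨C, c0, fun δ s A β B hs Ch hb j d => ?_⟩
  induction d with
  | zero =>
    intro _
    have z : ∀ f : ℝ → ℝ, Bd m (fun y => f y - f y) (C * (((0 : ℕ) : ℝ) * s)) := fun f =>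
      ((bd_const m 0).congr fun y _ => sub_self _).mono (by simp)
    exact ⟨z _, z _⟩
  | succ d ih =>
    intro h
    have h' : ((j + d : ℕ) : ℝ) * s ≤ δ := ChainLip_le hs (by omega) h
    obtain ⟨i1, i2⟩ := ih h'
    obtain ⟨s1, s2⟩ := hC s _ _ _ _ _ hs (Ch (j + d)).1 (Ch (j + d)).2 (hb _ h').1 (hb _ h').2
      (hb _ h).1 (hb _ h).2
    have e : C * s + C * (d * s) ≤ C * (((d + 1 : ℕ) : ℝ) * s) := by
      push_cast
      exact le_of_eq (by ring)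
    exact ⟨((s1.add i1 ((Ch _).1.sA.sub (Ch _).1.sA) ((Ch _).1.sA.sub (Ch _).1.sA)).mono e).congr
        fun y _ => (sub_add_sub_cancel _ _ _).symm,
      ((s2.add i2 ((Ch _).1.sβ.sub (Ch _).1.sβ) ((Ch _).1.sβ.sub (Ch _).1.sβ)).mono e).congr
        fun y _ => (sub_add_sub_cancel _ _ _).symm⟩

theorem ChainLip_num {a b c r r' s d C₁ C₂ : ℝ} (hs : 0 < s) (hd : 0 ≤ d) (c1 : 0 ≤ C₁)
    (c2 : 0 ≤ C₂) (h1 : |a - b - s * r'| ≤ C₁ * s ^ 2) (h2 : |r' - r| ≤ C₂ * (d * s))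
    (h3 : |b - c - d * s * r| ≤ (C₁ + C₂) * (d * s) ^ 2) :
    |a - c - (d + 1) * s * r| ≤ (C₁ + C₂) * ((d + 1) * s) ^ 2 := by
  have e : a - c - (d + 1) * s * r = (a - b - s * r') + s * (r' - r) + (b - c - d * s * r) := by
    ring
  have h4 : |s * (r' - r)| ≤ s * (C₂ * (d * s)) := by
    rw [abs_mul, abs_of_pos hs]
    exact mul_le_mul_of_nonneg_left h2 hs.le
  have h5 := abs_add_three (a - b - s * r') (s * (r' - r)) (b - c - d * s * r)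
  have q1 : 0 ≤ C₁ * d * s ^ 2 := by positivity
  have q2 : 0 ≤ C₂ * d * s ^ 2 := by positivity
  have q3 : 0 ≤ C₂ * s ^ 2 := by positivity
  rw [e]
  linarith

theorem chain_cons (K : ℝ) : ∃ C, 0 ≤ C ∧ ∀ δ s A β B, 0 < s → Chain s A β B →
    (∀ k : ℕ, k * s ≤ δ → Bd 4 (A k) K ∧ Bd 4 (β k) K) →
    ∀ j d : ℕ, (j + d : ℕ) * s ≤ δ → ∀ y ∈ Icc (0 : ℝ) 1,
      |A (j + d) y - A j y - d * s * rA (A j) (B j) y| ≤ C * (d * s) ^ 2 ∧
      |β (j + d) y - β j y - d * s * rB (A j) (β j) (B j) y| ≤ C * (d * s) ^ 2 := by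
  obtain ⟨C₁, c1, h1⟩ := step_cons K
  obtain ⟨C₂, c2, h2⟩ := rhs_lip K
  obtain ⟨C₃, c3, h3⟩ := chain_lip 2 K
  refine ⟨C₁ + C₂ * C₃, by positivity, fun δ s A β B hs Ch hb j d => ?_⟩
  induction d with
  | zero => intro _ y _; simp
  | succ d ih =>
    intro h y hy
    have h' : ((j + d : ℕ) : ℝ) * s ≤ δ := ChainLip_le hs (by omega) h
    have hj : (j : ℝ) * s ≤ δ := ChainLip_le hs (by omega) h
    obtain ⟨i1, i2⟩ := ih h' y hy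
    obtain ⟨s1, s2⟩ := h1 s _ _ _ _ _ hs (Ch (j + d)).1 (Ch (j + d)).2 (hb _ h').1 (hb _ h').2
      (hb _ h).1 (hb _ h).2 y hy
    obtain ⟨l1, l2⟩ := h3 δ s A β B hs Ch hb j d h'
    obtain ⟨r1, r2⟩ := h2 _ _ _ _ _ _ _ (Ch (j + d)).1 (Ch j).1 ((hb _ h').1.of_le (by norm_num))
      ((hb _ h').2.of_le (by norm_num)) ((hb _ hj).1.of_le (by norm_num))
      ((hb _ hj).2.of_le (by norm_num)) l1 l2 y hy
    rw [← mul_assoc] at r1 r2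
    rw [Nat.cast_succ]
    exact ⟨ChainLip_num hs (Nat.cast_nonneg d) c1 (mul_nonneg c2 c3) s1 r1 i1,
      ChainLip_num hs (Nat.cast_nonneg d) c1 (mul_nonneg c2 c3) s2 r2 i2⟩

end Vale.Agent.P244.X
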