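import Vale.Agent.P244.X.GBd

/-!
Block X: pointwise maximum principle.
`mp_pt`: interior point: `D g y = 0` (`IsLocalMax.hasDerivAt_eq_zero`) and `D (D g) y ≤ 0`
(if it were positive then `D g > 0` on a right neighbourhood, so `g` increases strictly there);
end points: one sided difference quotients (`hasDerivWithinAt_iff_tendsto_slope`, or
`IsLocalMaxOn.hasFDerivWithinAt_nonpos` with `sub_mem_posTangentConeAt_of_segment_subset`).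
`mp_max`: `g = D^[i] u`, `iter_succ'`; at `y = 0` the drift is `12 w + 4 i w ≥ 0`, at `y = 1` it
is `-12 w - 4 i w ≤ 0` (`D_mul`, `D_w`).  `mp_min`: apply `mp_pt` to `-g`.
-/

namespace Vale.Agent.P244.X

open scoped ContDiff Topology
open Set Filter

theorem mp_right {g : ℝ → ℝ} {y : ℝ} (hg : S g) (hy : y ∈ Ico (0 : ℝ) 1)
    (hmax : ∀ z ∈ Icc (0 : ℝ) 1, g z ≤ g y) : D g y ≤ 0 := by
  have hm : Icc (0 : ℝ) 1 ∈ 𝓝[>] y := Icc_mem_nhdsGT_of_mem hy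
  have h := (hasDerivWithinAt_iff_tendsto_slope' (s := Ioi y) (lt_irrefl y)).1
    ((hg.hasD (Ico_subset_Icc_self hy)).mono_of_mem_nhdsWithin hm)
  refine le_of_tendsto h ?_
  filter_upwards [hm, self_mem_nhdsWithin] with z hz hz'
  rw [slope_def_field]
  exact div_nonpos_of_nonpos_of_nonneg (sub_nonpos.2 (hmax z hz)) (sub_nonneg.2 (le_of_lt hz'))

theorem mp_left {g : ℝ → ℝ} {y : ℝ} (hg : S g) (hy : y ∈ Ioc (0 : ℝ) 1)
    (hmax : ∀ z ∈ Icc (0 : ℝ) 1, g z ≤ g y) : 0 ≤ D g y := by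
  have hm : Icc (0 : ℝ) 1 ∈ 𝓝[<] y := Icc_mem_nhdsLT_of_mem hy
  have h := (hasDerivWithinAt_iff_tendsto_slope' (s := Iio y) (lt_irrefl y)).1
    ((hg.hasD (Ioc_subset_Icc_self hy)).mono_of_mem_nhdsWithin hm)
  refine ge_of_tendsto h ?_
  filter_upwards [hm, self_mem_nhdsWithin] with z hz hz'
  rw [slope_def_field]
  exact div_nonneg_of_nonpos (sub_nonpos.2 (hmax z hz)) (sub_nonpos.2 (le_of_lt hz'))

theorem mp_two {g : ℝ → ℝ} {y : ℝ} (hg : S g) (hy : y ∈ Ico (0 : ℝ) 1)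
    (hmax : ∀ z ∈ Icc (0 : ℝ) 1, g z ≤ g y) (h0 : D g y = 0) : D (D g) y ≤ 0 := by
  by_contra hc
  have hm : Icc (0 : ℝ) 1 ∈ 𝓝[>] y := Icc_mem_nhdsGT_of_mem hy
  have h := (hasDerivWithinAt_iff_tendsto_slope' (s := Ioi y) (lt_irrefl y)).1
    ((hg.D.hasD (Ico_subset_Icc_self hy)).mono_of_mem_nhdsWithin hm)
  obtain ⟨u, hu, hu'⟩ := mem_nhdsGT_iff_exists_Ioo_subset.1
    (h.eventually (lt_mem_nhds (not_le.1 hc)))
  have h1 : y < min u 1 := lt_min hu hy.2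
  have h2 : Icc y (min u 1) ⊆ Icc 0 1 := Icc_subset_Icc hy.1 (min_le_right _ _)
  obtain ⟨c, hc1, hc2⟩ := exists_hasDerivAt_eq_slope g (D g) h1 (hg.cont.mono h2) fun x hx =>
    hg.hasD' ⟨hy.1.trans_lt hx.1, hx.2.trans_le (min_le_right _ _)⟩
  have h3 : 0 < slope (D g) y c := hu' ⟨hc1.1, hc1.2.trans_le (min_le_left _ _)⟩
  rw [slope_def_field, h0, sub_zero, div_pos_iff_of_pos_right (sub_pos.2 hc1.1), hc2,
    div_pos_iff_of_pos_right (sub_pos.2 h1)] at h3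
  linarith [hmax _ (h2 (right_mem_Icc.2 h1.le))]

theorem mp_pt {g : ℝ → ℝ} {y a b : ℝ} (hg : S g) (hy : y ∈ Icc (0 : ℝ) 1)
    (hmax : ∀ z ∈ Icc (0 : ℝ) 1, g z ≤ g y) (ha : 0 ≤ a) (h0 : y = 0 → a = 0 ∧ 0 ≤ b)
    (h1 : y = 1 → a = 0 ∧ b ≤ 0) : a * D (D g) y + b * D g y ≤ 0 := by
  rcases hy.1.eq_or_lt with e0 | e0
  · obtain ⟨ea, eb⟩ := h0 e0.symm
    rw [ea, zero_mul, zero_add]
    exact mul_nonpos_of_nonneg_of_nonpos eb (mp_right hg ⟨hy.1, e0 ▸ zero_lt_one⟩ hmax)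
  rcases hy.2.eq_or_lt with e1 | e1
  · obtain ⟨ea, eb⟩ := h1 e1
    rw [ea, zero_mul, zero_add]
    exact mul_nonpos_of_nonpos_of_nonneg eb (mp_left hg ⟨e0, hy.2⟩ hmax)
  have h2 : D g y = 0 := le_antisymm (mp_right hg ⟨hy.1, e1⟩ hmax) (mp_left hg ⟨e0, hy.2⟩ hmax)
  rw [h2, mul_zero, add_zero]
  exact mul_nonpos_of_nonneg_of_nonpos ha (mp_two hg ⟨hy.1, e1⟩ hmax h2)

theorem mp_Da2 {A : ℝ → ℝ} {y : ℝ} (hA : S A) (hy : y ∈ Icc (0 : ℝ) 1) :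
    D (a2 A) y = 4 * (1 - 2 * y) * Real.exp (-2 * A y) +
      4 * (y * (1 - y)) * D (fun z => Real.exp (-2 * A z)) y := by
  have h1 : D (fun z : ℝ => 4 * (z * (1 - z))) y = 4 * (1 - 2 * y) := by
    rw [D_cmul S.v 4 hy, D_mul S.id ((S.const 1).sub S.id) hy, D_sub (S.const 1) S.id hy,
      D_const 1 hy, D_id hy]
    ring
  rw [← h1]
  exact D_mul (S.v.cmul 4) hA.w hy

theorem mp_op {A B g : ℝ → ℝ} {y : ℝ} (hA : S A) (hg : S g) (i : ℕ) (hy : y ∈ Icc (0 : ℝ) 1)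
    (hmax : ∀ z ∈ Icc (0 : ℝ) 1, g z ≤ g y) :
    a2 A y * D (D g) y + (a1 A B y + i * D (a2 A) y) * D g y ≤ 0 := by
  have he := Real.exp_pos (-2 * A y)
  have hi : (0 : ℝ) ≤ i * Real.exp (-2 * A y) := by positivity
  refine mp_pt hg hy hmax (mul_nonneg (mul_nonneg (by norm_num)
    (mul_nonneg hy.1 (sub_nonneg.2 hy.2))) he.le) (fun h => ?_) fun h => ?_
  · rw [mp_Da2 hA hy, a2, a1]
    subst h
    exact ⟨by ring, by linarith⟩
  · rw [mp_Da2 hA hy, a2, a1]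
    subst h
    exact ⟨by ring, by linarith⟩

theorem mp_max {A B u : ℝ → ℝ} {y : ℝ} (hA : S A) (hu : S u) (i : ℕ) (hy : y ∈ Icc (0 : ℝ) 1)
    (hmax : ∀ z ∈ Icc (0 : ℝ) 1, D^[i] u z ≤ D^[i] u y) :
    D^[i] (Lop A B u) y ≤ G i (a2 A) (a1 A B) u y := by
  have h := mp_op (B := B) hA (hu.iter i) i hy hmax
  have e : G i (a2 A) (a1 A B) u y = D^[i] (Lop A B u) y - (a2 A y * D^[i + 1 + 1] u y +
    (a1 A B y + i * D (a2 A) y) * D^[i + 1] u y) := rfl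
  rw [e, iter_succ' (i + 1), iter_succ' i]
  linarith

theorem mp_min {A B u : ℝ → ℝ} {y : ℝ} (hA : S A) (hu : S u) (i : ℕ) (hy : y ∈ Icc (0 : ℝ) 1)
    (hmin : ∀ z ∈ Icc (0 : ℝ) 1, D^[i] u y ≤ D^[i] u z) :
    G i (a2 A) (a1 A B) u y ≤ D^[i] (Lop A B u) y := by
  have h := mp_op (B := B) hA (hu.iter i).neg i hy fun z hz => neg_le_neg (hmin z hz)
  have e : G i (a2 A) (a1 A B) u y = D^[i] (Lop A B u) y - (a2 A y * D^[i + 1 + 1] u y +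
    (a1 A B y + i * D (a2 A) y) * D^[i + 1] u y) := rfl
  have h1 : D (fun z => -D^[i] u z) y = -D (D^[i] u) y := iter_neg (hu.iter i) 1 hy
  have h2 : D (D fun z => -D^[i] u z) y = -D (D (D^[i] u)) y := iter_neg (hu.iter i) 2 hy
  rw [h1, h2] at h
  rw [e, iter_succ' (i + 1), iter_succ' i]
  linarith

end Vale.Agent.P244.X
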