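import Vale.Agent.P244.X.Calc

/-!
Block X: basic facts on solutions.
`sol_hasT`: induction on `i` with `Sm.hasT_dY`, `Sm.dY_iter`, `dY_iter_slice`, `rhsA_slice`.
`sm_bd`: each `dY^[i] u` is continuous on a compact set (`Sm.dY_iter`, `Sm.cont`).
`sol_congr`: `Sm.congr`, `HasDerivWithinAt.congr`, `D_congr`, `iter_congr` (via `rhsA_slice`).
`sol_shift`: compose with `(t, y) ↦ (t + c, y)`; `HasDerivWithinAt.scomp` or `.comp`.
`sol_glue`: a point `t < t₁` has `Icc 0 t₁ ∈ 𝓝[Icc 0 t₂] t`, a point `t > t₀` has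
`Icc t₀ t₂ ∈ 𝓝[Icc 0 t₂] t`; `ContDiffWithinAt.mono_of_mem_nhdsWithin`,
`HasDerivWithinAt.mono_of_mem_nhdsWithin`.
-/

namespace Vale.Agent.P244.X

open scoped ContDiff Topology
open Set Filter

variable {I : Set ℝ} {A β B : Fn}

theorem sol_tri (h : IsSol I A β B) {t : ℝ} (ht : t ∈ I) : Tri (A t) (β t) (B t) :=
  ⟨h.smA.slice ht, h.smβ.slice ht, h.smB.slice ht, h.eqB t ht, h.one t ht⟩

theorem solB_iter (hI : TI I) {u F : Fn} (h : Sm I u)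
    (e : ∀ t ∈ I, ∀ y ∈ Icc (0 : ℝ) 1, HasDerivWithinAt (fun s => u s y) (F t y) I t) (i : ℕ) :
    ∀ t ∈ I, ∀ y ∈ Icc (0 : ℝ) 1,
      HasDerivWithinAt (fun s => dY^[i] u s y) (dY^[i] F t y) I t := by
  induction i with
  | zero => exact e
  | succ i ih =>
    rw [Function.iterate_succ_apply', Function.iterate_succ_apply']
    exact (h.dY_iter hI i).hasT_dY hI ih

theorem sol_hasT (hI : TI I) (h : IsSol I A β B) (i : ℕ) : ∀ t ∈ I, ∀ y ∈ Icc (0 : ℝ) 1,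
    HasDerivWithinAt (fun s => D^[i] (A s) y) (D^[i] (rA (A t) (B t)) y) I t ∧
    HasDerivWithinAt (fun s => D^[i] (β s) y) (D^[i] (rB (A t) (β t) (B t)) y) I t := by
  intro t ht y hy
  have h1 := solB_iter hI h.smA h.eqA i t ht y hy
  have h2 := solB_iter hI h.smβ h.eqβ i t ht y hy
  simp only [dY_iter_slice, rhsA_slice, rhsB_slice] at h1 h2
  exact ⟨h1, h2⟩

theorem sm_cont (hI : TI I) {u : Fn} (h : Sm I u) (i : ℕ) :
    ContinuousOn (fun p : ℝ × ℝ => D^[i] (u p.1) p.2) (I ×ˢ Icc 0 1) := by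
  have h1 := (h.dY_iter hI i).cont
  simp only [dY_iter_slice] at h1
  exact h1

theorem sm_bd {a b : ℝ} (hab : a < b) {u : Fn} (h : Sm (Icc a b) u) (m : ℕ) :
    ∃ K, ∀ t ∈ Icc a b, Bd m (u t) K := by
  have h1 : ∀ i : ℕ, ∃ K, ∀ p ∈ Icc a b ×ˢ Icc (0 : ℝ) 1, ‖D^[i] (u p.1) p.2‖ ≤ K := fun i =>
    (isCompact_Icc.prod isCompact_Icc).exists_bound_of_continuousOn (sm_cont (ti_Icc hab) h i)
  choose K hK using h1
  refine ⟨∑ i ∈ Finset.range (m + 1), |K i|, fun t ht i hi y hy => ?_⟩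
  have h2 : |D^[i] (u t) y| ≤ K i := hK i (t, y) ⟨ht, hy⟩
  refine (h2.trans (le_abs_self _)).trans ?_
  exact Finset.single_le_sum (f := fun i => |K i|) (fun j _ => abs_nonneg _)
    (Finset.mem_range.2 (Nat.lt_succ_of_le hi))

theorem sol_congr {A' β' B' : Fn} (h : IsSol I A β B)
    (e : ∀ t ∈ I, EqOn (A' t) (A t) (Icc 0 1) ∧ EqOn (β' t) (β t) (Icc 0 1) ∧
      EqOn (B' t) (B t) (Icc 0 1)) : IsSol I A' β' B' := by
  have eA : ∀ t ∈ I, ∀ y ∈ Icc (0 : ℝ) 1, A' t y = A t y := fun t ht y hy => (e t ht).1 hy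
  have eβ : ∀ t ∈ I, ∀ y ∈ Icc (0 : ℝ) 1, β' t y = β t y := fun t ht y hy => (e t ht).2.1 hy
  have eB : ∀ t ∈ I, ∀ y ∈ Icc (0 : ℝ) 1, B' t y = B t y := fun t ht y hy => (e t ht).2.2 hy
  refine ⟨h.smA.congr eA, h.smβ.congr eβ, h.smB.congr eB, fun t ht y hy => ?_,
    fun t ht y hy => ?_, fun t ht y hy => ?_, fun t ht => ?_⟩
  · have h1 : rhsA A' B' t y = rhsA A B t y := by
      have h2 := D_congr (e t ht).1
      simp only [rhsA, DD, dY_slice, eA t ht y hy, eB t ht y hy, h2 hy, D_congr h2 hy]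
    rw [h1]
    exact (h.eqA t ht y hy).congr_of_mem (fun s hs => eA s hs y hy) ht
  · have h1 : rhsB A' β' B' t y = rhsB A β B t y := by
      have h2 := D_congr (e t ht).2.1
      simp only [rhsB, DD, dY_slice, eA t ht y hy, eβ t ht y hy, eB t ht y hy, h2 hy,
        D_congr h2 hy]
    rw [h1]
    exact (h.eqβ t ht y hy).congr_of_mem (fun s hs => eβ s hs y hy) ht
  · have h1 := h.eqB t ht y hy
    simp only [dY_slice] at h1 ⊢
    rw [D_congr (e t ht).1 hy, D_congr (e t ht).2.1 hy, D_congr (e t ht).2.2 hy, eA t ht y hy, h1]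
  · rw [eB t ht 1 ⟨zero_le_one, le_rfl⟩, h.one t ht]

theorem sol_shift {a b : ℝ} (c : ℝ) (h : IsSol (Icc a b) A β B) :
    IsSol (Icc (a - c) (b - c)) (fun t => A (t + c)) (fun t => β (t + c))
      (fun t => B (t + c)) := by
  have hm : ∀ t ∈ Icc (a - c) (b - c), t + c ∈ Icc a b := fun t ht =>
    ⟨by linarith [ht.1], by linarith [ht.2]⟩
  have hs : ∀ u : Fn, Sm (Icc a b) u → Sm (Icc (a - c) (b - c)) fun t => u (t + c) := by
    intro u hu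
    exact ContDiffOn.comp (f := fun p : ℝ × ℝ => ((p.1 + c, p.2) : ℝ × ℝ)) hu
      ((contDiff_fst.add contDiff_const).prodMk contDiff_snd).contDiffOn
      fun p hp => ⟨hm p.1 hp.1, hp.2⟩
  have hd : ∀ (f : ℝ → ℝ) (d t : ℝ), HasDerivWithinAt f d (Icc a b) (t + c) →
      HasDerivWithinAt (fun s => f (s + c)) d (Icc (a - c) (b - c)) t := by
    intro f d t hf
    have h1 := hf.comp t (h := fun s => s + c)
      ((hasDerivAt_id t).add_const c).hasDerivWithinAt (s := Icc (a - c) (b - c)) hm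
    rw [mul_one] at h1
    exact h1
  exact ⟨hs A h.smA, hs β h.smβ, hs B h.smB,
    fun t ht y hy => hd (fun s => A s y) _ t (h.eqA _ (hm t ht) y hy),
    fun t ht y hy => hd (fun s => β s y) _ t (h.eqβ _ (hm t ht) y hy),
    fun t ht y hy => h.eqB _ (hm t ht) y hy, fun t ht => h.one _ (hm t ht)⟩

theorem sol_glue {t₀ t₁ t₂ : ℝ} (h01 : t₀ < t₁) (h : IsSol (Icc 0 t₁) A β B)
    (h' : IsSol (Icc t₀ t₂) A β B) : IsSol (Icc 0 t₂) A β B := by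
  have key : ∀ t ∈ Icc 0 t₂, (t ∈ Icc 0 t₁ ∧ Icc 0 t₁ ∈ 𝓝[Icc 0 t₂] t) ∨
      (t ∈ Icc t₀ t₂ ∧ Icc t₀ t₂ ∈ 𝓝[Icc 0 t₂] t) := by
    intro t ht
    rcases lt_or_ge t t₁ with h1 | h1
    · refine Or.inl ⟨⟨ht.1, h1.le⟩, ?_⟩
      filter_upwards [self_mem_nhdsWithin, mem_nhdsWithin_of_mem_nhds (Iio_mem_nhds h1)]
        with s hs hs'
      exact ⟨hs.1, le_of_lt hs'⟩
    · have h2 : t₀ < t := h01.trans_le h1
      refine Or.inr ⟨⟨h2.le, ht.2⟩, ?_⟩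
      filter_upwards [self_mem_nhdsWithin, mem_nhdsWithin_of_mem_nhds (Ioi_mem_nhds h2)]
        with s hs hs'
      exact ⟨le_of_lt hs', hs.2⟩
  have hp : ∀ (J : Set ℝ) (p : ℝ × ℝ), J ∈ 𝓝[Icc 0 t₂] p.1 →
      J ×ˢ Icc (0 : ℝ) 1 ∈ 𝓝[Icc 0 t₂ ×ˢ Icc (0 : ℝ) 1] p := by
    rintro J ⟨t, y⟩ hJ
    rw [nhdsWithin_prod_eq]
    exact prod_mem_prod hJ self_mem_nhdsWithin
  have hs : ∀ u : Fn, Sm (Icc 0 t₁) u → Sm (Icc t₀ t₂) u → Sm (Icc 0 t₂) u := by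
    intro u h1 h2 p hp'
    rcases key p.1 hp'.1 with ⟨k1, k2⟩ | ⟨k1, k2⟩
    · exact (h1 p ⟨k1, hp'.2⟩).mono_of_mem_nhdsWithin (hp _ p k2)
    · exact (h2 p ⟨k1, hp'.2⟩).mono_of_mem_nhdsWithin (hp _ p k2)
  refine ⟨hs A h.smA h'.smA, hs β h.smβ h'.smβ, hs B h.smB h'.smB, fun t ht y hy => ?_,
    fun t ht y hy => ?_, fun t ht y hy => ?_, fun t ht => ?_⟩
  · rcases key t ht with ⟨k1, k2⟩ | ⟨k1, k2⟩
    · exact (h.eqA t k1 y hy).mono_of_mem_nhdsWithin k2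
    · exact (h'.eqA t k1 y hy).mono_of_mem_nhdsWithin k2
  · rcases key t ht with ⟨k1, k2⟩ | ⟨k1, k2⟩
    · exact (h.eqβ t k1 y hy).mono_of_mem_nhdsWithin k2
    · exact (h'.eqβ t k1 y hy).mono_of_mem_nhdsWithin k2
  · rcases key t ht with ⟨k1, _⟩ | ⟨k1, _⟩
    · exact h.eqB t k1 y hy
    · exact h'.eqB t k1 y hy
  · rcases key t ht with ⟨k1, _⟩ | ⟨k1, _⟩
    · exact h.one t k1
    · exact h'.one t k1

end Vale.Agent.P244.X
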