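import Vale.Agent.P244.X.Lip
import Vale.Agent.P244.X.MP
import Vale.Agent.P244.X.Barrier
import Vale.Agent.P244.X.SolB

/-!
Block X: uniqueness.  `K` from `sm_bd`; `barrier` with `ι = Bool`, `u true = A - A'`,
`u false = β - β'`, `E = M₀ = 0`, `C = 2 C(coef_lip K)`.  At an extremum of `d = A t - A' t`:
`rA A B - rA A' B' = Lop A' B' d + (Lop A B A - Lop A' B' A) + (fA - fA')` (`Lop_sub`), and
`mp_max`, `mp_min` with `i = 0`, `G_zero`.  `B` at the end from `B_lip` with `M = 0`.
-/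

namespace Vale.Agent.P244.X

open scoped ContDiff Topology
open Set Filter

theorem uniq_aux {A B A' B' u u' : ℝ → ℝ} {y M c p : ℝ} (hA' : S A') (hu : S u) (hu' : S u')
    (hy : y ∈ Icc (0 : ℝ) 1) (hb : ∀ z ∈ Icc (0 : ℝ) 1, |u z - u' z| ≤ M)
    (h1 : |Lop A B u y - Lop A' B' u y| ≤ c) (h2 : |p| ≤ c) :
    (u y - u' y = M → Lop A B u y - Lop A' B' u' y + p ≤ 2 * c) ∧
      (u y - u' y = -M → -(2 * c) ≤ Lop A B u y - Lop A' B' u' y + p) := by
  have e := Lop_sub (A := A') (B := B') hu hu' hy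
  rw [abs_le] at h1 h2
  constructor
  · intro hM
    have a := mp_max (B := B') hA' (hu.sub hu') 0 hy fun z hz => by
      have := (abs_le.1 (hb z hz)).2
      simp only [Function.iterate_zero, _root_.id]
      linarith
    rw [G_zero] at a
    simp only [Function.iterate_zero, _root_.id] at a
    linarith
  · intro hM
    have a := mp_min (B := B') hA' (hu.sub hu') 0 hy fun z hz => by
      have := (abs_le.1 (hb z hz)).1
      simp only [Function.iterate_zero, _root_.id]
      linarith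
    rw [G_zero] at a
    simp only [Function.iterate_zero, _root_.id] at a
    linarith

theorem x_uniq {t₁ : ℝ} (ht : 0 < t₁) {A β B A' β' B' : Fn} (h : IsSol (Icc 0 t₁) A β B)
    (h' : IsSol (Icc 0 t₁) A' β' B') (hA : EqOn (A 0) (A' 0) (Icc 0 1))
    (hβ : EqOn (β 0) (β' 0) (Icc 0 1)) :
    ∀ t ∈ Icc 0 t₁, EqOn (A t) (A' t) (Icc 0 1) ∧ EqOn (β t) (β' t) (Icc 0 1) ∧
      EqOn (B t) (B' t) (Icc 0 1) := by
  obtain ⟨K1, k1⟩ := sm_bd ht h.smA 2
  obtain ⟨K2, k2⟩ := sm_bd ht h.smβ 2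
  obtain ⟨K3, k3⟩ := sm_bd ht h'.smA 2
  obtain ⟨K4, k4⟩ := sm_bd ht h'.smβ 2
  set K := max (max K1 K2) (max K3 K4)
  have b1 : ∀ t ∈ Icc 0 t₁, Bd 2 (A t) K := fun t ht =>
    (k1 t ht).mono ((le_max_left _ _).trans (le_max_left _ _))
  have b2 : ∀ t ∈ Icc 0 t₁, Bd 2 (β t) K := fun t ht =>
    (k2 t ht).mono ((le_max_right _ _).trans (le_max_left _ _))
  have b3 : ∀ t ∈ Icc 0 t₁, Bd 2 (A' t) K := fun t ht =>
    (k3 t ht).mono ((le_max_left _ _).trans (le_max_right _ _))
  have b4 : ∀ t ∈ Icc 0 t₁, Bd 2 (β' t) K := fun t ht =>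
    (k4 t ht).mono ((le_max_right _ _).trans (le_max_right _ _))
  obtain ⟨C, hC, lip⟩ := coef_lip K
  have key := barrier (ι := Bool) (t₁ := t₁) (C := 2 * C) (E := 0) (M₀ := 0) (by positivity) le_rfl
    (fun j => match j with
      | true => fun t y => A t y - A' t y
      | false => fun t y => β t y - β' t y)
    (fun j => match j with
      | true => fun t y => rhsA A B t y - rhsA A' B' t y
      | false => fun t y => rhsB A β B t y - rhsB A' β' B' t y)
    (fun j => match j with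
      | true => h.smA.cont.sub h'.smA.cont
      | false => h.smβ.cont.sub h'.smβ.cont)
    (fun j t ht y hy => match j with
      | true => (h.eqA t ht y hy).sub (h'.eqA t ht y hy)
      | false => (h.eqβ t ht y hy).sub (h'.eqβ t ht y hy))
    (fun j y hy => match j with
      | true => by simp [hA hy]
      | false => by simp [hβ hy])
    (fun t ht M _ hM j y hy => by
      have T := sol_tri h ht
      have T' := sol_tri h' ht
      obtain ⟨l1, l2, l3⟩ := lip _ _ _ _ _ _ M T T' (b1 t ht) (b2 t ht) (b3 t ht) (b4 t ht)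
        (hM true) (hM false) y hy
      cases j
      · have a := uniq_aux T'.sA T.sβ T'.sβ hy (hM false) (l3 _ (b2 t ht)) l2
        simp only [rhsB_slice, rB]
        exact ⟨fun e => by linarith [a.1 e], fun e => by linarith [a.2 e]⟩
      · have a := uniq_aux T'.sA T.sA T'.sA hy (hM true) (l3 _ (b1 t ht)) l1
        simp only [rhsA_slice, rA]
        exact ⟨fun e => by linarith [a.1 e], fun e => by linarith [a.2 e]⟩)
  intro t ht
  have eA : ∀ y ∈ Icc (0 : ℝ) 1, |A t y - A' t y| ≤ 0 := fun y hy => by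
    simpa using key true t ht y hy
  have eβ : ∀ y ∈ Icc (0 : ℝ) 1, |β t y - β' t y| ≤ 0 := fun y hy => by
    simpa using key false t ht y hy
  obtain ⟨C', -, lipB⟩ := B_lip K
  refine ⟨fun y hy => sub_eq_zero.1 (abs_nonpos_iff.1 (eA y hy)),
    fun y hy => sub_eq_zero.1 (abs_nonpos_iff.1 (eβ y hy)), fun y hy => ?_⟩
  have := lipB _ _ _ _ _ _ 0 (sol_tri h ht) (sol_tri h' ht) (b1 t ht) (b2 t ht) (b3 t ht) (b4 t ht)
    eA eβ y hy
  rw [mul_zero] at this
  exact sub_eq_zero.1 (abs_nonpos_iff.1 this)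

end Vale.Agent.P244.X
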