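import Vale.Agent.P244.X.Start
import Vale.Agent.P244.X.Reg
import Vale.Agent.P244.X.Uniq

/-!
Block X: continuation.  `N₂` from `x_reg 2 N N T`, `δ₀`, `N₃` from `x_start N₂`, `δ = δ₀ / 2`,
`N' = max N N₃`, `t₀ = max 0 (t₁ - δ₀ / 2) < t₁`.  `X` solves on `[0, δ₀]` with data at `t₀`;
`sol_shift t₀` of `IsSol.mono` and `x_uniq` on `[0, t₁ - t₀]` give `X (t - t₀) = A t` on
`[t₀, t₁]`.  Glue `A' t = if t ≤ t₁ then A t else X (t - t₀)`: `sol_congr` on `[0, t₁]`,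
`sol_congr` of `sol_shift (-t₀)` on `[t₀, t₁ + δ]` (`IsSol.mono`), `sol_glue`; `Bd.nb`.
-/

namespace Vale.Agent.P244.X

open scoped ContDiff Topology
open Set Filter

theorem x_extend (N T : ℝ) : ∃ δ, 0 < δ ∧ ∃ N', ∀ t₁ ∈ Ioc 0 T, ∀ A β B : Fn,
    IsSol (Icc 0 t₁) A β B → (∀ t ∈ Icc 0 t₁, Nb1 (A t) N ∧ Nb1 (β t) N) →
    Bd 2 (A 0) N → Bd 2 (β 0) N →
    ∃ A' β' B' : Fn, IsSol (Icc 0 (t₁ + δ)) A' β' B' ∧
      (∀ t ∈ Icc 0 t₁, EqOn (A' t) (A t) (Icc 0 1) ∧ EqOn (β' t) (β t) (Icc 0 1)) ∧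
      ∀ t ∈ Icc 0 (t₁ + δ), Nb1 (A' t) N' ∧ Nb1 (β' t) N' := by
  classical
  obtain ⟨N₂, hN₂⟩ := x_reg 2 N N T
  obtain ⟨δ₀, hδ₀, N₃, hst⟩ := x_start N₂
  refine ⟨δ₀ / 2, by positivity, max N N₃, ?_⟩
  intro t₁ ht₁ A β B h hN hA0 hβ0
  obtain ⟨t₀, h0, h1, h2⟩ : ∃ t₀ : ℝ, 0 ≤ t₀ ∧ t₀ < t₁ ∧ t₁ - δ₀ / 2 ≤ t₀ :=
    ⟨max 0 (t₁ - δ₀ / 2), le_max_left _ _, max_lt ht₁.1 (by linarith), le_max_right _ _⟩
  have hm : t₀ ∈ Icc 0 t₁ := ⟨h0, h1.le⟩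
  obtain ⟨hbA, hbβ⟩ := hN₂ t₁ ht₁ A β B h hN hA0 hβ0 t₀ hm
  obtain ⟨X, Y, Z, hX, eX, eY, hb⟩ :=
    hst (A t₀) (β t₀) (h.smA.slice hm) (h.smβ.slice hm) hbA hbβ
  have hs : IsSol (Icc 0 (t₁ - t₀)) (fun t => A (t + t₀)) (fun t => β (t + t₀))
      (fun t => B (t + t₀)) := by
    have := sol_shift t₀ (h.mono (J := Icc t₀ t₁) (Icc_subset_Icc h0 le_rfl))
    rwa [sub_self] at this
  have hle : t₁ - t₀ ≤ δ₀ := by linarith
  have hpos : 0 < t₁ - t₀ := by linarith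
  have hX' : IsSol (Icc 0 (t₁ - t₀)) X Y Z := hX.mono (Icc_subset_Icc le_rfl hle)
  have hu := x_uniq hpos hX' hs (by simpa using eX) (by simpa using eY)
  have hsh : IsSol (Icc t₀ (t₁ + δ₀ / 2)) (fun t => X (t + -t₀)) (fun t => Y (t + -t₀))
      (fun t => Z (t + -t₀)) := by
    refine (sol_shift (-t₀) hX).mono (Icc_subset_Icc ?_ ?_) <;> linarith
  refine ⟨fun t => if t ≤ t₁ then A t else X (t + -t₀),
    fun t => if t ≤ t₁ then β t else Y (t + -t₀),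
    fun t => if t ≤ t₁ then B t else Z (t + -t₀), ?_, ?_, ?_⟩
  · refine sol_glue h1 (sol_congr h ?_) (sol_congr hsh ?_)
    · intro t ht
      simp only [if_pos ht.2]
      exact ⟨fun _ _ => rfl, fun _ _ => rfl, fun _ _ => rfl⟩
    · intro t ht
      by_cases hc : t ≤ t₁
      · simp only [if_pos hc]
        have hmem : t + -t₀ ∈ Icc 0 (t₁ - t₀) := ⟨by linarith [ht.1], by linarith⟩
        have := hu (t + -t₀) hmem
        simp only [neg_add_cancel_right] at this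
        exact ⟨this.1.symm, this.2.1.symm, this.2.2.symm⟩
      · simp only [if_neg hc]
        exact ⟨fun _ _ => rfl, fun _ _ => rfl, fun _ _ => rfl⟩
  · intro t ht
    simp only [if_pos ht.2]
    exact ⟨fun _ _ => rfl, fun _ _ => rfl⟩
  · intro t ht
    by_cases hc : t ≤ t₁
    · simp only [if_pos hc]
      have hle' : N ≤ max N N₃ := le_max_left _ _
      obtain ⟨ha, hb'⟩ := hN t ⟨ht.1, hc⟩
      exact ⟨fun y hy => ⟨(ha y hy).1.trans hle', (ha y hy).2.1.trans hle',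
        (ha y hy).2.2.trans hle'⟩, fun y hy => ⟨(hb' y hy).1.trans hle',
        (hb' y hy).2.1.trans hle', (hb' y hy).2.2.trans hle'⟩⟩
    · simp only [if_neg hc]
      have hc' : t₁ < t := not_le.mp hc
      have hmem : t + -t₀ ∈ Icc 0 δ₀ := ⟨by linarith, by linarith [ht.2]⟩
      obtain ⟨ha, hb'⟩ := hb _ hmem
      exact ⟨(ha.mono (le_max_right _ _)).nb, (hb'.mono (le_max_right _ _)).nb⟩

end Vale.Agent.P244.X
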