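import Vale.Agent.P244.X.ChainLip

/-!
Block X: piecewise constant interpolation `t ↦ A ⌊t / s⌋₊`.
For `t ≥ 0`, `k = ⌊t / s⌋₊` has `k s ≤ t < (k + 1) s` (`Nat.floor_le`, `Nat.lt_floor_add_one`),
and `⌊·⌋₊` is monotone, so for `r ≤ t`: `k = j + d`, `|d s - (t - r)| ≤ s`.
`interp_lip`: `chain_lip`, `Bd.symm` for `t ≤ r`.  `interp_cons`: `chain_cons`, `rhs_bd 0`,
`(d s)² ≤ 2 (t - r)² + 2 s²`, `s² ≤ s`.
-/

namespace Vale.Agent.P244.X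

open scoped ContDiff Topology
open Set Filter

theorem interp_le {s t : ℝ} (hs : 0 < s) (ht : 0 ≤ t) : ⌊t / s⌋₊ * s ≤ t :=
  (le_div_iff₀ hs).1 (Nat.floor_le (by positivity))

theorem interp_idx {s r t : ℝ} (hs : 0 < s) (hr : 0 ≤ r) (h : r ≤ t) :
    ∃ d : ℕ, ⌊t / s⌋₊ = ⌊r / s⌋₊ + d ∧ |d * s - (t - r)| ≤ s := by
  obtain ⟨d, hd⟩ := Nat.exists_eq_add_of_le
    (Nat.floor_mono (div_le_div_of_nonneg_right h hs.le) : ⌊r / s⌋₊ ≤ ⌊t / s⌋₊)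
  have a1 := interp_le hs hr
  have a2 := interp_le hs (hr.trans h)
  have a3 := (div_lt_iff₀ hs).1 (Nat.lt_floor_add_one (r / s))
  have a4 := (div_lt_iff₀ hs).1 (Nat.lt_floor_add_one (t / s))
  refine ⟨d, hd, ?_⟩
  rw [hd, Nat.cast_add] at a2 a4
  rw [abs_le]
  constructor <;> linarith

theorem interp_lip (m : ℕ) (K : ℝ) : ∃ C, 0 ≤ C ∧ ∀ δ s A β B, 0 < s → Chain s A β B →
    (∀ k : ℕ, k * s ≤ δ → Bd (m + 2) (A k) K ∧ Bd (m + 2) (β k) K) →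
    ∀ t ∈ Icc 0 δ, ∀ r ∈ Icc 0 δ,
      Bd m (fun y => A ⌊t / s⌋₊ y - A ⌊r / s⌋₊ y) (C * (|t - r| + s)) ∧
      Bd m (fun y => β ⌊t / s⌋₊ y - β ⌊r / s⌋₊ y) (C * (|t - r| + s)) := by
  obtain ⟨C, hC, H⟩ := chain_lip m K
  refine ⟨C, hC, fun δ s A β B hs hc hb => ?_⟩
  have key : ∀ t ∈ Icc 0 δ, ∀ r ∈ Icc 0 δ, r ≤ t →
      Bd m (fun y => A ⌊t / s⌋₊ y - A ⌊r / s⌋₊ y) (C * (|t - r| + s)) ∧
      Bd m (fun y => β ⌊t / s⌋₊ y - β ⌊r / s⌋₊ y) (C * (|t - r| + s)) := fun t ht r hr h => by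
    obtain ⟨d, hd, e⟩ := interp_idx hs hr.1 h
    have a := H δ s A β B hs hc hb ⌊r / s⌋₊ d (hd ▸ (interp_le hs ht.1).trans ht.2)
    have b : C * (d * s) ≤ C * (|t - r| + s) :=
      mul_le_mul_of_nonneg_left (by linarith [(abs_le.1 e).2, le_abs_self (t - r)]) hC
    rw [hd]
    exact ⟨a.1.mono b, a.2.mono b⟩
  intro t ht r hr
  rcases le_total r t with h | h
  · exact key t ht r hr h
  · rw [abs_sub_comm]
    exact ⟨(key r hr t ht h).1.symm (hc _).1.sA (hc _).1.sA,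
      (key r hr t ht h).2.symm (hc _).1.sβ (hc _).1.sβ⟩

theorem interp_cons (K : ℝ) : ∃ C, 0 ≤ C ∧ ∀ δ s A β B, 0 < s → s ≤ 1 → Chain s A β B →
    (∀ k : ℕ, k * s ≤ δ → Bd 4 (A k) K ∧ Bd 4 (β k) K) →
    ∀ t ∈ Icc 0 δ, ∀ r ∈ Icc 0 δ, r ≤ t → ∀ y ∈ Icc (0 : ℝ) 1,
      |A ⌊t / s⌋₊ y - A ⌊r / s⌋₊ y - (t - r) * rA (A ⌊r / s⌋₊) (B ⌊r / s⌋₊) y| ≤
        C * ((t - r) ^ 2 + s) ∧
      |β ⌊t / s⌋₊ y - β ⌊r / s⌋₊ y - (t - r) * rB (A ⌊r / s⌋₊) (β ⌊r / s⌋₊) (B ⌊r / s⌋₊) y| ≤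
        C * ((t - r) ^ 2 + s) := by
  obtain ⟨C, hC, H⟩ := chain_cons K
  obtain ⟨M, hM, G⟩ := rhs_bd 0 K
  refine ⟨2 * C + M, by positivity, fun δ s A β B hs h1 hc hb t ht r hr h y hy => ?_⟩
  obtain ⟨d, hd, e⟩ := interp_idx hs hr.1 h
  have a := H δ s A β B hs hc hb ⌊r / s⌋₊ d (hd ▸ (interp_le hs ht.1).trans ht.2) y hy
  have b := hb _ ((interp_le hs hr.1).trans hr.2)
  have c := G _ _ _ (hc _).1 (b.1.of_le (by norm_num)) (b.2.of_le (by norm_num))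
  have key : ∀ x w : ℝ, |x - d * s * w| ≤ C * (d * s) ^ 2 → |w| ≤ M →
      |x - (t - r) * w| ≤ (2 * C + M) * ((t - r) ^ 2 + s) := fun x w hx hw => by
    have k1 : (d * s) ^ 2 ≤ 2 * ((t - r) ^ 2 + s) := by
      have := pow_le_pow_left₀ (abs_nonneg _) e 2
      rw [sq_abs] at this
      nlinarith [sq_nonneg (d * s - 2 * (t - r))]
    have k2 := mul_le_mul e hw (abs_nonneg _) hs.le
    have k3 := abs_add_le (x - d * s * w) ((d * s - (t - r)) * w)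
    rw [abs_mul, show x - d * s * w + (d * s - (t - r)) * w = x - (t - r) * w by ring] at k3
    nlinarith [mul_le_mul_of_nonneg_left k1 hC, mul_nonneg hM (sq_nonneg (t - r))]
  rw [hd]
  exact ⟨key _ _ a.1 (c.1.zero hy), key _ _ a.2 (c.2.zero hy)⟩

end Vale.Agent.P244.X
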