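import Vale.Agent.P244.X.Calc

/-!
Block X: differentiating an evolution equation in `y` with only continuity in `(t, y)`.
Fix `(t, y)`, `c = D (F t) y`, `ε > 0`; on a box `|D (F r) z - c| ≤ ε`.  For `z` in the box,
`r ↦ u r z - u r y - r (z - y) c` has derivative `F r z - F r y - (z - y) c`, of size at most
`ε |z - y|` (mean value inequality in `y`), so (mean value inequality in `r` on the convex set
`I ∩ ball t η`) `|u s z - u s y - (u t z - u t y) - (s - t) (z - y) c| ≤ ε |z - y| |s - t|`.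
Divide by `z - y`, let `z → y` within `[0, 1] \ {y}` (`hasDerivWithinAt_iff_tendsto_slope`,
`le_of_tendsto`, `NeBot` from `uJ` or `accPt`), get `|D (u s) y - D (u t) y - (s - t) c| ≤ ε |s - t|`.
`schwarz_iter`: induction on `m` with `iter_succ'`.
-/

namespace Vale.Agent.P244.X

open scoped ContDiff Topology
open Set Filter

theorem schwarz_lip {g : ℝ → ℝ} {y d η C : ℝ} (hy : y ∈ Icc (0 : ℝ) 1) (hη : 0 < η)
    (hd : HasDerivWithinAt g d (Icc 0 1) y)
    (h : ∀ z ∈ Icc (0 : ℝ) 1 ∩ Metric.ball y η, ‖g z - g y‖ ≤ C * ‖z - y‖) : ‖d‖ ≤ C := by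
  have := accPt_principal_iff_nhdsWithin.1 (uJ y hy).accPt
  refine le_of_tendsto (hasDerivWithinAt_iff_tendsto_slope.1 hd).norm ?_
  filter_upwards [inter_mem_nhdsWithin (Icc (0 : ℝ) 1 \ {y}) (Metric.ball_mem_nhds y hη)] with z hz
  have h0 : 0 < ‖z - y‖ := norm_pos_iff.2 (sub_ne_zero.2 hz.1.2)
  rw [slope_def_field, norm_div, div_le_iff₀ h0]
  exact h z ⟨hz.1.1, hz.2⟩

theorem schwarz {I : Set ℝ} (hI : Convex ℝ I) {u F : Fn} (hu : ∀ t ∈ I, S (u t))
    (hF : ∀ t ∈ I, S (F t))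
    (hc : ContinuousOn (fun p : ℝ × ℝ => D (F p.1) p.2) (I ×ˢ Icc 0 1))
    (e : ∀ t ∈ I, ∀ y ∈ Icc (0 : ℝ) 1, HasDerivWithinAt (fun s => u s y) (F t y) I t) :
    ∀ t ∈ I, ∀ y ∈ Icc (0 : ℝ) 1, HasDerivWithinAt (fun s => D (u s) y) (D (F t) y) I t := by
  intro t ht y hy
  rw [hasDerivWithinAt_iff_isLittleO, Asymptotics.isLittleO_iff]
  intro ε hε
  obtain ⟨η, hη, hb⟩ := Metric.continuousWithinAt_iff.1 (hc (t, y) ⟨ht, hy⟩) ε hε
  filter_upwards [inter_mem_nhdsWithin I (Metric.ball_mem_nhds t hη)] with s hs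
  refine schwarz_lip (g := fun z => u s z - u t z - (s - t) * (D (F t) y * z)) hy hη
    ((((hu s hs.1).hasD hy).fun_sub ((hu t ht).hasD hy)).fun_sub
      ((((hasDerivWithinAt_id y _).const_mul (D (F t) y)).const_mul (s - t)).congr_deriv
        (by simp))) fun z hz => ?_
  have h1 : ∀ r ∈ I ∩ Metric.ball t η,
      ‖F r z - D (F t) y * z - (F r y - D (F t) y * y)‖ ≤ ε * ‖z - y‖ := fun r hr =>
    ((convex_Icc (0 : ℝ) 1).inter (convex_ball y η)).norm_image_sub_le_of_norm_hasDerivWithin_le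
      (f := fun x => F r x - D (F t) y * x) (f' := fun x => D (F r) x - D (F t) y * 1)
      (fun x hx => (((hF r hr.1).hasD hx.1).fun_sub
        ((hasDerivWithinAt_id x _).const_mul (D (F t) y))).mono inter_subset_left)
      (fun x hx => by
        rw [mul_one, ← dist_eq_norm]
        exact (hb (x := (r, x)) ⟨hr.1, hx.1⟩ (max_lt hr.2 hx.2)).le)
      ⟨hy, Metric.mem_ball_self hη⟩ hz
  have h2 := (hI.inter (convex_ball t η)).norm_image_sub_le_of_norm_hasDerivWithin_le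
    (f := fun r => u r z - u r y - (D (F t) y * z - D (F t) y * y) * r)
    (f' := fun r => F r z - D (F t) y * z - (F r y - D (F t) y * y))
    (fun r hr => (((((e r hr.1 z hz.1).fun_sub (e r hr.1 y hy)).fun_sub
      ((hasDerivWithinAt_id r _).const_mul (D (F t) y * z - D (F t) y * y)))).mono
        inter_subset_left).congr_deriv (by ring)) h1 ⟨ht, Metric.mem_ball_self hη⟩ hs
  refine le_of_eq_of_le ?_ (h2.trans_eq (by ring))
  congr 1
  ring

theorem schwarz_iter {I : Set ℝ} (hI : Convex ℝ I) {u F : Fn} (hu : ∀ t ∈ I, S (u t))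
    (hF : ∀ t ∈ I, S (F t))
    (hc : ∀ m, ContinuousOn (fun p : ℝ × ℝ => D^[m] (F p.1) p.2) (I ×ˢ Icc 0 1))
    (e : ∀ t ∈ I, ∀ y ∈ Icc (0 : ℝ) 1, HasDerivWithinAt (fun s => u s y) (F t y) I t) (m : ℕ) :
    ∀ t ∈ I, ∀ y ∈ Icc (0 : ℝ) 1,
      HasDerivWithinAt (fun s => D^[m] (u s) y) (D^[m] (F t) y) I t := by
  induction m with
  | zero => exact e
  | succ m ih =>
    simp only [iter_succ']
    refine schwarz (u := fun s => D^[m] (u s)) (F := fun s => D^[m] (F s)) hI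
      (fun t ht => (hu t ht).iter m) (fun t ht => (hF t ht).iter m) ?_ ih
    simpa only [iter_succ'] using hc (m + 1)

end Vale.Agent.P244.X
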