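import Vale.Agent.P244.X.TwCl
import Vale.Agent.P244.X.Schwarz

/-!
Block X: joint smoothness.  Induction on `k`: `∀ m, Tw I k m A ∧ Tw I k m β`.  `k = 0`:
`contDiffOn_zero`.  Step: `pd_succ` for `p ↦ D^[i] (A p.1) p.2` with time derivative
`D^[i] (rA ..)` (`schwarz_iter`, continuity from `tw_rhs` with `k = 0`; class `C^k` by `tw_rhs`)
and `y`-derivative `D^[i + 1] A` (`S.hasD`, `iter_succ'`).  Then `contDiffOn_infty`, `tw_B`,
`rhsA_slice`, `rhsB_slice`.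
-/

namespace Vale.Agent.P244.X

open scoped ContDiff Topology
open Set Filter

theorem joint_step {I : Set ℝ} (hI : TI I) {u F : Fn} {k : ℕ} (h0 : ∀ m, Tw I 0 m F)
    (hF : ∀ m, Tw I k m F) (hu : ∀ m, Tw I k m u)
    (e : ∀ t ∈ I, ∀ y ∈ Icc (0 : ℝ) 1, HasDerivWithinAt (fun s => u s y) (F t y) I t) (m : ℕ) :
    Tw I (k + 1) m u := by
  refine ⟨(hu 0).1, fun i _ => ?_⟩
  have h := schwarz_iter hI.conv (hu 0).1 (hF 0).1
    (fun j => ((h0 j).2 j le_rfl).continuousOn) e i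
  refine pd_succ hI.conv (convex_Icc 0 1) hI.uniq uJ (fun p hp => h p.1 hp.1 p.2 hp.2)
    (fun p hp => ?_) k ((hF i).2 i le_rfl) ((hu (i + 1)).2 (i + 1) le_rfl)
  rw [iter_succ']
  exact (((hu 0).1 p.1 hp.1).iter i).hasD hp.2

theorem joint {I : Set ℝ} (hI : TI I) {A β B : Fn} (hT : ∀ t ∈ I, Tri (A t) (β t) (B t))
    (cA : ∀ m, ContinuousOn (fun p : ℝ × ℝ => D^[m] (A p.1) p.2) (I ×ˢ Icc 0 1))
    (cβ : ∀ m, ContinuousOn (fun p : ℝ × ℝ => D^[m] (β p.1) p.2) (I ×ˢ Icc 0 1))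
    (eA : ∀ t ∈ I, ∀ y ∈ Icc (0 : ℝ) 1,
      HasDerivWithinAt (fun s => A s y) (rA (A t) (B t) y) I t)
    (eβ : ∀ t ∈ I, ∀ y ∈ Icc (0 : ℝ) 1,
      HasDerivWithinAt (fun s => β s y) (rB (A t) (β t) (B t) y) I t) : IsSol I A β B := by
  have h0 : ∀ m, Tw I 0 m A ∧ Tw I 0 m β := fun m =>
    ⟨⟨fun t ht => (hT t ht).sA, fun i _ => contDiffOn_zero.2 (cA i)⟩,
      ⟨fun t ht => (hT t ht).sβ, fun i _ => contDiffOn_zero.2 (cβ i)⟩⟩
  have hk : ∀ k m, Tw I k m A ∧ Tw I k m β := fun k => by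
    induction k with
    | zero => exact h0
    | succ k ih =>
      exact fun m => ⟨joint_step hI (fun j => (tw_rhs hI hT (h0 _).1 (h0 _).2).1)
        (fun j => (tw_rhs hI hT (ih _).1 (ih _).2).1) (fun j => (ih j).1) eA m,
        joint_step hI (fun j => (tw_rhs hI hT (h0 _).1 (h0 _).2).2)
          (fun j => (tw_rhs hI hT (ih _).1 (ih _).2).2) (fun j => (ih j).2) eβ m⟩
  refine ⟨contDiffOn_infty.2 fun k => (hk k 0).1.2 0 le_rfl,
    contDiffOn_infty.2 fun k => (hk k 0).2.2 0 le_rfl,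
    contDiffOn_infty.2 fun k => (tw_B hI hT (hk k 1).1 (hk k 1).2).2 0 le_rfl,
    fun t ht y hy => ?_, fun t ht y hy => ?_, fun t ht y hy => (hT t ht).eqB y hy,
    fun t ht => (hT t ht).one⟩
  · rw [rhsA_slice]; exact eA t ht y hy
  · rw [rhsB_slice]; exact eβ t ht y hy

end Vale.Agent.P244.X
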