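import Vale.Agent.P244.X.Tower
import Vale.Agent.P244.X.Joint
import Vale.Agent.P244.X.Coef

/-!
Block X: limit of approximate solutions.
For `t ∈ [0, τ]` apply `tower_lim` to `A n t`, `β n t`, `B n t` (bounds for `B` from `coef_bd`),
`choose` (use `0` outside `[0, τ]`, e.g. `∀ t, ∃ g, t ∈ Icc 0 τ → ..`).  `Tri` passes to the
limit pointwise (`tendsto_nhds_unique`), and so do `rA`, `rB` (`lim_rhs`).
`unif_of_lip` for `D^[m] (A n p.1) p.2`: Lipschitz in `y` by `S.lip` with the bound for `m + 1`,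
almost Lipschitz in `t` by `hB` and `iter_sub`.  Continuity of `rA` in `t`: `tw_rhs` with
`k = m = 0`.  `hE` passes to the limit (`le_of_tendsto_of_tendsto`), `taylor_deriv'`, `joint`.
-/

namespace Vale.Agent.P244.X

open scoped ContDiff Topology
open Set Filter

theorem lim_rhs {l : Filter ℕ} [l.NeBot] {A β B : ℕ → ℝ → ℝ} {A' β' B' : ℝ → ℝ}
    (hT : ∀ n, Tri (A n) (β n) (B n)) (sA : S A') (sβ : S β') (sB : S B')
    (tA : ∀ m, ∀ y ∈ Icc (0 : ℝ) 1, Tendsto (fun n => D^[m] (A n) y) l (𝓝 (D^[m] A' y)))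
    (tβ : ∀ m, ∀ y ∈ Icc (0 : ℝ) 1, Tendsto (fun n => D^[m] (β n) y) l (𝓝 (D^[m] β' y)))
    (tB : ∀ m, ∀ y ∈ Icc (0 : ℝ) 1, Tendsto (fun n => D^[m] (B n) y) l (𝓝 (D^[m] B' y))) :
    Tri A' β' B' ∧ ∀ y ∈ Icc (0 : ℝ) 1,
      Tendsto (fun n => rA (A n) (B n) y) l (𝓝 (rA A' B' y)) ∧
      Tendsto (fun n => rB (A n) (β n) (B n) y) l (𝓝 (rB A' β' B' y)) := by
  have w : ∀ y ∈ Icc (0 : ℝ) 1, Tendsto (fun n => Real.exp (-2 * A n y)) l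
      (𝓝 (Real.exp (-2 * A' y))) := fun y hy => ((tA 0 y hy).const_mul (-2)).rexp
  refine ⟨⟨sA, sβ, sB, fun y hy => ?_, ?_⟩, fun y hy => ⟨?_, ?_⟩⟩
  · refine tendsto_nhds_unique (tB 1 y hy) ?_
    refine (((w y hy).const_mul (-2)).mul ((((tA 1 y hy).pow 2).const_mul 4).add
      (((tβ 1 y hy).pow 2).const_mul 5))).congr fun n => ((hT n).eqB y hy).symm
  · refine tendsto_nhds_unique (tB 0 1 ⟨zero_le_one, le_rfl⟩) ?_
    exact tendsto_const_nhds.congr fun n => (hT n).one.symm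
  · exact ((((w y hy).const_mul _).mul (tA 2 y hy)).add ((((w y hy).const_mul _).add
      ((tB 0 y hy).const_mul _)).mul (tA 1 y hy))).add
      (((w y hy).const_mul _).add ((tB 0 y hy).const_mul _))
  · exact ((((w y hy).const_mul _).mul (tβ 2 y hy)).add ((((w y hy).const_mul _).add
      ((tB 0 y hy).const_mul _)).mul (tβ 1 y hy))).add
      (((tβ 0 y hy).const_mul (-2)).rexp.const_mul _)

theorem lim_unif {τ : ℝ} (U : Ultrafilter ℕ) {A : ℕ → Fn} {A' : Fn} {ε : ℕ → ℝ}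
    (hε : Tendsto ε U (𝓝 0)) (hS : ∀ n, ∀ t ∈ Icc 0 τ, S (A n t))
    (hB : ∀ m, ∃ C, ∀ᶠ n in (U : Filter ℕ), ∀ t ∈ Icc 0 τ, Bd m (A n t) C ∧
      ∀ r ∈ Icc 0 τ, Bd m (fun y => A n t y - A n r y) (C * (|t - r| + ε n)))
    (hp : ∀ t ∈ Icc 0 τ, ∀ m, ∀ y ∈ Icc (0 : ℝ) 1,
      Tendsto (fun n => D^[m] (A n t) y) U (𝓝 (D^[m] (A' t) y))) (m : ℕ) :
    TendstoUniformlyOn (fun n (p : ℝ × ℝ) => D^[m] (A n p.1) p.2)
        (fun p => D^[m] (A' p.1) p.2) U (Icc 0 τ ×ˢ Icc 0 1) ∧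
      ContinuousOn (fun p : ℝ × ℝ => D^[m] (A' p.1) p.2) (Icc 0 τ ×ˢ Icc 0 1) := by
  obtain ⟨C, hC⟩ := hB (m + 1)
  refine unif_of_lip (isCompact_Icc.prod isCompact_Icc) (ε := fun n => |ε n|) (C := 2 * C)
    (by simpa using hε.abs) (fun p h => hp p.1 h.1 m p.2 h.2) (hC.mono fun n hn p h q h' => ?_)
  obtain ⟨b1, b2⟩ := hn p.1 h.1
  have h0 := b1.nonneg
  have h1 := ((hS n p.1 h.1).iter m).lip (N := C) (fun y hy => by
    rw [← iter_succ']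
    exact b1 (m + 1) le_rfl y hy) h'.2 h.2
  have h2 := b2 q.1 h'.1 m (Nat.le_succ m) q.2 h'.2
  rw [iter_sub (hS n p.1 h.1) (hS n q.1 h'.1) m h'.2] at h2
  have h3 : |p.1 - q.1| ≤ dist p q := le_max_left _ _
  have h4 : |p.2 - q.2| ≤ dist p q := le_max_right _ _
  refine (abs_sub_le _ (D^[m] (A n p.1) q.2) _).trans ?_
  linarith [mul_le_mul_of_nonneg_left h3 h0, mul_le_mul_of_nonneg_left h4 h0,
    mul_le_mul_of_nonneg_left (le_abs_self (ε n)) h0, mul_nonneg h0 (abs_nonneg (ε n))]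

theorem lim_tower {τ : ℝ} (U : Ultrafilter ℕ) {A : ℕ → Fn} (hS : ∀ n, ∀ t ∈ Icc 0 τ, S (A n t))
    (hB : ∀ m, ∃ C, ∀ᶠ n in (U : Filter ℕ), ∀ t ∈ Icc 0 τ, Bd m (A n t) C) :
    ∃ A' : Fn, ∀ t ∈ Icc 0 τ, S (A' t) ∧ ∀ m, ∀ y ∈ Icc (0 : ℝ) 1,
      Tendsto (fun n => D^[m] (A n t) y) U (𝓝 (D^[m] (A' t) y)) := by
  have h : ∀ t, ∃ g : ℝ → ℝ, t ∈ Icc 0 τ → S g ∧ ∀ m, ∀ y ∈ Icc (0 : ℝ) 1,
      Tendsto (fun n => D^[m] (A n t) y) U (𝓝 (D^[m] g y)) := fun t => by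
    by_cases ht : t ∈ Icc 0 τ
    · obtain ⟨g, hg⟩ := tower_lim U (fun n => hS n t ht) fun m =>
        (hB m).imp fun C hC => hC.mono fun n hn => hn t ht
      exact ⟨g, fun _ => hg⟩
    · exact ⟨0, fun h => absurd h ht⟩
  choose g hg using h
  exact ⟨g, hg⟩

theorem lim_taylor {l : Filter ℕ} [l.NeBot] {a b c ε : ℕ → ℝ} {a' b' c' C x : ℝ}
    (ha : Tendsto a l (𝓝 a')) (hb : Tendsto b l (𝓝 b')) (hc : Tendsto c l (𝓝 c'))
    (hε : Tendsto ε l (𝓝 0)) (h : ∀ᶠ n in l, |a n - b n - x * c n| ≤ C * (x ^ 2 + ε n)) :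
    |a' - b' - x * c'| ≤ C * x ^ 2 := by
  simpa using le_of_tendsto_of_tendsto ((ha.sub hb).sub (hc.const_mul x)).abs
    ((hε.const_add (x ^ 2)).const_mul C) h

theorem lim_sol {τ : ℝ} (hτ : 0 < τ) (U : Ultrafilter ℕ) {A β B : ℕ → Fn} {ε : ℕ → ℝ}
    (hε : Tendsto ε U (𝓝 0)) (hT : ∀ n, ∀ t ∈ Icc 0 τ, Tri (A n t) (β n t) (B n t))
    (hB : ∀ m, ∃ C, ∀ᶠ n in (U : Filter ℕ), ∀ t ∈ Icc 0 τ, Bd m (A n t) C ∧ Bd m (β n t) C ∧
      ∀ r ∈ Icc 0 τ, Bd m (fun y => A n t y - A n r y) (C * (|t - r| + ε n)) ∧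
        Bd m (fun y => β n t y - β n r y) (C * (|t - r| + ε n)))
    (hE : ∃ C, ∀ᶠ n in (U : Filter ℕ), ∀ t ∈ Icc 0 τ, ∀ r ∈ Icc 0 τ, r ≤ t →
      ∀ y ∈ Icc (0 : ℝ) 1,
        |A n t y - A n r y - (t - r) * rA (A n r) (B n r) y| ≤ C * ((t - r) ^ 2 + ε n) ∧
        |β n t y - β n r y - (t - r) * rB (A n r) (β n r) (B n r) y| ≤
          C * ((t - r) ^ 2 + ε n)) :
    ∃ A' β' B' : Fn, IsSol (Icc 0 τ) A' β' B' ∧ ∀ m : ℕ,
      TendstoUniformlyOn (fun n (p : ℝ × ℝ) => D^[m] (A n p.1) p.2)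
        (fun p => D^[m] (A' p.1) p.2) U (Icc 0 τ ×ˢ Icc 0 1) ∧
      TendstoUniformlyOn (fun n (p : ℝ × ℝ) => D^[m] (β n p.1) p.2)
        (fun p => D^[m] (β' p.1) p.2) U (Icc 0 τ ×ˢ Icc 0 1) := by
  have hI := ti_Icc hτ
  obtain ⟨A', hA⟩ := lim_tower U (fun n t ht => (hT n t ht).sA) fun m =>
    (hB m).imp fun C hC => hC.mono fun n hn t ht => (hn t ht).1
  obtain ⟨β', hβ⟩ := lim_tower U (fun n t ht => (hT n t ht).sβ) fun m =>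
    (hB m).imp fun C hC => hC.mono fun n hn t ht => (hn t ht).2.1
  obtain ⟨B', hB'⟩ := lim_tower U (fun n t ht => (hT n t ht).sB) fun m => by
    obtain ⟨K, hK⟩ := hB (m + 1)
    obtain ⟨C, -, hC⟩ := coef_bd m K
    exact ⟨C, hK.mono fun n hn t ht =>
      (hC _ _ _ (hT n t ht) (hn t ht).1 (hn t ht).2.1).2.2.2.2.of_le (Nat.le_succ m)⟩
  have hR := fun t ht => lim_rhs (fun n => hT n t ht) (hA t ht).1 (hβ t ht).1 (hB' t ht).1
    (hA t ht).2 (hβ t ht).2 (hB' t ht).2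
  have uA := lim_unif U hε (fun n t ht => (hT n t ht).sA) (fun m =>
    (hB m).imp fun C hC => hC.mono fun n hn t ht =>
      ⟨(hn t ht).1, fun r hr => ((hn t ht).2.2 r hr).1⟩) fun t ht => (hA t ht).2
  have uβ := lim_unif U hε (fun n t ht => (hT n t ht).sβ) (fun m =>
    (hB m).imp fun C hC => hC.mono fun n hn t ht =>
      ⟨(hn t ht).2.1, fun r hr => ((hn t ht).2.2 r hr).2⟩) fun t ht => (hβ t ht).2
  obtain ⟨w1, w2⟩ := tw_rhs (k := 0) (m := 0) hI (fun t ht => (hR t ht).1)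
    ⟨fun t ht => (hA t ht).1, fun i _ => contDiffOn_zero.2 (uA i).2⟩
    ⟨fun t ht => (hβ t ht).1, fun i _ => contDiffOn_zero.2 (uβ i).2⟩
  have sl : ∀ {F : ℝ × ℝ → ℝ} {y : ℝ}, y ∈ Icc (0 : ℝ) 1 → ContinuousOn F (Icc 0 τ ×ˢ Icc 0 1) →
      ContinuousOn (fun t => F (t, y)) (Icc 0 τ) := fun hy hF =>
    hF.comp (continuous_id.prodMk continuous_const).continuousOn fun t ht => ⟨ht, hy⟩
  obtain ⟨C, hC⟩ := hE
  refine ⟨A', β', B', joint hI (fun t ht => (hR t ht).1) (fun m => (uA m).2) (fun m => (uβ m).2)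
    (fun t ht y hy => ?_) fun t ht y hy => ?_, fun m => ⟨(uA m).1, (uβ m).1⟩⟩
  · exact taylor_deriv' (C := C) (sl hy (w1.2 0 le_rfl).continuousOn) (fun t ht r hr hrt =>
      lim_taylor ((hA t ht).2 0 y hy) ((hA r hr).2 0 y hy) ((hR r hr).2 y hy).1 hε
        (hC.mono fun n hn => (hn t ht r hr hrt y hy).1)) t ht
  · exact taylor_deriv' (C := C) (sl hy (w2.2 0 le_rfl).continuousOn) (fun t ht r hr hrt =>
      lim_taylor ((hβ t ht).2 0 y hy) ((hβ r hr).2 0 y hy) ((hR r hr).2 y hy).2 hε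
        (hC.mono fun n hn => (hn t ht r hr hrt y hy).2)) t ht

end Vale.Agent.P244.X
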