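import Vale.Agent.P244.X.Calc

/-!
Block X: gluing of the two local solutions.
On `[1/3, 2/3]` both `(uL, deriv uL)` and `(uR, deriv uR)` solve the regular first order system
`(x, z)' = (z, (g x + h - (3 c + v q) z) / v)`, Lipschitz in `(x, z)` uniformly in `y`
(coefficients continuous on a compact interval); `ODE_solution_unique_of_mem_Ioo` on
`(1/3, 2/3)`.  Then `u y = if y ≤ 1/2 then uL y else uR y` equals `uL` on `[0, 2/3)` and `uR` on
`(1/3, 1]` (`ContDiffWithinAt.mono_of_mem_nhdsWithin`, `congr_of_eventuallyEq`,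
`Filter.EventuallyEq.deriv`).
-/

namespace Vale.Agent.P244.X

open scoped ContDiff Topology
open Set Filter

/-- The first order system. -/
noncomputable def odeGlueV (q g h : ℝ → ℝ) (y : ℝ) (p : ℝ × ℝ) : ℝ × ℝ :=
  (p.2, g y / (y * (1 - y)) * p.1 - (3 * (1 - 2 * y) + y * (1 - y) * q y) / (y * (1 - y)) * p.2 +
    h y / (y * (1 - y)))

theorem odeGlue_der {a b : ℝ} {q g h u : ℝ → ℝ} (hu : OdeOn a b q g h u) {y : ℝ}
    (hy : y ∈ Ioo a b) (h0 : y * (1 - y) ≠ 0) :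
    HasDerivAt (fun z => (u z, deriv u z)) (odeGlueV q g h y (u y, deriv u y)) y := by
  have h1 : ContDiffAt ℝ ∞ u y := hu.1.contDiffAt (Icc_mem_nhds hy.1 hy.2)
  have h2 : ContDiffAt ℝ 1 (deriv u) y :=
    ((h1.derivWithin (m := ∞) (by simp)).of_le (by simp))
  have h3 := (h1.differentiableAt (by simp)).hasDerivAt.prodMk
    (h2.differentiableAt (by simp)).hasDerivAt
  have e := hu.2 y hy
  have : deriv (deriv u) y = g y / (y * (1 - y)) * u y -
      (3 * (1 - 2 * y) + y * (1 - y) * q y) / (y * (1 - y)) * deriv u y + h y / (y * (1 - y)) := by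
    generalize y * (1 - y) = v at *
    field_simp
    linarith
  rwa [this] at h3

theorem odeGlue_lip {q g h : ℝ → ℝ} (hq : S q) (hg : S g) : ∃ K : NNReal,
    ∀ y ∈ Ioo (1 / 3 : ℝ) (2 / 3), LipschitzOnWith K (odeGlueV q g h y) univ := by
  have hs : Icc (1 / 3 : ℝ) (2 / 3) ⊆ Icc 0 1 := Icc_subset_Icc (by norm_num) (by norm_num)
  have h0 : ∀ y ∈ Icc (1 / 3 : ℝ) (2 / 3), y * (1 - y) ≠ 0 := fun y hy =>
    (mul_pos (by linarith [hy.1]) (by linarith [hy.2])).ne'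
  obtain ⟨A, hA⟩ := isCompact_Icc.exists_bound_of_continuousOn
    ((hg.cont.mono hs).div (S.v.cont.mono hs) h0)
  obtain ⟨B, hB⟩ := isCompact_Icc.exists_bound_of_continuousOn
    (((((S.c.cmul 3).add (S.v.mul hq)).cont).mono hs).div (S.v.cont.mono hs) h0)
  refine ⟨⟨1 + |A| + |B|, by positivity⟩, fun y hy => ?_⟩
  refine (LipschitzWith.of_dist_le_mul fun p p' => ?_).lipschitzOnWith
  have hA' := (hA y (Ioo_subset_Icc_self hy)).trans (le_abs_self A)
  have hB' := (hB y (Ioo_subset_Icc_self hy)).trans (le_abs_self B)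
  simp only [Pi.div_apply, Real.norm_eq_abs] at hA' hB'
  have d1 : |p.1 - p'.1| ≤ dist p p' := by rw [Prod.dist_eq]; exact le_max_left _ _
  have d2 : |p.2 - p'.2| ≤ dist p p' := by rw [Prod.dist_eq]; exact le_max_right _ _
  have hd := dist_nonneg (x := p) (y := p')
  have hA0 := abs_nonneg A
  have hB0 := abs_nonneg B
  change _ ≤ (1 + |A| + |B|) * dist p p'
  rw [Prod.dist_eq (x := odeGlueV q g h y p)]
  simp only [odeGlueV, Real.dist_eq]
  generalize g y / (y * (1 - y)) = α at *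
  generalize (3 * (1 - 2 * y) + y * (1 - y) * q y) / (y * (1 - y)) = β at *
  refine max_le (by nlinarith) ?_
  rw [show α * p.1 - β * p.2 + h y / (y * (1 - y)) - (α * p'.1 - β * p'.2 + h y / (y * (1 - y))) =
    α * (p.1 - p'.1) - β * (p.2 - p'.2) by ring]
  refine (abs_sub _ _).trans ?_
  rw [abs_mul, abs_mul]
  have m1 := mul_le_mul hA' d1 (abs_nonneg _) hA0
  have m2 := mul_le_mul hB' d2 (abs_nonneg _) hB0
  nlinarith

theorem odeGlue_at {a b : ℝ} {q g h u w : ℝ → ℝ} (hu : OdeOn a b q g h u) {y : ℝ}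
    (hy : y ∈ Ioo a b) (e : w =ᶠ[𝓝 y] u) :
    y * (1 - y) * deriv (deriv w) y + (3 * (1 - 2 * y) + y * (1 - y) * q y) * deriv w y =
      g y * w y + h y := by
  rw [e.deriv.deriv.eq_of_nhds, e.deriv.eq_of_nhds, e.eq_of_nhds]
  exact hu.2 y hy

theorem ode_glue {q g h uL uR : ℝ → ℝ} (hq : S q) (hg : S g) (_hh : S h)
    (hL : OdeOn 0 (2 / 3) q g h uL) (hR : OdeOn (1 / 3) 1 q g h uR)
    (e0 : uL (1 / 2) = uR (1 / 2)) (e1 : deriv uL (1 / 2) = deriv uR (1 / 2)) :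
    ∃ u, OdeOn 0 1 q g h u ∧ u 0 = uL 0 ∧ u 1 = uR 1 := by
  obtain ⟨K, hK⟩ := odeGlue_lip (h := h) hq hg
  have h0 : ∀ y ∈ Ioo (1 / 3 : ℝ) (2 / 3), y * (1 - y) ≠ 0 := fun y hy =>
    (mul_pos (by linarith [hy.1]) (by linarith [hy.2])).ne'
  have key := ODE_solution_unique_of_mem_Ioo (v := odeGlueV q g h) (s := fun _ => univ)
    (f := fun z => (uL z, deriv uL z)) (g := fun z => (uR z, deriv uR z)) (t₀ := 1 / 2) hK
    ⟨by norm_num, by norm_num⟩
    (fun y hy => ⟨odeGlue_der hL ⟨by linarith [hy.1], hy.2⟩ (h0 y hy), trivial⟩)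
    (fun y hy => ⟨odeGlue_der hR ⟨hy.1, by linarith [hy.2]⟩ (h0 y hy), trivial⟩)
    (Prod.ext e0 e1)
  have hE : ∀ y ∈ Ioo (1 / 3 : ℝ) (2 / 3), uL y = uR y := fun y hy => congrArg Prod.fst (key hy)
  set u : ℝ → ℝ := fun y => if y ≤ 1 / 2 then uL y else uR y with hu
  have eL : ∀ y, y < 2 / 3 → u =ᶠ[𝓝 y] uL := fun y hy => by
    filter_upwards [Iio_mem_nhds hy] with z hz
    simp only [hu]
    split_ifs with h1
    · rfl
    · exact (hE z ⟨by linarith [not_le.1 h1], hz⟩).symm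
  have eR : ∀ y, 1 / 3 < y → u =ᶠ[𝓝 y] uR := fun y hy => by
    filter_upwards [Ioi_mem_nhds hy] with z hz
    simp only [hu]
    split_ifs with h1
    · exact hE z ⟨hz, by linarith⟩
    · rfl
  refine ⟨u, ⟨fun y hy => ?_, fun y hy => ?_⟩, (eL 0 (by norm_num)).eq_of_nhds,
    (eR 1 (by norm_num)).eq_of_nhds⟩
  · by_cases h1 : y < 2 / 3
    · refine ((hL.1 y ⟨hy.1, h1.le⟩).mono_of_mem_nhdsWithin ?_).congr_of_eventuallyEq
        ((eL y h1).filter_mono nhdsWithin_le_nhds) (eL y h1).eq_of_nhds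
      filter_upwards [self_mem_nhdsWithin, mem_nhdsWithin_of_mem_nhds (Iio_mem_nhds h1)]
        with z hz hz' using ⟨hz.1, le_of_lt hz'⟩
    · have h2 : 1 / 3 < y := by linarith [not_lt.1 h1]
      refine ((hR.1 y ⟨h2.le, hy.2⟩).mono_of_mem_nhdsWithin ?_).congr_of_eventuallyEq
        ((eR y h2).filter_mono nhdsWithin_le_nhds) (eR y h2).eq_of_nhds
      filter_upwards [self_mem_nhdsWithin, mem_nhdsWithin_of_mem_nhds (Ioi_mem_nhds h2)]
        with z hz hz' using ⟨le_of_lt hz', hz.2⟩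
  · by_cases h1 : y < 2 / 3
    · exact odeGlue_at hL ⟨hy.1, h1⟩ (eL y h1)
    · have h2 : 1 / 3 < y := by linarith [not_lt.1 h1]
      exact odeGlue_at hR ⟨h2, hy.2⟩ (eR y h2)

end Vale.Agent.P244.X
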