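import Vale.Agent.P244.X.OdeLoc
import Vale.Agent.P244.X.OdeGlue
import Vale.Agent.P244.X.MP

/-!
Block X: the singular linear two point problem.
`ode_D`: on `(0, 1)`, `deriv u = D u`, `deriv (deriv u) = D (D u)` (`S.hasD'`); both sides are
continuous on `[0, 1]`, so the equation extends (`Set.EqOn.of_subset_closure`, `closure_Ioo`).
`ode_zero`: `mp_pt` at a maximum of `u` and of `-u`.
`ode_ex`: `pL`, `pR` particular solutions, `uL`, `uR` homogeneous ones with `uL 0 = 1 = uR 1`.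
If `uL (1/2) uR' (1/2) = uL' (1/2) uR (1/2)` there is `(α, γ) ≠ 0` with `α uL`, `γ uR` matching
at `1/2`; `ode_lin`, `ode_glue`, `ode_zero` give `α = γ = 0`.  So the determinant is nonzero,
and Cramer's rule gives `α`, `γ` with `pL + α uL`, `pR + γ uR` matching at `1/2`.
`lin_solve`: `q = B / (2 w)`, `g = 1 / (4 s w)`, `h = -g φ`, `w = exp (-2 A)`.
-/

namespace Vale.Agent.P244.X

open scoped ContDiff Topology
open Set Filter

variable {q g h u : ℝ → ℝ}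

theorem ode_D (hq : S q) (hg : S g) (hh : S h) (hu : OdeOn 0 1 q g h u) :
    ∀ y ∈ Icc (0 : ℝ) 1,
      y * (1 - y) * D (D u) y + (3 * (1 - 2 * y) + y * (1 - y) * q y) * D u y =
        g y * u y + h y := by
  have su : S u := hu.1
  have e1 : ∀ y ∈ Ioo (0 : ℝ) 1, deriv u y = D u y := fun y hy => (su.hasD' hy).deriv
  refine Set.EqOn.of_subset_closure (s := Ioo 0 1) (fun y hy => ?_)
    ((S.v.mul su.D.D).add (((S.c.cmul 3).add (S.v.mul hq)).mul su.D)).cont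
    ((hg.mul su).add hh).cont Ioo_subset_Icc_self (closure_Ioo zero_ne_one).ge
  have e2 : deriv u =ᶠ[𝓝 y] D u := eventually_of_mem (isOpen_Ioo.mem_nhds hy) e1
  have e3 := hu.2 y hy
  rwa [e2.deriv_eq, (su.D.hasD' hy).deriv, e1 y hy] at e3

theorem ode_nonpos (hq : S q) (hg : S g) (hpos : ∀ y ∈ Icc (0 : ℝ) 1, 0 < g y)
    (hu : OdeOn 0 1 q g (fun _ => 0) u) : ∀ y ∈ Icc (0 : ℝ) 1, u y ≤ 0 := by
  have su : S u := hu.1
  obtain ⟨y, hy, hmax⟩ := isCompact_Icc.exists_isMaxOn ⟨0, le_rfl, zero_le_one⟩ su.cont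
  have h1 := mp_pt (a := y * (1 - y)) (b := 3 * (1 - 2 * y) + y * (1 - y) * q y) su hy hmax
    (mul_nonneg hy.1 (sub_nonneg.2 hy.2)) (fun e => by rw [e]; norm_num)
    (fun e => by rw [e]; norm_num)
  rw [ode_D hq hg (S.const 0) hu y hy, add_zero] at h1
  have h2 : u y ≤ 0 := by
    by_contra h
    exact absurd (mul_pos (hpos y hy) (not_le.1 h)) (not_lt.2 h1)
  exact fun z hz => (hmax hz).trans h2

theorem ode_zero (hq : S q) (hg : S g) (hpos : ∀ y ∈ Icc (0 : ℝ) 1, 0 < g y)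
    (hu : OdeOn 0 1 q g (fun _ => 0) u) : ∀ y ∈ Icc (0 : ℝ) 1, u y = 0 := by
  have h1 := (ode_lin hu hu (-1) 0).1
  simp only [mul_zero] at h1
  intro y hy
  have h2 := ode_nonpos hq hg hpos h1 y hy
  have h3 := ode_nonpos hq hg hpos hu y hy
  linarith

theorem ode_cramer {a b c d : ℝ} (det : a * d - b * c ≠ 0) (p r p' r' : ℝ) :
    ∃ α γ : ℝ, p + α * a = r + γ * c ∧ p' + α * b = r' + γ * d := by
  have e := mul_inv_cancel₀ det
  exact ⟨((r - p) * d - (r' - p') * c) * (a * d - b * c)⁻¹,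
    ((r - p) * b - (r' - p') * a) * (a * d - b * c)⁻¹, by linear_combination (r - p) * e,
    by linear_combination (r' - p') * e⟩

theorem ode_ex (hq : S q) (hg : S g) (hh : S h) (hpos : ∀ y ∈ Icc (0 : ℝ) 1, 0 < g y) :
    ∃ u, OdeOn 0 1 q g h u := by
  obtain ⟨pL, hpL, -⟩ := ode_left hq hg hh 0
  obtain ⟨pR, hpR, -⟩ := ode_right hq hg hh 0
  obtain ⟨uL, huL, l0⟩ := ode_left hq hg (S.const 0) 1
  obtain ⟨uR, huR, r1⟩ := ode_right hq hg (S.const 0) 1
  have mL : (1 / 2 : ℝ) ∈ Ioo (0 : ℝ) (2 / 3) := by norm_num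
  have mR : (1 / 2 : ℝ) ∈ Ioo (1 / 3 : ℝ) 1 := by norm_num
  have key : ∀ α γ : ℝ, α * uL (1 / 2) = γ * uR (1 / 2) →
      α * deriv uL (1 / 2) = γ * deriv uR (1 / 2) → α = 0 ∧ γ = 0 := by
    intro α γ h0 h1
    obtain ⟨a1, a2⟩ := ode_lin huL huL 0 α
    obtain ⟨b1, b2⟩ := ode_lin huR huR 0 γ
    obtain ⟨u, c1, c2, c3⟩ := ode_glue hq hg (S.const _) a1 b1 (by simpa using h0)
      (by rw [a2 _ mL, b2 _ mR]; simpa using h1)
    simp only [mul_zero] at c1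
    rw [ode_zero hq hg hpos c1 0 ⟨le_rfl, zero_le_one⟩, l0] at c2
    rw [ode_zero hq hg hpos c1 1 ⟨zero_le_one, le_rfl⟩, r1] at c3
    constructor <;> linarith
  have det : uL (1 / 2) * deriv uR (1 / 2) - deriv uL (1 / 2) * uR (1 / 2) ≠ 0 := by
    intro e
    have h1 := (key (uR (1 / 2)) (uL (1 / 2)) (by ring) (by linear_combination -e)).1
    have h2 := (key (deriv uR (1 / 2)) (deriv uL (1 / 2)) (by linear_combination e) (by ring)).1
    exact one_ne_zero (key 0 1 (by rw [h1]; ring) (by rw [h2]; ring)).2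
  obtain ⟨α, γ, e0, e1⟩ := ode_cramer det (pL (1 / 2)) (pR (1 / 2)) (deriv pL (1 / 2))
    (deriv pR (1 / 2))
  obtain ⟨a1, a2⟩ := ode_lin hpL huL 1 α
  obtain ⟨b1, b2⟩ := ode_lin hpR huR 1 γ
  obtain ⟨u, c1, -⟩ := ode_glue hq hg (hh.cmul 1) a1 b1 (by simpa using e0)
    (by rw [a2 _ mL, b2 _ mR]; simpa using e1)
  simp only [one_mul] at c1
  exact ⟨u, c1⟩

theorem lin_solve {A B φ : ℝ → ℝ} {s : ℝ} (hs : 0 < s) (hA : S A) (hB : S B) (hφ : S φ) :
    ∃ u, S u ∧ ∀ y ∈ Icc (0 : ℝ) 1, u y - s * Lop A B u y = φ y := by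
  have w0 : ∀ y, Real.exp (-2 * A y) ≠ 0 := fun y => (Real.exp_pos _).ne'
  have hq : S fun y => B y / (2 * Real.exp (-2 * A y)) :=
    ContDiffOn.div hB (hA.w.cmul 2) fun y _ => mul_ne_zero two_ne_zero (w0 y)
  have hg : S fun y => 1 / (4 * s * Real.exp (-2 * A y)) :=
    ContDiffOn.div (S.const 1) (hA.w.cmul (4 * s)) fun y _ => by positivity
  obtain ⟨u, hu⟩ := ode_ex hq hg (hg.mul hφ).neg fun y _ => by positivity
  refine ⟨u, hu.1, fun y hy => ?_⟩
  have h1 := ode_D hq hg (hg.mul hφ).neg hu y hy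
  have h2 := w0 y
  simp only [Lop, a2, a1]
  generalize Real.exp (-2 * A y) = w at h1 h2 ⊢
  field_simp at h1
  linear_combination (-1 / 2 : ℝ) * h1

end Vale.Agent.P244.X
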