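import Vale.Agent.P244.X.Sing

/-!
Block X: local solutions at both end points.
`ode_left`: divide by `1 - y`: `sing_ex` with `b = 2/3`, `Q = 3 / (1 - y) - q`, `g / (1 - y)`,
`h / (1 - y)`.  `ode_right`: apply `ode_left` to `-q (1 - y)`, `g (1 - y)`, `h (1 - y)` and take
`u (1 - y)` (`deriv_comp_const_sub`).  `ode_lin`: `u` and `deriv u` are differentiable on the
open interval (`ContDiffOn.mono`, `ContDiffOn.deriv_of_isOpen`), `deriv` of the sum is the sum
on the open interval (`Filter.EventuallyEq.deriv_eq`).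
-/

namespace Vale.Agent.P244.X

open scoped ContDiff Topology
open Set Filter

variable {q g h : ℝ → ℝ}

theorem ode_left (hq : S q) (hg : S g) (hh : S h) (u₀ : ℝ) :
    ∃ u, OdeOn 0 (2 / 3) q g h u ∧ u 0 = u₀ := by
  have hs : Icc (0 : ℝ) (2 / 3) ⊆ Icc 0 1 := Icc_subset_Icc_right (by norm_num)
  have h1 : ContDiffOn ℝ ∞ (fun y : ℝ => 1 - y) (Icc 0 (2 / 3)) := contDiffOn_const.sub contDiffOn_id
  have h2 : ∀ y ∈ Icc (0 : ℝ) (2 / 3), 1 - y ≠ 0 := fun y hy => by linarith [hy.2]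
  obtain ⟨u, a1, a2, a3⟩ := sing_ex (b := 2 / 3) (by norm_num) (Q := fun y => 3 / (1 - y) - q y)
    (g := fun y => g y / (1 - y)) (h := fun y => h y / (1 - y))
    ((contDiffOn_const.div h1 h2).sub (ContDiffOn.mono hq hs)) ((ContDiffOn.mono hg hs).div h1 h2)
    ((ContDiffOn.mono hh hs).div h1 h2) u₀
  refine ⟨u, ⟨a1, fun y hy => ?_⟩, a2⟩
  have a4 := a3 y hy
  have a5 := h2 y (Ioo_subset_Icc_self hy)
  field_simp at a4
  linear_combination a4

theorem odeLoc_flip {f : ℝ → ℝ} {a b c d : ℝ} (hf : ContDiffOn ℝ ∞ f (Icc a b)) (h1 : a ≤ 1 - d)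
    (h2 : 1 - c ≤ b) : ContDiffOn ℝ ∞ (fun y => f (1 - y)) (Icc c d) :=
  hf.comp (contDiffOn_const.sub contDiffOn_id) fun y hy =>
    ⟨by linarith [hy.2], by linarith [hy.1]⟩

theorem ode_right (hq : S q) (hg : S g) (hh : S h) (u₁ : ℝ) :
    ∃ u, OdeOn (1 / 3) 1 q g h u ∧ u 1 = u₁ := by
  obtain ⟨v, ⟨a1, a2⟩, a3⟩ := ode_left (q := fun y => -q (1 - y)) (g := fun y => g (1 - y))
    (h := fun y => h (1 - y)) (odeLoc_flip hq (by norm_num) (by norm_num)).neg
    (odeLoc_flip hg (by norm_num) (by norm_num)) (odeLoc_flip hh (by norm_num) (by norm_num)) u₁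
  refine ⟨fun y => v (1 - y), ⟨odeLoc_flip a1 (by norm_num) (by norm_num), fun y hy => ?_⟩,
    by simpa using a3⟩
  have e1 : deriv (fun y => v (1 - y)) = fun y => -deriv v (1 - y) :=
    funext fun y => deriv_comp_const_sub v 1 y
  have e2 : deriv (fun y => -deriv v (1 - y)) y = deriv (deriv v) (1 - y) := by
    rw [deriv.fun_neg, deriv_comp_const_sub, neg_neg]
  have a4 := a2 (1 - y) ⟨by linarith [hy.2], by linarith [hy.1]⟩
  simp only [sub_sub_cancel] at a4
  rw [e1, e2]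
  linear_combination a4

theorem odeLoc_diff {u : ℝ → ℝ} {a b y : ℝ} (hu : ContDiffOn ℝ ∞ u (Icc a b)) (hy : y ∈ Ioo a b) :
    HasDerivAt u (deriv u y) y ∧ HasDerivAt (deriv u) (deriv (deriv u) y) y := by
  have h1 := hu.mono Ioo_subset_Icc_self
  have h2 : ContDiffOn ℝ ∞ (deriv u) (Ioo a b) := h1.deriv_of_isOpen isOpen_Ioo (by simp)
  exact ⟨((h1.differentiableOn (by simp)).differentiableAt (isOpen_Ioo.mem_nhds hy)).hasDerivAt,
    ((h2.differentiableOn (by simp)).differentiableAt (isOpen_Ioo.mem_nhds hy)).hasDerivAt⟩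

theorem ode_lin {a b : ℝ} {u u' : ℝ → ℝ} (hu : OdeOn a b q g h u)
    (hu' : OdeOn a b q g (fun _ => 0) u') (α γ : ℝ) :
    OdeOn a b q g (fun y => α * h y) (fun y => α * u y + γ * u' y) ∧ ∀ y ∈ Ioo a b,
      deriv (fun y => α * u y + γ * u' y) y = α * deriv u y + γ * deriv u' y := by
  have e1 : ∀ y ∈ Ioo a b,
      deriv (fun y => α * u y + γ * u' y) y = α * deriv u y + γ * deriv u' y := fun y hy =>
    (((odeLoc_diff hu.1 hy).1.const_mul α).add ((odeLoc_diff hu'.1 hy).1.const_mul γ)).deriv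
  refine ⟨⟨(contDiffOn_const.mul hu.1).add (contDiffOn_const.mul hu'.1), fun y hy => ?_⟩, e1⟩
  have e2 : deriv (deriv fun y => α * u y + γ * u' y) y =
      α * deriv (deriv u) y + γ * deriv (deriv u') y := by
    have e3 : (deriv fun y => α * u y + γ * u' y) =ᶠ[𝓝 y] fun y => α * deriv u y + γ * deriv u' y :=
      eventually_of_mem (isOpen_Ioo.mem_nhds hy) e1
    rw [e3.deriv_eq]
    exact (((odeLoc_diff hu.1 hy).2.const_mul α).add
      ((odeLoc_diff hu'.1 hy).2.const_mul γ)).deriv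
  rw [e2, e1 y hy]
  linear_combination α * hu.2 y hy + γ * hu'.2 y hy

end Vale.Agent.P244.X
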