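import Vale.Agent.P244.X.MP
import Vale.Agent.P244.X.Barrier
import Vale.Agent.P244.X.SolB

/-!
Block X: the derivative maximum principle for solutions.
`barrier` with `ι = Bool × Fin (m + 1)`, `u (b, i) t = D^[i] (A t)` or `D^[i] (β t)`,
`F (b, i) t = D^[i] (rA ..)` or `D^[i] (rB ..)`, `E = C`; `sm_cont`, `sol_hasT`, `sol_tri`,
`D^[i] rA = D^[i] Lop + D^[i] fA` (`iter_add`), `mp_max`, `mp_min`.
-/

namespace Vale.Agent.P244.X

open scoped ContDiff Topology
open Set Filter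

theorem regCore_pt {A B u f : ℝ → ℝ} {y M E : ℝ} (hA : S A) (hB : S B) (hu : S u) (hf : S f)
    (i : ℕ) (hy : y ∈ Icc (0 : ℝ) 1) (hM : ∀ z ∈ Icc (0 : ℝ) 1, |D^[i] u z| ≤ M)
    (hE : |G i (a2 A) (a1 A B) u y| + |D^[i] f y| ≤ E) :
    (D^[i] u y = M → D^[i] (fun z => Lop A B u z + f z) y ≤ E) ∧
      (D^[i] u y = -M → -E ≤ D^[i] (fun z => Lop A B u z + f z) y) := by
  rw [iter_add (hA.Lop hB hu) hf i hy]
  have g1 := abs_le.1 (le_refl |G i (a2 A) (a1 A B) u y|)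
  have g2 := abs_le.1 (le_refl |D^[i] f y|)
  constructor
  · intro e
    have := mp_max (B := B) hA hu i hy fun z hz => by rw [e]; exact (abs_le.1 (hM z hz)).2
    change D^[i] (Lop A B u) y + _ ≤ _
    linarith [g1.2, g2.2]
  · intro e
    have := mp_min (B := B) hA hu i hy fun z hz => by rw [e]; exact (abs_le.1 (hM z hz)).1
    change _ ≤ D^[i] (Lop A B u) y + _
    linarith [g1.1, g2.1]

theorem reg_core {t₁ C N₀ : ℝ} (ht : 0 < t₁) (hC : 0 ≤ C) {A β B : Fn} (m : ℕ)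
    (h : IsSol (Icc 0 t₁) A β B)
    (H : ∀ t ∈ Icc 0 t₁, ∀ M, Bd m (A t) M → Bd m (β t) M → ∀ i ≤ m, ∀ y ∈ Icc (0 : ℝ) 1,
      |G i (a2 (A t)) (a1 (A t) (B t)) (A t) y| + |D^[i] (fA (A t) (B t)) y| ≤ C * (1 + M) ∧
      |G i (a2 (A t)) (a1 (A t) (B t)) (β t) y| + |D^[i] (fB (β t)) y| ≤ C * (1 + M))
    (hA : Bd m (A 0) N₀) (hβ : Bd m (β 0) N₀) :
    ∀ t ∈ Icc 0 t₁, Bd m (A t) ((N₀ + C * t) * Real.exp (C * t)) ∧
      Bd m (β t) ((N₀ + C * t) * Real.exp (C * t)) := by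
  have hI := ti_Icc ht
  have key := barrier (ι := Bool × Fin (m + 1)) (t₁ := t₁) (M₀ := N₀) hC hC
    (fun j t y => if j.1 then D^[j.2] (A t) y else D^[j.2] (β t) y)
    (fun j t y => if j.1 then D^[j.2] (rA (A t) (B t)) y else D^[j.2] (rB (A t) (β t) (B t)) y)
    (by
      rintro ⟨b, i⟩
      cases b
      · simpa using sm_cont hI h.smβ i
      · simpa using sm_cont hI h.smA i)
    (by
      rintro ⟨b, i⟩ t ht y hy
      cases b
      · simpa using (sol_hasT hI h i t ht y hy).2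
      · simpa using (sol_hasT hI h i t ht y hy).1)
    (by
      rintro ⟨b, i⟩ y hy
      cases b
      · simpa using hβ i (Nat.lt_succ_iff.1 i.2) y hy
      · simpa using hA i (Nat.lt_succ_iff.1 i.2) y hy)
    (by
      intro t ht M _ hM
      have T := sol_tri h ht
      have bA : Bd m (A t) M := fun i hi y hy => by
        simpa using hM (true, ⟨i, Nat.lt_succ_iff.2 hi⟩) y hy
      have bβ : Bd m (β t) M := fun i hi y hy => by
        simpa using hM (false, ⟨i, Nat.lt_succ_iff.2 hi⟩) y hy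
      rintro ⟨b, i⟩ y hy
      have hi := Nat.lt_succ_iff.1 i.2
      have e : C * M + C = C * (1 + M) := by ring
      rw [e]
      cases b
      · exact regCore_pt T.sA T.sB T.sβ T.sβ.fB i hy (bβ i hi) (H t ht M bA bβ i hi y hy).2
      · exact regCore_pt T.sA T.sB T.sA (T.sA.fA T.sB) i hy (bA i hi)
          (H t ht M bA bβ i hi y hy).1)
  intro t ht
  exact ⟨fun i hi y hy => by simpa using key (true, ⟨i, Nat.lt_succ_iff.2 hi⟩) t ht y hy,
    fun i hi y hy => by simpa using key (false, ⟨i, Nat.lt_succ_iff.2 hi⟩) t ht y hy⟩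

end Vale.Agent.P244.X
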