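import Vale.Agent.P244.Defs

/-!
Block X: an abstract Volterra equation.
Work in `C(Icc 0 b, ℝ)`; for `φ` there put `e φ y = exp (L y) * φ (projIcc 0 b _ y)`, `L = 2 C + 1`,
and `T φ y = exp (-L y) (u₀ + ∫ r in 0..y, K (e φ) r)` (continuous:
`intervalIntegral.continuousOn_primitive_interval` or `continuousOn_primitive`).
`|e φ x - e ψ x| ≤ exp (L r) dist φ ψ` for `x ≤ r`, so `|K (e φ) r - K (e ψ) r| ≤ C exp (L r) d` and
`dist (T φ) (T ψ) ≤ d / 2`; `ContractingWith.fixedPoint`; `u = e φ`.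
-/

namespace Vale.Agent.P244.X

open scoped ContDiff Topology
open Set Filter

theorem volterra {b C : ℝ} (hb : 0 < b) (hC : 0 ≤ C) (K : (ℝ → ℝ) → ℝ → ℝ)
    (hc : ∀ u, ContinuousOn u (Icc 0 b) → ContinuousOn (K u) (Icc 0 b))
    (hl : ∀ u u', ContinuousOn u (Icc 0 b) → ContinuousOn u' (Icc 0 b) → ∀ y ∈ Icc 0 b, ∀ M,
      (∀ x ∈ Icc 0 y, |u x - u' x| ≤ M) → |K u y - K u' y| ≤ C * M) (u₀ : ℝ) :
    ∃ u, ContinuousOn u (Icc 0 b) ∧ ∀ y ∈ Icc 0 b, u y = u₀ + ∫ r in (0 : ℝ)..y, K u r := by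
  obtain ⟨L, hL⟩ : ∃ L : ℝ, L = 2 * C + 1 := ⟨_, rfl⟩
  have L0 : 0 < L := by linarith
  obtain ⟨e, he⟩ : ∃ e : C(Icc (0 : ℝ) b, ℝ) → ℝ → ℝ,
      e = fun φ y => Real.exp (L * y) * φ (projIcc 0 b hb.le y) := ⟨_, rfl⟩
  have ec : ∀ φ, ContinuousOn (e φ) (Icc 0 b) := fun φ => by
    rw [he]
    exact ((Real.continuous_exp.comp (continuous_const.mul continuous_id)).mul
      (φ.continuous.comp continuous_projIcc)).continuousOn
  have ki : ∀ φ, ∀ y ∈ Icc (0 : ℝ) b, IntervalIntegrable (K (e φ)) MeasureTheory.volume 0 y :=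
    fun φ y hy => ((hc _ (ec φ)).mono (Icc_subset_Icc_right hy.2)).intervalIntegrable_of_Icc hy.1
  have pc : ∀ φ, ContinuousOn (fun y => ∫ r in (0 : ℝ)..y, K (e φ) r) (Icc 0 b) := fun φ => by
    have := intervalIntegral.continuousOn_primitive_interval' (ki φ b ⟨hb.le, le_rfl⟩)
      left_mem_uIcc
    rwa [uIcc_of_le hb.le] at this
  let T : C(Icc (0 : ℝ) b, ℝ) → C(Icc (0 : ℝ) b, ℝ) := fun φ =>
    ⟨fun y => Real.exp (-(L * y)) * (u₀ + ∫ r in (0 : ℝ)..y, K (e φ) r),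
      (Real.continuous_exp.comp (continuous_const.mul continuous_subtype_val).neg).mul
        (continuous_const.add (pc φ).restrict)⟩
  have hT : ContractingWith (1 / 2) T := by
    refine ⟨by norm_num, LipschitzWith.of_dist_le_mul fun φ ψ => ?_⟩
    have d0 : 0 ≤ dist φ ψ := dist_nonneg
    refine (ContinuousMap.dist_le (by positivity)).2 fun y => ?_
    have h1 : ∀ r ∈ Icc (0 : ℝ) y, |K (e φ) r - K (e ψ) r| ≤ C * dist φ ψ * Real.exp (L * r) :=
      fun r hr => by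
        refine (hl _ _ (ec φ) (ec ψ) r ⟨hr.1, hr.2.trans y.2.2⟩ (dist φ ψ * Real.exp (L * r))
          fun x hx => ?_).trans_eq (by ring)
        simp only [he]
        rw [← mul_sub, abs_mul, abs_of_pos (Real.exp_pos _), mul_comm]
        exact mul_le_mul (ContinuousMap.dist_apply_le_dist (f := φ) (g := ψ) _)
          (Real.exp_le_exp.2 (mul_le_mul_of_nonneg_left hx.2 L0.le)) (Real.exp_pos _).le d0
    have h2 : ∫ r in (0 : ℝ)..y, C * dist φ ψ * Real.exp (L * r) =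
        C * dist φ ψ * (Real.exp (L * y) / L) - C * dist φ ψ * (Real.exp (L * 0) / L) :=
      intervalIntegral.integral_eq_sub_of_hasDerivAt
        (f := fun r => C * dist φ ψ * (Real.exp (L * r) / L)) (fun r _ =>
          (((((hasDerivAt_id r).const_mul L).exp).div_const L).const_mul _).congr_deriv
            (by simp [L0.ne'])) (Continuous.intervalIntegrable (by fun_prop) _ _)
    have h3 : ‖∫ r in (0 : ℝ)..y, (K (e φ) r - K (e ψ) r)‖ ≤
        ∫ r in (0 : ℝ)..y, C * dist φ ψ * Real.exp (L * r) :=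
      intervalIntegral.norm_integral_le_of_norm_le y.2.1
        (Eventually.of_forall fun r hr => h1 r (Ioc_subset_Icc_self hr))
        (Continuous.intervalIntegrable (by fun_prop) _ _)
    rw [intervalIntegral.integral_sub (ki φ y y.2) (ki ψ y y.2), h2, Real.norm_eq_abs] at h3
    have h4 : 0 ≤ C * dist φ ψ * (Real.exp (L * 0) / L) := by positivity
    have h5 : C * dist φ ψ * (Real.exp (L * y) / L) ≤ 1 / 2 * dist φ ψ * Real.exp (L * y) := by
      have h6 : C / L ≤ 1 / 2 := (div_le_iff₀ L0).2 (by linarith)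
      have h7 := mul_le_mul_of_nonneg_right h6 (mul_nonneg d0 (Real.exp_pos (L * y)).le)
      exact (le_of_eq (by ring)).trans (h7.trans_eq (by ring))
    show dist (Real.exp (-(L * y)) * (u₀ + ∫ r in (0 : ℝ)..y, K (e φ) r))
      (Real.exp (-(L * y)) * (u₀ + ∫ r in (0 : ℝ)..y, K (e ψ) r)) ≤ ((1 / 2 : NNReal) : ℝ) * dist φ ψ
    rw [Real.dist_eq, ← mul_sub, add_sub_add_left_eq_sub, abs_mul, abs_of_pos (Real.exp_pos _),
      Real.exp_neg, inv_mul_le_iff₀ (Real.exp_pos _)]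
    push_cast
    linarith
  obtain ⟨φ, hφ⟩ : ∃ φ, T φ = φ := ⟨_, hT.fixedPoint_isFixedPt⟩
  refine ⟨e φ, ec φ, fun y hy => ?_⟩
  have h1 : Real.exp (-(L * y)) * (u₀ + ∫ r in (0 : ℝ)..y, K (e φ) r) = φ ⟨y, hy⟩ :=
    congrArg (fun f : C(Icc (0 : ℝ) b, ℝ) => f ⟨y, hy⟩) hφ
  have h2 : e φ y = Real.exp (L * y) * φ ⟨y, hy⟩ := by
    simp only [he, projIcc_of_mem hb.le hy]
  rw [h2, ← h1, ← mul_assoc, ← Real.exp_add, add_neg_cancel, Real.exp_zero, one_mul]

end Vale.Agent.P244.X
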