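import Vale.Agent.P244.X.Avg
import Vale.Agent.P244.X.Volterra

/-!
Block X: the regular singular point.  Put `Q' = derivWithin Q (Icc 0 b)`,
`P y = g y - 3 Q y - y Q' y`, `K u y = Q y u y + Avg (P u + h) y`; `volterra` gives `u` with
`u' = K u` within `[0, b]` (fundamental theorem of calculus).  Bootstrap: `u ∈ C^k → K u ∈ C^k`
(`avg_smooth`) `→ u ∈ C^(k+1)` (`contDiffOn_succ_iff_derivWithin`), `contDiffOn_infty`.
On `(0, b)`: `deriv u = K u` near `y`, `u'' = Q' u + Q u' + (P u + h - 3 W) / y` (`avg_deriv`,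
`W = Avg (..) y = u' - Q u`), so `y u'' + 3 u' = y Q u' + g u + h`.
-/

namespace Vale.Agent.P244.X

open scoped ContDiff Topology
open Set Filter

theorem sing_ftc {b y : ℝ} {K : ℝ → ℝ} (hK : ContinuousOn K (Icc 0 b)) (hy : y ∈ Icc 0 b) :
    HasDerivWithinAt (fun z => ∫ r in (0 : ℝ)..z, K r) (K y) (Icc 0 b) y := by
  have : Fact (y ∈ Icc 0 b) := ⟨hy⟩
  exact intervalIntegral.integral_hasDerivWithinAt_right
    ((hK.mono (Icc_subset_Icc_right hy.2)).intervalIntegrable_of_Icc hy.1)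
    (hK.stronglyMeasurableAtFilter_nhdsWithin measurableSet_Icc y) (hK y hy)

theorem sing_ex {b : ℝ} (hb : 0 < b) {Q g h : ℝ → ℝ} (hQ : ContDiffOn ℝ ∞ Q (Icc 0 b))
    (hg : ContDiffOn ℝ ∞ g (Icc 0 b)) (hh : ContDiffOn ℝ ∞ h (Icc 0 b)) (u₀ : ℝ) :
    ∃ u, ContDiffOn ℝ ∞ u (Icc 0 b) ∧ u 0 = u₀ ∧ ∀ y ∈ Ioo 0 b,
      y * deriv (deriv u) y + 3 * deriv u y = y * Q y * deriv u y + g y * u y + h y := by
  have uq : UniqueDiffOn ℝ (Icc 0 b) := uniqueDiffOn_Icc hb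
  obtain ⟨P, hPe⟩ : ∃ P : ℝ → ℝ, P = fun y => g y - 3 * Q y - y * derivWithin Q (Icc 0 b) y :=
    ⟨_, rfl⟩
  have hP : ContDiffOn ℝ ∞ P (Icc 0 b) := by
    rw [hPe]
    exact (hg.sub (contDiffOn_const.mul hQ)).sub
      (contDiffOn_id.mul (hQ.derivWithin uq (by simp)))
  have le : ∀ k : ℕ, (k : WithTop ℕ∞) ≤ ∞ := fun k => by exact_mod_cast le_top
  have hF : ∀ (k : ℕ) (u : ℝ → ℝ), ContDiffOn ℝ k u (Icc 0 b) →
      ContDiffOn ℝ k (fun x => P x * u x + h x) (Icc 0 b) := fun k u hu =>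
    ((hP.of_le (le k)).mul hu).add (hh.of_le (le k))
  have hK : ∀ (k : ℕ) (u : ℝ → ℝ), ContDiffOn ℝ k u (Icc 0 b) →
      ContDiffOn ℝ k (fun y => Q y * u y + Avg (fun x => P x * u x + h x) y) (Icc 0 b) :=
    fun k u hu => ((hQ.of_le (le k)).mul hu).add (avg_smooth hb k (hF k u hu))
  have hF0 : ∀ u : ℝ → ℝ, ContinuousOn u (Icc 0 b) →
      ContinuousOn (fun x => P x * u x + h x) (Icc 0 b) := fun u hu =>
    (hP.continuousOn.mul hu).add hh.continuousOn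
  have hK0 : ∀ u : ℝ → ℝ, ContinuousOn u (Icc 0 b) →
      ContinuousOn (fun y => Q y * u y + Avg (fun x => P x * u x + h x) y) (Icc 0 b) :=
    fun u hu => (hK 0 u (contDiffOn_zero.2 hu)).continuousOn
  obtain ⟨CQ, hCQ⟩ := isCompact_Icc.exists_bound_of_continuousOn hQ.continuousOn
  obtain ⟨CP, hCP⟩ := isCompact_Icc.exists_bound_of_continuousOn hP.continuousOn
  have z0 : (0 : ℝ) ∈ Icc 0 b := ⟨le_rfl, hb.le⟩
  have q0 : 0 ≤ CQ := (norm_nonneg _).trans (hCQ 0 z0)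
  have p0 : 0 ≤ CP := (norm_nonneg _).trans (hCP 0 z0)
  obtain ⟨u, hu, he⟩ := volterra hb (add_nonneg q0 p0)
    (fun u y => Q y * u y + Avg (fun x => P x * u x + h x) y) hK0 (fun u u' hu hu' y hy M hM => by
      have h1 := avg_lip (hF0 u hu) (hF0 u' hu') hy (M := CP * M) fun x hx => by
        rw [add_sub_add_right_eq_sub, ← mul_sub, abs_mul]
        exact mul_le_mul (hCP x ⟨hx.1, hx.2.trans hy.2⟩) (hM x hx) (abs_nonneg _) p0
      have h2 : |Q y * u y - Q y * u' y| ≤ CQ * M := by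
        rw [← mul_sub, abs_mul]
        exact mul_le_mul (hCQ y hy) (hM y ⟨hy.1, le_rfl⟩) (abs_nonneg _) q0
      rw [add_sub_add_comm, add_mul]
      exact (abs_add_le _ _).trans (add_le_add h2 h1)) u₀
  have hd : ∀ y ∈ Icc 0 b, HasDerivWithinAt u
      (Q y * u y + Avg (fun x => P x * u x + h x) y) (Icc 0 b) y := fun y hy =>
    ((sing_ftc (hK0 u hu) hy).const_add u₀).congr_of_mem he hy
  have hs : ∀ k : ℕ, ContDiffOn ℝ k u (Icc 0 b) := fun k => by
    induction k with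
    | zero => exact contDiffOn_zero.2 hu
    | succ k ih =>
      rw [Nat.cast_succ, contDiffOn_succ_iff_derivWithin uq]
      exact ⟨fun y hy => (hd y hy).differentiableWithinAt, fun h => absurd h (by simp),
        (hK k u ih).congr fun y hy => (hd y hy).derivWithin (uq y hy)⟩
  refine ⟨u, contDiffOn_infty.2 hs, by simpa using he 0 z0, fun y hy => ?_⟩
  have hd' : ∀ y ∈ Ioo 0 b, HasDerivAt u (Q y * u y + Avg (fun x => P x * u x + h x) y) y :=
    fun y hy => (hd y (Ioo_subset_Icc_self hy)).hasDerivAt (Icc_mem_nhds hy.1 hy.2)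
  have dQ : HasDerivAt Q (derivWithin Q (Icc 0 b) y) y :=
    ((hQ.differentiableOn (by simp)) y (Ioo_subset_Icc_self hy)).hasDerivWithinAt.hasDerivAt
      (Icc_mem_nhds hy.1 hy.2)
  have d2 := ((dQ.fun_mul (hd' y hy)).fun_add (avg_deriv (hF0 u hu) hy)).congr_of_eventuallyEq
    (f₁ := deriv u) (mem_of_superset (Ioo_mem_nhds hy.1 hy.2) fun z hz => (hd' z hz).deriv)
  rw [d2.deriv, (hd' y hy).deriv]
  have e : P y = g y - 3 * Q y - y * derivWithin Q (Icc 0 b) y := by rw [hPe]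
  have y0 := hy.1.ne'
  rw [e]
  field_simp
  ring

end Vale.Agent.P244.X
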