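import Vale.Agent.P244.X.Ode

/-!
Block X: existence of the time discrete solution.
`tri_ex`: `B y = ∫ z in 1..y, F z`, `F = -2 w (4 A'² + 5 β'²)`; derivative within `[0, 1]` by
the fundamental theorem of calculus (e.g. extend `F` continuously by `projIcc`, or
`intervalIntegral.integral_hasDerivWithinAt_right`), smooth by `contDiffOn_infty_iff_derivWithin`.
`chain_ex`: recursion on the subtype of triples satisfying `Tri` (`lin_solve` twice, `tri_ex`,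
`choose`, `Nat.rec` or `Function.iterate`).
-/

namespace Vale.Agent.P244.X

open scoped ContDiff Topology
open Set Filter

theorem StepEx_prim {F : ℝ → ℝ} (hF : S F) :
    ∃ B, S B ∧ (∀ y ∈ Icc (0 : ℝ) 1, D B y = F y) ∧ B 1 = 0 := by
  have hd : ∀ y ∈ Icc (0 : ℝ) 1,
      HasDerivWithinAt (fun u => ∫ z in (1 : ℝ)..u, F z) (F y) (Icc 0 1) y := by
    intro y hy
    have : Fact (y ∈ Icc (0 : ℝ) 1) := ⟨hy⟩
    refine intervalIntegral.integral_hasDerivWithinAt_right (t := Icc 0 1) ?_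
      (hF.cont.stronglyMeasurableAtFilter_nhdsWithin measurableSet_Icc y) (hF.cont y hy)
    refine (hF.cont.mono ?_).intervalIntegrable
    rw [uIcc_of_ge hy.2]
    exact Icc_subset_Icc_left hy.1
  refine ⟨fun u => ∫ z in (1 : ℝ)..u, F z, ?_, fun y hy => D_eq hy (hd y hy),
    intervalIntegral.integral_same⟩
  exact (contDiffOn_infty_iff_derivWithin uJ).2 ⟨fun y hy => (hd y hy).differentiableWithinAt,
    hF.congr fun y hy => D_eq hy (hd y hy)⟩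

theorem tri_ex {A β : ℝ → ℝ} (hA : S A) (hβ : S β) : ∃ B, Tri A β B := by
  obtain ⟨B, h1, h2, h3⟩ := StepEx_prim
    ((hA.w.cmul (-2)).mul (((hA.D.pow 2).cmul 4).add ((hβ.D.pow 2).cmul 5)))
  exact ⟨B, hA, hβ, h1, h2, h3⟩

theorem StepEx_step {s : ℝ} (hs : 0 < s) {A β B : ℝ → ℝ} (h : Tri A β B) :
    ∃ A₁ β₁ B₁, Tri A₁ β₁ B₁ ∧ Step s A β B A₁ β₁ := by
  obtain ⟨A₁, a1, a2⟩ := lin_solve hs h.sA h.sB (h.sA.add ((h.sA.fA h.sB).cmul s))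
  obtain ⟨β₁, b1, b2⟩ := lin_solve hs h.sA h.sB (h.sβ.add (h.sβ.fB.cmul s))
  obtain ⟨B₁, c⟩ := tri_ex a1 b1
  exact ⟨A₁, β₁, B₁, c, a1, b1, a2, b2⟩

theorem chain_ex {s : ℝ} (hs : 0 < s) {a b : ℝ → ℝ} (ha : S a) (hb : S b) :
    ∃ A β B : ℕ → ℝ → ℝ, Chain s A β B ∧ A 0 = a ∧ β 0 = b := by
  obtain ⟨B₀, h₀⟩ := tri_ex ha hb
  have ex : ∀ p : {p : (ℝ → ℝ) × (ℝ → ℝ) × (ℝ → ℝ) // Tri p.1 p.2.1 p.2.2},
      ∃ q : {p : (ℝ → ℝ) × (ℝ → ℝ) × (ℝ → ℝ) // Tri p.1 p.2.1 p.2.2},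
        Step s p.1.1 p.1.2.1 p.1.2.2 q.1.1 q.1.2.1 := fun p => by
    obtain ⟨A₁, β₁, B₁, h1, h2⟩ := StepEx_step hs p.2
    exact ⟨⟨(A₁, β₁, B₁), h1⟩, h2⟩
  choose F hF using ex
  refine ⟨fun k => (F^[k] ⟨(a, b, B₀), h₀⟩).1.1, fun k => (F^[k] ⟨(a, b, B₀), h₀⟩).1.2.1,
    fun k => (F^[k] ⟨(a, b, B₀), h₀⟩).1.2.2, fun k => ⟨(F^[k] ⟨(a, b, B₀), h₀⟩).2, ?_⟩, rfl, rfl⟩
  simp only [Function.iterate_succ_apply']
  exact hF _

end Vale.Agent.P244.X
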