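import Vale.Agent.P244.X.Lim
import Vale.Agent.P244.X.Interp
import Vale.Agent.P244.X.ChainBd
import Vale.Agent.P244.X.StepEx

/-!
Block X: local existence.  `δ`, `K` from `chain_two N`; `s n = 1 / (n + 1)`, chains from
`chain_ex`, `A n t = A n ⌊t / s n⌋₊`, `U = Filter.hyperfilter ℕ` (`Nat.hyperfilter_le_atTop`),
`ε = s`.  `chain_all` (eventually `s n ≤ s₀`), `interp_lip`, `interp_cons`, `lim_sol`; the data
and the `C²` bound pass to the limit (`TendstoUniformlyOn.tendsto_at`, `tendsto_nhds_unique`,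
`le_of_tendsto`).
-/

namespace Vale.Agent.P244.X

open scoped ContDiff Topology
open Set Filter

theorem x_start (N : ℝ) : ∃ δ, 0 < δ ∧ ∃ N', ∀ a b : ℝ → ℝ, S a → S b → Bd 2 a N → Bd 2 b N →
    ∃ A β B : Fn, IsSol (Icc 0 δ) A β B ∧ EqOn (A 0) a (Icc 0 1) ∧ EqOn (β 0) b (Icc 0 1) ∧
      ∀ t ∈ Icc 0 δ, Bd 2 (A t) N' ∧ Bd 2 (β t) N' := by
  obtain ⟨δ, δ0, K, H⟩ := chain_two N
  refine ⟨δ, δ0, K, fun a b ha hb hA hB => ?_⟩
  have s0 : ∀ n : ℕ, (0:ℝ) < 1 / (n + 1) := fun n => by positivity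
  choose A β B hC h1 h2 using fun n : ℕ => chain_ex (s0 n) ha hb
  have h3 := fun n => H _ _ _ _ (s0 n) (hC n) (h1 n ▸ hA) (h2 n ▸ hB)
  have hε : Tendsto (fun n : ℕ => (1:ℝ) / (n + 1)) (hyperfilter ℕ) (𝓝 0) :=
    tendsto_one_div_add_atTop_nhds_zero_nat.mono_left Nat.hyperfilter_le_atTop
  have fl : ∀ n : ℕ, ∀ t ∈ Icc 0 δ, ⌊t / (1 / (n + 1))⌋₊ * (1 / (n + 1) : ℝ) ≤ δ := fun n t ht =>
    ((le_div_iff₀ (s0 n)).1 (Nat.floor_le (div_nonneg ht.1 (s0 n).le))).trans ht.2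
  have h4 : ∀ m, ∃ C, ∀ᶠ n : ℕ in (hyperfilter ℕ : Filter ℕ), ∀ k : ℕ, k * (1 / (n + 1) : ℝ) ≤ δ →
      Bd m (A n k) C ∧ Bd m (β n k) C := fun m => by
    obtain ⟨s₀, h0, C, h⟩ := chain_all δ K ha hb m
    exact ⟨C, (hε.eventually (ge_mem_nhds h0)).mono fun n hn =>
      h _ _ _ _ (s0 n) hn (hC n) (h1 n) (h2 n) (h3 n)⟩
  obtain ⟨A', β', B', hS, hU⟩ := lim_sol δ0 (hyperfilter ℕ)
    (A := fun n t => A n ⌊t / (1 / (n + 1))⌋₊) (β := fun n t => β n ⌊t / (1 / (n + 1))⌋₊)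
    (B := fun n t => B n ⌊t / (1 / (n + 1))⌋₊) hε (fun n t _ => (hC n _).1) (fun m => by
      obtain ⟨C, h⟩ := h4 (m + 2)
      obtain ⟨C', -, h'⟩ := interp_lip m C
      refine ⟨max C C', h.mono fun n hn t ht => ⟨((hn _ (fl n t ht)).1.of_le (by omega)).mono
        (le_max_left _ _), ((hn _ (fl n t ht)).2.of_le (by omega)).mono (le_max_left _ _),
        fun r hr => ?_⟩⟩
      have e := mul_le_mul_of_nonneg_right (le_max_right C C')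
        (add_nonneg (abs_nonneg (t - r)) (s0 n).le)
      exact (h' δ _ _ _ _ (s0 n) (hC n) hn t ht r hr).imp (fun h => h.mono e) fun h => h.mono e) (by
      obtain ⟨C, h⟩ := h4 4
      obtain ⟨C', -, h'⟩ := interp_cons C
      exact ⟨C', h.mono fun n hn => h' δ _ _ _ _ (s0 n) (div_le_self zero_le_one (by simp))
        (hC n) hn⟩)
  have z : (0:ℝ) ∈ Icc 0 δ := ⟨le_rfl, δ0.le⟩
  refine ⟨A', β', B', hS, fun y hy => ?_, fun y hy => ?_, fun t ht =>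
    ⟨fun i hi y hy => ?_, fun i hi y hy => ?_⟩⟩
  · refine tendsto_nhds_unique ((hU 0).1.tendsto_at (x := (0, y)) ⟨z, hy⟩) ?_
    simp [h1]
  · refine tendsto_nhds_unique ((hU 0).2.tendsto_at (x := (0, y)) ⟨z, hy⟩) ?_
    simp [h2]
  · exact le_of_tendsto' ((hU i).1.tendsto_at (x := (t, y)) ⟨ht, hy⟩).abs
      fun n => (h3 n _ (fl n t ht)).1 i hi y hy
  · exact le_of_tendsto' ((hU i).2.tendsto_at (x := (t, y)) ⟨ht, hy⟩).abs
      fun n => (h3 n _ (fl n t ht)).2 i hi y hy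

end Vale.Agent.P244.X
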