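import Vale.Agent.P244.X.MP
import Vale.Agent.P244.X.Coef

/-!
Block X: norm growth in one implicit step.
`lin_est`: `S.bd_max` gives `(i, y)` with `N' = |D^[i] u y|` the norm; `y` is a maximum or a
minimum of `D^[i] u`; `D^[i] u y = D^[i] φ y + s D^[i] (Lop ..) y` (`iter_congr`, `iter_sub`,
`iter_cmul`), `mp_max`/`mp_min` give `N' ≤ P + s (c N' + e)`, so `N' ≤ P + 2 s (c P + e)`.
`step_two`: `C₀` from `coef_bd 1 K`, `G_bd`, `c = 8 C₀`, `e = 0`, `P = N + s C₀`,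
`C = C₀ + 16 C₀ (|K| + 1) + 1`.
`step_tame`: `m = n + 1`, `coef_bd n K`, `coef_tame n K`, `G_tame`, `c = 2^(m+2) Ka`,
`e = 2^(m+2) C₁ (1 + M) K`, `P = M + s C₁ (1 + M)`.
-/

namespace Vale.Agent.P244.X

open scoped ContDiff Topology
open Set Filter

theorem lin_est {m : ℕ} {A B u φ : ℝ → ℝ} {s P c e : ℝ} (hA : S A) (hB : S B) (hu : S u)
    (hφ : S φ) (hs : 0 ≤ s) (hc : 0 ≤ c) (he : 0 ≤ e) (hsc : s * c ≤ 1 / 2)
    (eq : ∀ y ∈ Icc (0 : ℝ) 1, u y - s * Lop A B u y = φ y) (hP : Bd m φ P)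
    (hG : ∀ M, Bd m u M → ∀ i ≤ m, ∀ y ∈ Icc (0 : ℝ) 1,
      |G i (a2 A) (a1 A B) u y| ≤ c * M + e) :
    Bd m u (P + 2 * s * (c * P + e)) := by
  obtain ⟨i, hi, y, hy, hb⟩ := hu.bd_max m
  have hL := hA.Lop hB hu
  have e1 : D^[i] u y - s * D^[i] (Lop A B u) y = D^[i] φ y := by
    rw [← iter_cmul hL s i hy, ← iter_sub hu (hL.cmul s) i hy]
    exact iter_congr eq i hy
  have g := abs_le.1 (hG _ hb i hi y hy)
  have p := abs_le.1 (hP i hi y hy)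
  have key : |D^[i] u y| ≤ P + s * (c * |D^[i] u y| + e) := by
    rcases le_total 0 (D^[i] u y) with h0 | h0
    · have := mul_le_mul_of_nonneg_left ((mp_max (B := B) hA hu i hy fun z hz =>
        (le_abs_self _).trans ((hb i hi z hz).trans_eq (abs_of_nonneg h0))).trans g.2) hs
      linarith [abs_of_nonneg h0]
    · have := mul_le_mul_of_nonneg_left (g.1.trans (mp_min (B := B) hA hu i hy fun z hz => by
        have := (abs_le.1 (hb i hi z hz)).1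
        rwa [abs_of_nonpos h0, neg_neg] at this)) hs
      linarith [abs_of_nonpos h0]
  refine hb.mono ?_
  have h0 := abs_nonneg (D^[i] u y)
  generalize |D^[i] u y| = N at key h0
  have h1 := mul_le_mul_of_nonneg_right hsc h0
  have h2 : N ≤ 2 * (P + s * e) := by linarith
  have h3 := mul_le_mul_of_nonneg_left h2 (mul_nonneg hs hc)
  have h4 := mul_le_mul_of_nonneg_right hsc (mul_nonneg hs he)
  linarith

theorem StepEst_src {m : ℕ} {f g : ℝ → ℝ} {s N C : ℝ} (hs : 0 < s) (hf : S f) (hg : S g)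
    (h : Bd m f N) (h' : Bd m g C) : Bd m (fun y => f y + s * g y) (N + s * C) := by
  have := h.add (h'.cmul hg s) hf (hg.cmul s)
  rwa [abs_of_pos hs] at this

theorem step_two (K : ℝ) : ∃ C, 0 < C ∧ ∀ s N A β B A₁ β₁, 0 < s → s * C ≤ 1 → N ≤ K →
    Tri A β B → Step s A β B A₁ β₁ → Bd 2 A N → Bd 2 β N →
    Bd 2 A₁ (N + s * C) ∧ Bd 2 β₁ (N + s * C) := by
  obtain ⟨C₀, c0, hC⟩ := coef_bd 1 K
  refine ⟨C₀ + 16 * C₀ * (|K| + 1) + 1, by positivity,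
    fun s N A β B A₁ β₁ hs hsC hN T St bA bβ => ?_⟩
  obtain ⟨k2, k1, kA, kB, -⟩ := hC A β B T (bA.mono hN) (bβ.mono hN)
  have q1 : 0 ≤ s * C₀ := by positivity
  have q2 : 0 ≤ s * C₀ * |K| := by positivity
  have key : ∀ u φ : ℝ → ℝ, S u → S φ →
      (∀ y ∈ Icc (0 : ℝ) 1, u y - s * Lop A B u y = φ y) → Bd 2 φ (N + s * C₀) →
      Bd 2 u (N + s * (C₀ + 16 * C₀ * (|K| + 1) + 1)) := by
    intro u φ hu hφ eq hP
    refine (lin_est (c := 8 * C₀) (e := 0) T.sA T.sB hu hφ hs.le (by positivity) le_rfl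
      (by linarith) eq hP fun M hM i hi y hy => ?_).mono ?_
    · exact (G_bd T.sA.a2 (T.sA.a1 T.sB) hu hy hi k2 k1 hM).trans_eq (by ring)
    · have h1 : N + s * C₀ ≤ |K| + 1 := by linarith [le_abs_self K]
      have h2 := mul_le_mul_of_nonneg_left h1 q1
      linarith
  exact ⟨key _ _ St.sA (T.sA.add ((T.sA.fA T.sB).cmul s)) St.eqA
      (StepEst_src hs T.sA (T.sA.fA T.sB) bA kA),
    key _ _ St.sβ (T.sβ.add (T.sβ.fB.cmul s)) St.eqβ (StepEst_src hs T.sβ T.sβ.fB bβ kB)⟩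

theorem step_tame {m : ℕ} (hm : 2 ≤ m) (K : ℝ) : ∃ C, 0 < C ∧ ∀ s M A β B A₁ β₁, 0 < s →
    s * C ≤ 1 → Tri A β B → Step s A β B A₁ β₁ → Bd m A K → Bd m β K → Bd m A₁ K →
    Bd m β₁ K → Bd (m + 1) A M → Bd (m + 1) β M →
    Bd (m + 1) A₁ (M + s * C * (1 + M)) ∧ Bd (m + 1) β₁ (M + s * C * (1 + M)) := by
  obtain ⟨n, rfl⟩ : ∃ n, m = n + 1 := ⟨m - 1, by omega⟩
  obtain ⟨C₀, c0, hC⟩ := coef_bd n K
  obtain ⟨C₁, c1, hC'⟩ := coef_tame n K
  obtain ⟨t, ht⟩ : ∃ t : ℝ, t = 2 ^ (n + 1 + 2) := ⟨_, rfl⟩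
  have t0 : 0 < t := by rw [ht]; positivity
  refine ⟨C₁ + 4 * (t * C₀) + 2 * (t * C₁ * |K|) + 1, by positivity,
    fun s M A β B A₁ β₁ hs hsC T St bA bβ bA₁ bβ₁ mA mβ => ?_⟩
  obtain ⟨k2, k1, -⟩ := hC A β B T bA bβ
  obtain ⟨l2, l1, lA, lB⟩ := hC' A β B M T bA bβ mA mβ
  have M0 := mA.nonneg
  have K0 := bA.nonneg
  rw [abs_of_nonneg K0] at hsC ⊢
  have q1 : 0 ≤ s * C₁ := by positivity
  have q2 : 0 ≤ s * (t * C₀) := by positivity
  have q3 : 0 ≤ s * (t * C₁ * K) := by positivity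
  have key : ∀ u φ : ℝ → ℝ, S u → S φ → Bd (n + 1) u K →
      (∀ y ∈ Icc (0 : ℝ) 1, u y - s * Lop A B u y = φ y) →
      Bd (n + 1 + 1) φ (M + s * (C₁ * (1 + M))) →
      Bd (n + 1 + 1) u (M + s * (C₁ + 4 * (t * C₀) + 2 * (t * C₁ * K) + 1) * (1 + M)) := by
    intro u φ hu hφ ku eq hP
    refine (lin_est (c := t * C₀) (e := t * (C₁ * (1 + M) * K)) T.sA T.sB hu hφ hs.le
      (by positivity) (by positivity) (by linarith) eq hP fun M' hM i hi y hy => ?_).mono ?_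
    · refine (G_tame T.sA.a2 (T.sA.a1 T.sB) hu hy hm hi k2 k1 ku l2 l1 hM).trans_eq ?_
      rw [← ht]
      ring
    · have h0 : s * C₁ * (1 + M) ≤ 1 * (1 + M) :=
        mul_le_mul_of_nonneg_right (by linarith) (by linarith)
      have h1 : M + s * (C₁ * (1 + M)) ≤ 2 * (1 + M) := by linarith
      have h2 := mul_le_mul_of_nonneg_left h1 q2
      have h3 : 0 ≤ s * (1 + M) := by positivity
      linarith
  exact ⟨key _ _ St.sA (T.sA.add ((T.sA.fA T.sB).cmul s)) bA₁ St.eqA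
      (StepEst_src hs T.sA (T.sA.fA T.sB) mA lA),
    key _ _ St.sβ (T.sβ.add (T.sβ.fB.cmul s)) bβ₁ St.eqβ (StepEst_src hs T.sβ T.sβ.fB mβ lB)⟩

end Vale.Agent.P244.X
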