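import Vale.Agent.P244.X.Calc

/-!
Block X: product and exponential bounds.
`bd_mul`, `bd_mul_tame`: `iter_mul` and `Nat.sum_range_choose`; in the tame version a term
`D^[j] f * D^[i-j] g` (`i ≤ m + 1`) is at most `K * M'` if `j ≤ m` and `M * K'` if `j = m + 1`.
`bd_w`: induction on `m` with `bd_succ`, `D_w`, `bd_mul`.  `bd_w_tame`: `bd_succ`, `D_w`,
`bd_mul m` applied to `D f` (bound `M`) and the exponential (bound from `bd_w`).
`bd_v`, `bd_c`: `D v = c`, `D c = -2`, `D (-2) = 0` on `[0, 1]` (use `bd_succ`, `Bd.congr`).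
-/

namespace Vale.Agent.P244.X

open scoped ContDiff Topology
open Set Filter

variable {f g : ℝ → ℝ} {m : ℕ}

theorem bd_const (m : ℕ) (c : ℝ) : Bd m (fun _ => c) |c| := by
  induction m generalizing c with
  | zero => exact bd_zero fun _ _ => le_rfl
  | succ m ih =>
    refine bd_succ (fun _ _ => le_rfl) (((ih 0).congr fun y hy => D_const c hy).mono ?_)
    rw [abs_zero]
    exact abs_nonneg c

theorem bd_c (m : ℕ) : Bd m (fun y => 1 - 2 * y) 2 := by
  refine Bd.of_le (bd_succ (m := m) (fun y hy => ?_) ?_) (Nat.le_succ m)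
  · rw [abs_le]
    constructor <;> linarith [hy.1, hy.2]
  · refine ((bd_const m (-2)).congr fun y hy => ?_).mono (by norm_num)
    rw [D_sub (S.const 1) (S.id.cmul 2) hy, D_const 1 hy, D_cmul S.id 2 hy, D_id hy]
    norm_num

theorem bd_v (m : ℕ) : Bd m (fun y => y * (1 - y)) 2 := by
  refine Bd.of_le (bd_succ (m := m) (fun y hy => ?_) ?_) (Nat.le_succ m)
  · rw [abs_le]
    constructor <;> nlinarith [hy.1, hy.2]
  · refine (bd_c m).congr fun y hy => ?_
    rw [D_mul S.id ((S.const 1).sub S.id) hy, D_sub (S.const 1) S.id hy, D_const 1 hy, D_id hy]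
    ring

theorem Tame_sum {T y : ℝ} (hf : S f) (hg : S g) {i : ℕ} (hi : i ≤ m) (hy : y ∈ Icc (0 : ℝ) 1)
    (h : ∀ j ≤ i, |D^[j] f y| * |D^[i - j] g y| ≤ T) :
    |D^[i] (fun z => f z * g z) y| ≤ 2 ^ m * T := by
  have hT : 0 ≤ T := (mul_nonneg (abs_nonneg _) (abs_nonneg _)).trans (h 0 (Nat.zero_le _))
  rw [iter_mul hf hg i hy]
  refine (Finset.abs_sum_le_sum_abs _ _).trans ((Finset.sum_le_sum (g := fun j =>
    (i.choose j : ℝ) * T) fun j hj => ?_).trans ?_)
  · rw [mul_assoc, abs_mul, abs_mul, Nat.abs_cast]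
    exact mul_le_mul_of_nonneg_left (h j (Nat.lt_succ_iff.1 (Finset.mem_range.1 hj)))
      (Nat.cast_nonneg _)
  · rw [← Finset.sum_mul, ← Nat.cast_sum, Nat.sum_range_choose]
    refine mul_le_mul_of_nonneg_right ?_ hT
    push_cast
    exact pow_le_pow_right₀ one_le_two hi

theorem bd_mul {M M' : ℝ} (hf : S f) (hg : S g) (h : Bd m f M) (h' : Bd m g M') :
    Bd m (fun y => f y * g y) (2 ^ m * M * M') := by
  intro i hi y hy
  rw [mul_assoc]
  exact Tame_sum hf hg hi hy fun j hj =>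
    mul_le_mul (h j (hj.trans hi) y hy) (h' _ (by omega) y hy) (abs_nonneg _) h.nonneg

theorem bd_mul_tame {K K' M M' : ℝ} (hf : S f) (hg : S g) (k : Bd m f K) (k' : Bd m g K')
    (h : Bd (m + 1) f M) (h' : Bd (m + 1) g M') :
    Bd (m + 1) (fun y => f y * g y) (2 ^ (m + 1) * (K * M' + M * K')) := by
  intro i hi y hy
  refine Tame_sum hf hg hi hy fun j hj => ?_
  rcases le_or_gt j m with hm | hm
  · exact (mul_le_mul (k j hm y hy) (h' _ (by omega) y hy) (abs_nonneg _) k.nonneg).trans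
      (le_add_of_nonneg_right (mul_nonneg h.nonneg k'.nonneg))
  · exact (mul_le_mul (h j (hj.trans hi) y hy) (k' _ (by omega) y hy) (abs_nonneg _)
      h.nonneg).trans (le_add_of_nonneg_left (mul_nonneg k.nonneg h'.nonneg))

theorem Tame_zero {K y : ℝ} (h : Bd m f K) (hy : y ∈ Icc (0 : ℝ) 1) :
    |Real.exp (-2 * f y)| ≤ Real.exp (2 * K) := by
  rw [abs_of_pos (Real.exp_pos _)]
  exact Real.exp_le_exp.2 (by linarith [(abs_le.1 (h.zero hy)).1])

theorem Tame_step {M C : ℝ} (hf : S f) (h : Bd (m + 1) f M)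
    (hw : Bd m (fun y => Real.exp (-2 * f y)) C) :
    Bd m (D fun y => Real.exp (-2 * f y)) (2 * 2 ^ m * C * M) := by
  refine (((bd_mul hf.D hf.w h.D hw).cmul (hf.D.mul hf.w) (-2)).congr fun y hy => ?_).mono
    (le_of_eq ?_)
  · rw [D_w hf hy, mul_assoc]
  · rw [abs_neg, abs_two]
    ring

theorem bd_w (m : ℕ) (K : ℝ) : ∃ C, 0 ≤ C ∧ ∀ f, S f → Bd m f K →
    Bd m (fun y => Real.exp (-2 * f y)) C := by
  induction m with
  | zero => exact ⟨_, (Real.exp_pos _).le, fun f _ h => bd_zero fun y hy => Tame_zero h hy⟩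
  | succ m ih =>
    obtain ⟨C, hC, h⟩ := ih
    refine ⟨Real.exp (2 * K) + 2 * 2 ^ m * C * |K|, by positivity, fun f hf hK => ?_⟩
    refine bd_succ (fun y hy => (Tame_zero hK hy).trans (le_add_of_nonneg_right (by positivity)))
      ((Tame_step hf (hK.mono (le_abs_self K)) (h f hf (hK.of_le (Nat.le_succ m)))).mono
        (le_add_of_nonneg_left (Real.exp_pos _).le))

theorem bd_w_tame (m : ℕ) (K : ℝ) : ∃ C, 0 ≤ C ∧ ∀ f M, S f → Bd m f K → Bd (m + 1) f M →
    Bd (m + 1) (fun y => Real.exp (-2 * f y)) (C * (1 + M)) := by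
  obtain ⟨C, hC, h⟩ := bd_w m K
  refine ⟨Real.exp (2 * K) + 2 * 2 ^ m * C, by positivity, fun f M hf hK hM => ?_⟩
  have h0 := hM.nonneg
  have h1 := Real.exp_pos (2 * K)
  have h2 : 0 ≤ 2 * 2 ^ m * C := by positivity
  refine bd_succ (fun y hy => (Tame_zero hK hy).trans ?_) ((Tame_step hf hM (h f hf hK)).mono ?_)
  · nlinarith [mul_nonneg h2 h0, mul_nonneg h1.le h0]
  · nlinarith [mul_nonneg h1.le h0]

end Vale.Agent.P244.X
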