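import Vale.Agent.P244.X.Calc

/-!
Block X: limits along an ultrafilter.
`tower_lim`: `g m y` is the limit of `D^[m] (f n) y` (`IsCompact.ultrafilter_le_nhds` on
`Icc (-C) C` for `U.map ..`, `choose`).  Taylor: `|f_m z - f_m y - (z - y) f_{m+1} y| ≤ C (z - y)²`
(mean value inequality for `z ↦ f_m z - z f_{m+1} y` on `uIcc y z`, `S.lip`), pass to the limit
(`le_of_tendsto`), `taylor_deriv`.  Then `D^[m] (g 0) = g m` on `[0, 1]` (induction, `D_congr`,
`D_eq`), and all `g m` are `C^k` by induction on `k` (`contDiffOn_succ_iff_derivWithin`).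
`unif_of_lip`: the limit is `C`-Lipschitz (`le_of_tendsto`); finite `η`-net of the compact set
(`IsCompact.finite_cover_balls` or `Metric.totallyBounded_iff`), `Filter.eventually_all_finite`.
`taylor_deriv`: `hasDerivWithinAt_iff_isLittleO`.  `taylor_deriv'`: for `s ≤ t` add
`|t - s| |F s - F t|`.
-/

namespace Vale.Agent.P244.X

open scoped ContDiff Topology
open Set Filter

theorem tower_aux {I : Set ℝ} {u F : ℝ → ℝ} {t C : ℝ} (hF : ContinuousWithinAt F I t)
    (h : ∀ s ∈ I, |u s - u t - (s - t) * F t| ≤ C * (s - t) ^ 2 + |s - t| * |F s - F t|) :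
    HasDerivWithinAt u (F t) I t := by
  rw [hasDerivWithinAt_iff_isLittleO]
  refine Asymptotics.IsLittleO.of_bound fun c hc => ?_
  have h1 : Tendsto (fun s => C * |s - t| + |F s - F t|) (𝓝[I] t)
      (𝓝 (C * |t - t| + |F t - F t|)) :=
    ((((continuous_id.sub continuous_const).abs.tendsto t).mono_left nhdsWithin_le_nhds).const_mul
      C).add (hF.tendsto.sub_const (F t)).abs
  simp only [sub_self, abs_zero, mul_zero, add_zero] at h1
  filter_upwards [h1.eventually (gt_mem_nhds hc), self_mem_nhdsWithin] with s h2 hs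
  rw [Real.norm_eq_abs, Real.norm_eq_abs, smul_eq_mul]
  refine (h s hs).trans ?_
  rw [← sq_abs (s - t)]
  nlinarith [mul_le_mul_of_nonneg_right h2.le (abs_nonneg (s - t))]

theorem taylor_deriv {I : Set ℝ} {u : ℝ → ℝ} {d t C : ℝ}
    (h : ∀ s ∈ I, |u s - u t - (s - t) * d| ≤ C * (s - t) ^ 2) : HasDerivWithinAt u d I t := by
  refine tower_aux (F := fun _ => d) (C := C) continuousWithinAt_const fun s hs => ?_
  simpa only [sub_self, abs_zero, mul_zero, add_zero] using h s hs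

theorem taylor_deriv' {I : Set ℝ} {u F : ℝ → ℝ} {C : ℝ} (hF : ContinuousOn F I)
    (h : ∀ t ∈ I, ∀ r ∈ I, r ≤ t → |u t - u r - (t - r) * F r| ≤ C * (t - r) ^ 2) :
    ∀ t ∈ I, HasDerivWithinAt u (F t) I t := by
  intro t ht
  refine tower_aux (C := C) (hF t ht) fun s hs => ?_
  rcases le_total s t with hst | hst
  · have h1 := h t ht s hs hst
    have e : u s - u t - (s - t) * F t =
        -(u t - u s - (t - s) * F s) + (s - t) * (F s - F t) := by ring
    have e2 : (t - s) ^ 2 = (s - t) ^ 2 := by ring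
    rw [e]
    refine (abs_add_le _ _).trans ?_
    rw [abs_neg, abs_mul, ← e2]
    linarith
  · have h1 := h s hs t ht hst
    have := mul_nonneg (abs_nonneg (s - t)) (abs_nonneg (F s - F t))
    linarith

theorem tower_taylor {f : ℝ → ℝ} (hf : S f) {C y z : ℝ}
    (h : ∀ x ∈ Icc (0 : ℝ) 1, |D (D f) x| ≤ C) (hy : y ∈ Icc (0 : ℝ) 1) (hz : z ∈ Icc (0 : ℝ) 1) :
    |f z - f y - (z - y) * D f y| ≤ C * (z - y) ^ 2 := by
  have hsub : uIcc y z ⊆ Icc 0 1 := uIcc_subset_Icc hy hz
  have hC : 0 ≤ C := (abs_nonneg _).trans (h y hy)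
  have h1 := (convex_uIcc y z).norm_image_sub_le_of_norm_hasDerivWithin_le
    (f := fun x => f x - x * D f y) (f' := fun x => D f x - 1 * D f y) (C := C * |z - y|)
    (fun x hx => ((hf.hasD (hsub hx)).mono hsub).sub
      ((hasDerivWithinAt_id x _).mul_const _))
    (fun x hx => by
      rw [Real.norm_eq_abs, one_mul]
      exact (hf.D.lip h hy (hsub hx)).trans
        (mul_le_mul_of_nonneg_left (abs_sub_left_of_mem_uIcc hx) hC))
    left_mem_uIcc right_mem_uIcc
  rw [Real.norm_eq_abs, Real.norm_eq_abs, mul_assoc, abs_mul_abs_self] at h1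
  have e : f z - f y - (z - y) * D f y = f z - z * D f y - (f y - y * D f y) := by ring
  rw [e, sq]
  exact h1

theorem tower_lim (U : Ultrafilter ℕ) {f : ℕ → ℝ → ℝ} (hf : ∀ n, S (f n))
    (hb : ∀ m, ∃ C, ∀ᶠ n in (U : Filter ℕ), Bd m (f n) C) :
    ∃ g, S g ∧ ∀ m, ∀ y ∈ Icc (0 : ℝ) 1,
      Tendsto (fun n => D^[m] (f n) y) U (𝓝 (D^[m] g y)) := by
  have hlim : ∀ m, ∀ y ∈ Icc (0 : ℝ) 1, ∃ c, Tendsto (fun n => D^[m] (f n) y) U (𝓝 c) := by
    intro m y hy
    obtain ⟨C, hC⟩ := hb m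
    have h1 : ((U.map fun n => D^[m] (f n) y : Ultrafilter ℝ) : Filter ℝ) ≤ 𝓟 (Icc (-C) C) := by
      rw [le_principal_iff, Ultrafilter.coe_map, mem_map]
      filter_upwards [hC] with n hn
      exact abs_le.1 (hn m le_rfl y hy)
    obtain ⟨c, -, hc⟩ := isCompact_Icc.ultrafilter_le_nhds _ h1
    exact ⟨c, hc⟩
  choose! g hg using hlim
  have hd : ∀ m, ∀ y ∈ Icc (0 : ℝ) 1, HasDerivWithinAt (g m) (g (m + 1) y) (Icc 0 1) y := by
    intro m y hy
    obtain ⟨C, hC⟩ := hb (m + 2)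
    refine taylor_deriv (C := C) fun z hz => ?_
    refine le_of_tendsto (((hg m z hz).sub (hg m y hy)).sub
      ((hg (m + 1) y hy).const_mul (z - y))).abs ?_
    filter_upwards [hC] with n hn
    rw [iter_succ']
    refine tower_taylor ((hf n).iter m) (fun x hx => ?_) hy hz
    rw [← iter_succ', ← iter_succ']
    exact hn (m + 2) le_rfl x hx
  have he : ∀ m, EqOn (D^[m] (g 0)) (g m) (Icc 0 1) := by
    intro m
    induction m with
    | zero => exact fun _ _ => rfl
    | succ m ih =>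
      intro y hy
      rw [iter_succ', D_congr ih hy]
      exact D_eq hy (hd m y hy)
  have hs : ∀ k : ℕ, ∀ m, ContDiffOn ℝ k (g m) (Icc 0 1) := by
    intro k
    induction k with
    | zero => exact fun m => contDiffOn_zero.2 fun y hy => (hd m y hy).continuousWithinAt
    | succ k ih =>
      intro m
      rw [Nat.cast_succ, contDiffOn_succ_iff_derivWithin uJ]
      refine ⟨fun y hy => (hd m y hy).differentiableWithinAt, by simp, ?_⟩
      exact (ih (m + 1)).congr fun y hy => D_eq hy (hd m y hy)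
  refine ⟨g 0, contDiffOn_infty.2 fun k => hs k 0, fun m y hy => ?_⟩
  rw [he m hy]
  exact hg m y hy

theorem unif_of_lip {l : Filter ℕ} [l.NeBot] {K : Set (ℝ × ℝ)} (hK : IsCompact K)
    {f : ℕ → ℝ × ℝ → ℝ} {g : ℝ × ℝ → ℝ} {ε : ℕ → ℝ} {C : ℝ} (hε : Tendsto ε l (𝓝 0))
    (hp : ∀ p ∈ K, Tendsto (fun n => f n p) l (𝓝 (g p)))
    (hl : ∀ᶠ n in l, ∀ p ∈ K, ∀ q ∈ K, |f n p - f n q| ≤ C * (dist p q + ε n)) :
    TendstoUniformlyOn f g l K ∧ ContinuousOn g K := by
  have hg : ∀ p ∈ K, ∀ q ∈ K, |g p - g q| ≤ (|C| + 1) * dist p q := by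
    intro p hp' q hq
    have h1 : |g p - g q| ≤ C * (dist p q + 0) :=
      le_of_tendsto_of_tendsto ((hp p hp').sub (hp q hq)).abs
        ((hε.const_add (dist p q)).const_mul C) (hl.mono fun n hn => hn p hp' q hq)
    nlinarith [le_abs_self C, dist_nonneg (x := p) (y := q)]
  have hC : 0 < |C| + 1 := by positivity
  refine ⟨Metric.tendstoUniformlyOn_iff.2 fun η hη => ?_, Metric.continuousOn_iff.2
    fun p hp' η hη => ⟨η / (|C| + 1), by positivity, fun q hq hd => ?_⟩⟩
  · have hδ : 0 < η / (4 * (|C| + 1)) := by positivity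
    have e : (|C| + 1) * (η / (4 * (|C| + 1))) = η / 4 := by field_simp
    obtain ⟨t, htK, htf, hcov⟩ := hK.finite_cover_balls hδ
    have h1 : ∀ᶠ n in l, ∀ q ∈ t, |f n q - g q| < η / 4 :=
      (eventually_all_finite htf).2 fun q hq =>
        Metric.tendsto_nhds.1 (hp q (htK hq)) (η / 4) (by positivity)
    have h2 : ∀ᶠ n in l, |ε n - 0| < η / (4 * (|C| + 1)) := Metric.tendsto_nhds.1 hε _ hδ
    filter_upwards [h1, h2, hl] with n e1 e2 e3 p hp'
    obtain ⟨q, hq, hpq⟩ := mem_iUnion₂.1 (hcov hp')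
    have d1 : dist p q < η / (4 * (|C| + 1)) := hpq
    have d2 := hg p hp' q (htK hq)
    have d3 := e3 p hp' q (htK hq)
    have d4 := e1 q hq
    have d5 := mul_lt_mul_of_pos_left d1 hC
    rw [sub_zero] at e2
    have d6 := mul_lt_mul_of_pos_left e2 hC
    have d7 : C * (dist p q + ε n) ≤ (|C| + 1) * dist p q + (|C| + 1) * |ε n| := by
      have a1 : C * ε n ≤ |C| * |ε n| := by rw [← abs_mul]; exact le_abs_self _
      nlinarith [le_abs_self C, dist_nonneg (x := p) (y := q), abs_nonneg (ε n)]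
    rw [Real.dist_eq]
    have d8 := abs_sub_le (g p) (g q) (f n p)
    have d9 := abs_sub_le (g q) (f n q) (f n p)
    rw [abs_sub_comm (g q) (f n q), abs_sub_comm (f n q) (f n p)] at d9
    linarith
  · rw [Real.dist_eq]
    refine (hg q hq p hp').trans_lt ?_
    rwa [lt_div_iff₀' hC] at hd

end Vale.Agent.P244.X
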