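import Vale.Agent.P244.X.Calc
import Vale.Agent.P244.Kit.PI

/-!
Block X: closure properties of `Tw`.
All by `ContDiffOn.congr` on `I ×ˢ Icc 0 1` with `iter_add`, `iter_mul` (`ContDiffOn.sum`),
`iter_cmul`, `iter_congr`.  `Tw.fixed`: hf.iter i composed with `Prod.snd`.
`Tw.w`: induction on `m`: `D^[i + 1] w = D^[i] (-2 D u * w)` (`iter_succ`, `D_w`, `iter_congr`).
`tw_B`: `B t y = ∫ z in 1..y, F t z` with `F = D B` (fundamental theorem of calculus,
`intervalIntegral.integral_eq_sub_of_hasDeriv_right` or `.._of_hasDerivAt_of_le`), `pi_snd` for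
`i = 0`, `D^[i + 1] B = D^[i] F` otherwise.  `tw_rhs`: unfold `rA`, `rB`, `Lop`, `a2`, ...
-/

namespace Vale.Agent.P244.X

open scoped ContDiff Topology
open Set Filter

variable {I : Set ℝ} {k m : ℕ} {u v : Fn}

theorem Tw.of_le {m' : ℕ} (h : Tw I k m u) (hm : m' ≤ m) : Tw I k m' u :=
  ⟨h.1, fun i hi => h.2 i (hi.trans hm)⟩

theorem Tw.D (h : Tw I k (m + 1) u) : Tw I k m fun t => D (u t) :=
  ⟨fun t ht => (h.1 t ht).D, fun i hi => h.2 (i + 1) (by omega)⟩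

theorem Tw.fixed {f : ℝ → ℝ} (hf : S f) : Tw I k m fun _ => f := by
  refine ⟨fun _ _ => hf, fun i _ => ?_⟩
  have h1 : ContDiffOn ℝ k (X.D^[i] f) (Icc 0 1) :=
    ContDiffOn.of_le (hf.iter i) (by exact_mod_cast le_top)
  exact ContDiffOn.comp (g := X.D^[i] f) (f := fun p : ℝ × ℝ => p.2) h1 contDiffOn_snd
    fun p hp => hp.2

theorem Tw.add (h : Tw I k m u) (h' : Tw I k m v) : Tw I k m fun t y => u t y + v t y := by
  refine ⟨fun t ht => (h.1 t ht).add (h'.1 t ht), fun i hi => ?_⟩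
  exact ((h.2 i hi).add (h'.2 i hi)).congr fun p hp =>
    iter_add (h.1 _ hp.1) (h'.1 _ hp.1) i hp.2

theorem Tw.mul (h : Tw I k m u) (h' : Tw I k m v) : Tw I k m fun t y => u t y * v t y := by
  refine ⟨fun t ht => (h.1 t ht).mul (h'.1 t ht), fun i hi => ?_⟩
  have h1 : ContDiffOn ℝ k (fun p : ℝ × ℝ => ∑ j ∈ Finset.range (i + 1),
      (i.choose j : ℝ) * X.D^[j] (u p.1) p.2 * X.D^[i - j] (v p.1) p.2) (I ×ˢ Icc 0 1) :=
    ContDiffOn.sum fun j hj => (contDiffOn_const.mul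
      (h.2 j (by have := Finset.mem_range.1 hj; omega))).mul (h'.2 (i - j) (by omega))
  exact h1.congr fun p hp => iter_mul (h.1 _ hp.1) (h'.1 _ hp.1) i hp.2

theorem twcl_congr (h : Tw I k m u) (e : ∀ t ∈ I, EqOn (v t) (u t) (Icc 0 1)) : Tw I k m v :=
  ⟨fun t ht => (h.1 t ht).congr (e t ht), fun i hi =>
    (h.2 i hi).congr fun p hp => iter_congr (e _ hp.1) i hp.2⟩

theorem twcl_succ (h0 : Tw I k 0 u) (hD : Tw I k m fun t => D (u t)) : Tw I k (m + 1) u := by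
  refine ⟨h0.1, fun i hi => ?_⟩
  cases i with
  | zero => exact h0.2 0 le_rfl
  | succ j => exact hD.2 j (by omega)

theorem twcl_cmul (h : Tw I k m u) (c : ℝ) : Tw I k m fun t y => c * u t y :=
  Tw.mul (u := fun _ _ => c) (Tw.fixed (S.const c)) h

theorem Tw.w (h : Tw I k m u) : Tw I k m fun t y => Real.exp (-2 * u t y) := by
  induction m with
  | zero =>
    refine ⟨fun t ht => (h.1 t ht).w, fun i hi => ?_⟩
    obtain rfl : i = 0 := by omega
    exact (contDiffOn_const.mul (h.2 0 le_rfl)).exp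
  | succ m ih =>
    have h1 := ih (h.of_le (Nat.le_succ m))
    refine twcl_succ (h1.of_le (Nat.zero_le m)) ?_
    exact twcl_congr ((twcl_cmul h.D (-2)).mul h1) fun t ht y hy => D_w (h.1 t ht) hy

theorem tw_B (hI : TI I) {A β B : Fn} (hT : ∀ t ∈ I, Tri (A t) (β t) (B t))
    (hA : Tw I k (m + 1) A) (hβ : Tw I k (m + 1) β) : Tw I k m B := by
  have hF : Tw I k m fun t => D (B t) := by
    refine twcl_congr ((twcl_cmul (hA.of_le (Nat.le_succ m)).w (-2)).mul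
      ((twcl_cmul (hA.D.mul hA.D) 4).add (twcl_cmul (hβ.D.mul hβ.D) 5))) fun t ht y hy => ?_
    rw [(hT t ht).eqB y hy]
    ring
  refine (twcl_succ ⟨fun t ht => (hT t ht).sB, fun i hi => ?_⟩ hF).of_le (Nat.le_succ m)
  obtain rfl : i = 0 := by omega
  refine (pi_snd hI.conv (convex_Icc 0 1) hI.uniq uJ (right_mem_Icc.2 zero_le_one) k
    (hF.2 0 (Nat.zero_le m))).congr fun p hp => ?_
  have hs : Icc p.2 1 ⊆ Icc (0 : ℝ) 1 := Icc_subset_Icc_left hp.2.1
  have hB := (hT _ hp.1).sB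
  have h1 := intervalIntegral.integral_eq_sub_of_hasDerivAt_of_le (f := B p.1) (f' := D (B p.1))
    hp.2.2 (hB.cont.mono hs) (fun x hx => hB.hasD' ⟨hp.2.1.trans_lt hx.1, hx.2⟩)
    ((hB.D.cont.mono hs).intervalIntegrable_of_Icc hp.2.2)
  rw [(hT _ hp.1).one] at h1
  show B p.1 p.2 = ∫ z in (1 : ℝ)..p.2, D (B p.1) z
  rw [intervalIntegral.integral_symm, h1]
  ring

theorem tw_rhs (hI : TI I) {A β B : Fn} (hT : ∀ t ∈ I, Tri (A t) (β t) (B t))
    (hA : Tw I k (m + 2) A) (hβ : Tw I k (m + 2) β) :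
    Tw I k m (fun t => rA (A t) (B t)) ∧ Tw I k m fun t => rB (A t) (β t) (B t) := by
  have hB : Tw I k m B := (tw_B hI hT hA hβ).of_le (Nat.le_succ m)
  have hw := (hA.of_le (Nat.le_add_right m 2)).w
  have hw' := (hβ.of_le (Nat.le_add_right m 2)).w
  have h2 : Tw I k m fun t => a2 (A t) := (Tw.fixed (S.v.cmul 4)).mul hw
  have h1 : Tw I k m fun t => a1 (A t) (B t) :=
    ((Tw.fixed (S.c.cmul 12)).mul hw).add ((Tw.fixed (S.v.cmul 2)).mul hB)
  have hL : ∀ {w : Fn}, Tw I k (m + 2) w → Tw I k m fun t => Lop (A t) (B t) (w t) :=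
    fun hu => (h2.mul hu.D.D).add (h1.mul (hu.D.of_le (Nat.le_succ m)))
  exact ⟨(hL hA).add ((twcl_cmul hw (-20)).add ((Tw.fixed S.c).mul hB)),
    (hL hβ).add (twcl_cmul hw' (-4))⟩

end Vale.Agent.P244.X
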